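import Vale.Agent.P335.Base

/-! P335: basic facts on averaging over fibres -/

namespace VP335

open Finset

noncomputable section

open Classical

variable {Ω β γ : Type*} [Fintype Ω]

theorem mem_fib {k : Ω → β} {x y : Ω} : y ∈ fib k x ↔ k y = k x := by
  simp [fib]

theorem self_mem_fib (k : Ω → β) (x : Ω) : x ∈ fib k x := by simp [fib]

theorem fib_card_pos (k : Ω → β) (x : Ω) : 0 < (fib k x).card :=
  card_pos.mpr ⟨x, self_mem_fib k x⟩

theorem fib_card_ne (k : Ω → β) (x : Ω) : ((fib k x).card : ℝ) ≠ 0 := by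
  have := fib_card_pos k x
  positivity

theorem fib_congr {k : Ω → β} {x y : Ω} (h : k x = k y) : fib k x = fib k y := by
  simp [fib, h]

theorem avg_const {k : Ω → β} (F : Ω → ℝ) {x y : Ω} (h : k x = k y) : avg k F x = avg k F y := by
  simp only [avg, fib_congr h]

/-- if `F` is constant on the fibre of `x` then `avg k F x = F x` -/
theorem avg_of_const {k : Ω → β} {F : Ω → ℝ} {x : Ω} (h : ∀ y, k y = k x → F y = F x) :
    avg k F x = F x := by
  unfold avg
  rw [sum_congr rfl (fun y hy => h y (mem_fib.mp hy)), sum_const, nsmul_eq_mul,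
    mul_comm, mul_div_assoc, div_self (fib_card_ne k x), mul_one]

theorem avg_congr {k : Ω → β} {F G : Ω → ℝ} {x : Ω} (h : ∀ y, k y = k x → F y = G y) :
    avg k F x = avg k G x := by
  unfold avg
  rw [sum_congr rfl (fun y hy => h y (mem_fib.mp hy))]

theorem avg_add (k : Ω → β) (F G : Ω → ℝ) (x : Ω) :
    avg k (fun y => F y + G y) x = avg k F x + avg k G x := by
  simp only [avg, sum_add_distrib, add_div]

theorem avg_sub (k : Ω → β) (F G : Ω → ℝ) (x : Ω) :
    avg k (fun y => F y - G y) x = avg k F x - avg k G x := by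
  simp only [avg, sum_sub_distrib, sub_div]

theorem avg_smul (k : Ω → β) (t : ℝ) (F : Ω → ℝ) (x : Ω) :
    avg k (fun y => t * F y) x = t * avg k F x := by
  simp only [avg, ← mul_sum, mul_div_assoc]

theorem avg_fsum {α : Type*} (s : Finset α) (k : Ω → β) (F : α → Ω → ℝ) (x : Ω) :
    avg k (fun y => ∑ a ∈ s, F a y) x = ∑ a ∈ s, avg k (F a) x := by
  simp only [avg]
  rw [sum_comm, sum_div]

/-- averages are self-adjoint -/
theorem ip_avg (k : Ω → β) (F G : Ω → ℝ) : ip (avg k F) G = ip F (avg k G) := by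
  unfold ip avg
  have h1 : ∀ x, (∑ y ∈ fib k x, F y) / ((fib k x).card : ℝ) * G x =
      ∑ y, (if k y = k x then F y * G x / ((fib k x).card : ℝ) else 0) := by
    intro x
    rw [← sum_filter, div_mul_eq_mul_div, sum_mul, sum_div]
    rfl
  have h2 : ∀ x, F x * ((∑ y ∈ fib k x, G y) / ((fib k x).card : ℝ)) =
      ∑ y, (if k y = k x then F x * G y / ((fib k x).card : ℝ) else 0) := by
    intro x
    rw [← sum_filter, ← mul_div_assoc, mul_sum, sum_div]
    rfl
  simp only [h1, h2]
  rw [sum_comm]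
  refine sum_congr rfl (fun x _ => sum_congr rfl (fun y _ => ?_))
  by_cases h : k x = k y
  · rw [if_pos h, if_pos h.symm, fib_congr h]
  · rw [if_neg h, if_neg (fun h' => h h'.symm)]

/-- averaging over the fibres of a finer map afterwards changes nothing -/
theorem avg_avg_coarser {k : Ω → β} {k' : Ω → γ} (h : ∀ x y, k x = k y → k' x = k' y)
    (F : Ω → ℝ) : avg k (avg k' F) = avg k' F := by
  funext x
  exact avg_of_const (fun y hy => avg_const F (h y x hy))

theorem ip_comm (F G : Ω → ℝ) : ip F G = ip G F := by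
  simp [ip, mul_comm]

theorem ip_self_nonneg (F : Ω → ℝ) : 0 ≤ ip F F :=
  sum_nonneg (fun _ _ => mul_self_nonneg _)

theorem ip_self_eq_zero {F : Ω → ℝ} (h : ip F F = 0) : F = 0 := by
  funext x
  have := (sum_eq_zero_iff_of_nonneg (fun x _ => mul_self_nonneg (F x))).mp h x (mem_univ x)
  simpa using mul_self_eq_zero.mp this

theorem ip_ext {F G : Ω → ℝ} (h : ∀ H : Ω → ℝ, ip F H = ip G H) : F = G := by
  funext x
  have := h (fun y => if y = x then 1 else 0)
  simpa [ip] using this

/-- averaging over the fibres of a finer map first changes nothing -/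
theorem avg_avg_finer {k : Ω → β} {k' : Ω → γ} (h : ∀ x y, k x = k y → k' x = k' y)
    (F : Ω → ℝ) : avg k' (avg k F) = avg k' F := by
  refine ip_ext (fun H => ?_)
  rw [ip_avg, ip_avg, avg_avg_coarser h, ← ip_avg]

theorem avg_idem (k : Ω → β) (F : Ω → ℝ) : avg k (avg k F) = avg k F :=
  avg_avg_finer (fun _ _ h => h) F

theorem sum_avg (k : Ω → β) (F : Ω → ℝ) : ∑ x, avg k F x = ∑ x, F x := by
  have h := ip_avg k F (fun _ => 1)
  have h1 : avg k (fun _ : Ω => (1 : ℝ)) = fun _ => 1 := by
    funext x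
    exact avg_of_const (fun _ _ => rfl)
  rw [h1] at h
  simpa [ip] using h

/-- `⟨F - PF, G - PG⟩ = ⟨F, G - PG⟩` -/
theorem ip_sub_avg (k : Ω → β) (F G : Ω → ℝ) :
    ip (fun x => F x - avg k F x) (fun x => G x - avg k G x) =
      ip F (fun x => G x - avg k G x) := by
  have h1 : ip (avg k F) (fun x => G x - avg k G x) = 0 := by
    rw [ip_avg]
    have : avg k (fun x => G x - avg k G x) = fun _ => 0 := by
      funext x
      rw [avg_sub, avg_idem, sub_self]
    rw [this]
    simp [ip]
  have h2 : ip (fun x => F x - avg k F x) (fun x => G x - avg k G x) =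
      ip F (fun x => G x - avg k G x) - ip (avg k F) (fun x => G x - avg k G x) := by
    simp only [ip, sub_mul, sum_sub_distrib]
  rw [h2, h1, sub_zero]

theorem abs_avg_le {k : Ω → β} {F : Ω → ℝ} {x : Ω} {B : ℝ} (h : ∀ y, k y = k x → |F y| ≤ B) :
    |avg k F x| ≤ B := by
  unfold avg
  have hp : (0 : ℝ) < (fib k x).card := by exact_mod_cast fib_card_pos k x
  rw [abs_div, abs_of_pos hp, div_le_iff₀ hp]
  calc |∑ y ∈ fib k x, F y| ≤ ∑ y ∈ fib k x, |F y| := abs_sum_le_sum_abs _ _
    _ ≤ ∑ _y ∈ fib k x, B := sum_le_sum (fun y hy => h y (mem_fib.mp hy))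
    _ = B * (fib k x).card := by rw [sum_const, nsmul_eq_mul, mul_comm]

/-- equivariance of averages -/
theorem avg_equiv {k : Ω → β} (σ : Ω ≃ Ω) (hσ : ∀ x y, k x = k y ↔ k (σ x) = k (σ y))
    (F : Ω → ℝ) (x : Ω) : avg k (fun y => F (σ y)) x = avg k F (σ x) := by
  unfold avg
  have h1 : fib k (σ x) = (fib k x).map σ.toEmbedding := by
    ext y
    simp only [mem_fib, mem_map, Equiv.coe_toEmbedding]
    constructor
    · intro h
      refine ⟨σ.symm y, (hσ _ _).mpr (by simpa using h), by simp⟩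
    · rintro ⟨z, hz, rfl⟩
      exact (hσ _ _).mp hz
  rw [h1, sum_map, card_map]
  rfl

theorem sum_sub_mean (F : Ω → ℝ) : ∑ x, (F x - mean F) = 0 := by
  rcases isEmpty_or_nonempty Ω with h | h
  · simp
  · rw [sum_sub_distrib, sum_const, card_univ, nsmul_eq_mul, mean, mul_div_assoc',
      mul_div_cancel_left₀ _ (by positivity), sub_self]

end

end VP335
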