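import Mathlib

/-!
# P335 (Kannan, Tetali and Vempala), bipartite / split case: base definitions
-/

namespace VP335

open Finset

noncomputable section

open Classical

/-- the inner product on real functions on a finite set -/
def ip {Ω : Type*} [Fintype Ω] (F G : Ω → ℝ) : ℝ := ∑ x, F x * G x

/-- the mean of a function -/
def mean {Ω : Type*} [Fintype Ω] (F : Ω → ℝ) : ℝ := (∑ x, F x) / (Fintype.card Ω : ℝ)

/-- the fibre of `k` through `x` -/
def fib {Ω β : Type*} [Fintype Ω] (k : Ω → β) (x : Ω) : Finset Ω :=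
  univ.filter (fun y => k y = k x)

/-- averaging over the fibres of `k` -/
def avg {Ω β : Type*} [Fintype Ω] (k : Ω → β) (F : Ω → ℝ) (x : Ω) : ℝ :=
  (∑ y ∈ fib k x, F y) / ((fib k x).card : ℝ)

/-- 0/1 tables with row sums `r` and column sums `c`, given by their rows (as finite sets of columns) -/
def Tab {κ ι : Type*} [Fintype κ] [Fintype ι] (r : κ → ℕ) (c : ι → ℕ) : Type _ :=
  {X : κ → Finset ι // (∀ k, (X k).card = r k) ∧ ∀ j, (univ.filter (fun k => j ∈ X k)).card = c j}

instance {κ ι : Type*} [Fintype κ] [Fintype ι] (r : κ → ℕ) (c : ι → ℕ) : Fintype (Tab r c) := by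
  unfold Tab
  infer_instance

/-- everything outside the rows in `a` -/
def key {κ ι : Type*} [Fintype κ] [Fintype ι] {r : κ → ℕ} {c : ι → ℕ} (a : Finset κ)
    (X : Tab r c) : κ → Finset ι :=
  fun k => if k ∈ a then ∅ else X.1 k

/-- resample the rows in `a` given all other rows -/
def E {κ ι : Type*} [Fintype κ] [Fintype ι] {r : κ → ℕ} {c : ι → ℕ} (a : Finset κ)
    (F : Tab r c → ℝ) : Tab r c → ℝ :=
  avg (key a) F

/-- the generator of the row-pair heat-bath dynamics -/
def L {κ ι : Type*} [Fintype κ] [Fintype ι] {r : κ → ℕ} {c : ι → ℕ}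
    (F : Tab r c → ℝ) : Tab r c → ℝ :=
  fun X => ∑ a ∈ powersetCard 2 (univ : Finset κ), (F X - E a F X)

/-- swap the columns `i` and `j` (allowed when they have the same column sum) -/
def swapCol {κ ι : Type*} [Fintype κ] [Fintype ι] {r : κ → ℕ} {c : ι → ℕ} (i j : ι)
    (hc : c i = c j) (X : Tab r c) : Tab r c :=
  ⟨fun k => (X.1 k).map (Equiv.swap i j).toEmbedding, by
    refine ⟨fun k => by rw [card_map]; exact X.2.1 k, fun j' => ?_⟩
    have h1 : (univ.filter (fun k => j' ∈ (X.1 k).map (Equiv.swap i j).toEmbedding)) =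
        univ.filter (fun k => Equiv.swap i j j' ∈ X.1 k) := by
      ext k
      simp only [mem_filter, mem_univ, true_and, mem_map, Equiv.coe_toEmbedding]
      constructor
      · rintro ⟨a, ha, rfl⟩
        simpa using ha
      · intro h
        exact ⟨_, h, by simp⟩
    rw [h1, X.2.2]
    by_cases h2 : j' = i
    · subst h2; simp [hc]
    · by_cases h3 : j' = j
      · subst h3; simp [hc]
      · rw [Equiv.swap_apply_of_ne_of_ne h2 h3]⟩

/-- number of columns of sum `1` in row `k` -/
def sz {κ ι : Type*} [Fintype κ] [Fintype ι] {r : κ → ℕ} {c : ι → ℕ} (k : κ)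
    (X : Tab r c) : ℕ :=
  ((X.1 k).filter (fun j => c j = 1)).card

/-- `X` and `Y` differ by one switch in the rows `k`, `l` -/
def swRel {κ ι : Type*} [Fintype κ] [Fintype ι] {r : κ → ℕ} {c : ι → ℕ} (k l : κ)
    (X Y : Tab r c) : Prop :=
  (∀ k', k' ≠ k → k' ≠ l → X.1 k' = Y.1 k') ∧ (X.1 k \ Y.1 k).card = 1

/-- hypergeometric average of `f`: `(∑_a C(N,a) C(M,p-a) f a) / C(N+M,p)` -/
def hyp (N M p : ℕ) (f : ℕ → ℝ) : ℝ :=
  (∑ a ∈ range (p + 1), (N.choose a : ℝ) * (M.choose (p - a) : ℝ) * f a) / ((N + M).choose p : ℝ)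

end

end VP335
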