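import Vale.Agent.P335.Avg

/-! P335: resampling disjoint sets of rows commutes -/

namespace VP335

open Finset

noncomputable section

open Classical

variable {κ ι : Type*} [Fintype κ] [Fintype ι]

theorem disj_key_iff {r : κ → ℕ} {c : ι → ℕ} (a : Finset κ) (X Y : Tab r c) :
    key a Y = key a X ↔ ∀ k, k ∉ a → Y.1 k = X.1 k := by
  constructor
  · intro h k hk
    have := congrFun h k
    simpa [key, hk] using this
  · intro h
    funext k
    unfold key
    by_cases hk : k ∈ a
    · simp [hk]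
    · simp [hk, h k hk]

omit [Fintype ι] in
theorem disj_count (s : Finset κ) (Q : κ → Finset ι) (j : ι) :
    (univ.filter (fun k => j ∈ Q k)).card =
      ∑ k ∈ s, (if j ∈ Q k then 1 else 0) + ∑ k ∈ sᶜ, (if j ∈ Q k then 1 else 0) := by
  rw [Finset.card_filter, Finset.sum_add_sum_compl]

/-- rows of `Y` in `a`, rows of `Z` elsewhere -/
def disj_mix {r : κ → ℕ} {c : ι → ℕ} (a : Finset κ) (Y Z : Tab r c) : Tab r c :=
  if h : (∀ k, (if k ∈ a then Y.1 k else Z.1 k).card = r k) ∧
      ∀ j, (univ.filter (fun k => j ∈ (if k ∈ a then Y.1 k else Z.1 k))).card = c j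
  then ⟨fun k => if k ∈ a then Y.1 k else Z.1 k, h⟩ else Z

theorem disj_mix_val {r : κ → ℕ} {c : ι → ℕ} (a : Finset κ) (X Y Z : Tab r c)
    (hY : ∀ k, k ∉ a → Y.1 k = X.1 k) (hZ : ∀ k, k ∈ a → Z.1 k = X.1 k) :
    (disj_mix a Y Z).1 = fun k => if k ∈ a then Y.1 k else Z.1 k := by
  have h : (∀ k, (if k ∈ a then Y.1 k else Z.1 k).card = r k) ∧
      ∀ j, (univ.filter (fun k => j ∈ (if k ∈ a then Y.1 k else Z.1 k))).card = c j := by
    constructor
    · intro k
      split_ifs
      · exact Y.2.1 k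
      · exact Z.2.1 k
    · intro j
      have e1 := disj_count a X.1 j
      have e2 := disj_count a Y.1 j
      have e3 := disj_count a Z.1 j
      have e4 := disj_count a (fun k => if k ∈ a then Y.1 k else Z.1 k) j
      rw [X.2.2 j] at e1
      rw [Y.2.2 j] at e2
      rw [Z.2.2 j] at e3
      have f1 : ∑ k ∈ aᶜ, (if j ∈ Y.1 k then 1 else 0) = ∑ k ∈ aᶜ, (if j ∈ X.1 k then 1 else 0) :=
        sum_congr rfl fun k hk => by rw [hY k (mem_compl.1 hk)]
      have f2 : ∑ k ∈ a, (if j ∈ Z.1 k then 1 else 0) = ∑ k ∈ a, (if j ∈ X.1 k then 1 else 0) :=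
        sum_congr rfl fun k hk => by rw [hZ k hk]
      have f3 : ∑ k ∈ a, (if j ∈ (if k ∈ a then Y.1 k else Z.1 k) then 1 else 0) =
          ∑ k ∈ a, (if j ∈ Y.1 k then 1 else 0) :=
        sum_congr rfl fun k hk => by rw [if_pos hk]
      have f4 : ∑ k ∈ aᶜ, (if j ∈ (if k ∈ a then Y.1 k else Z.1 k) then 1 else 0) =
          ∑ k ∈ aᶜ, (if j ∈ Z.1 k then 1 else 0) :=
        sum_congr rfl fun k hk => by rw [if_neg (mem_compl.1 hk)]
      rw [f3, f4] at e4
      rw [e4]
      omega
  have h2 : disj_mix a Y Z = ⟨fun k => if k ∈ a then Y.1 k else Z.1 k, h⟩ := dif_pos h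
  rw [h2]

theorem disj_mem {r : κ → ℕ} {c : ι → ℕ} {a : Finset κ} {X Y : Tab r c} :
    Y ∈ fib (key a) X ↔ ∀ k, k ∉ a → Y.1 k = X.1 k := by
  rw [mem_fib, disj_key_iff]

theorem disj_inner {r : κ → ℕ} {c : ι → ℕ} (a b : Finset κ) (h : Disjoint a b)
    (F : Tab r c → ℝ) (X Y : Tab r c) (hY : Y ∈ fib (key a) X) :
    E b F Y = (∑ Z ∈ fib (key b) X, F (disj_mix a Y Z)) / ((fib (key b) X).card : ℝ) := by
  rw [disj_mem] at hY
  have hab : ∀ k, k ∈ a → k ∉ b := fun k hk hk' => Finset.disjoint_left.1 h hk hk'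
  have hfw : ∀ Z ∈ fib (key b) X, disj_mix a Y Z ∈ fib (key b) Y := by
    intro Z hZ
    rw [disj_mem] at hZ ⊢
    intro k hk
    rw [disj_mix_val a X Y Z hY (fun k hk => hZ k (hab k hk))]
    show (if k ∈ a then Y.1 k else Z.1 k) = Y.1 k
    by_cases hka : k ∈ a
    · rw [if_pos hka]
    · rw [if_neg hka, hZ k hk, hY k hka]
  have hbw : ∀ W ∈ fib (key b) Y, disj_mix a X W ∈ fib (key b) X := by
    intro W hW
    rw [disj_mem] at hW ⊢
    intro k hk
    rw [disj_mix_val a Y X W (fun k hk => (hY k hk).symm) (fun k hk => hW k (hab k hk))]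
    show (if k ∈ a then X.1 k else W.1 k) = X.1 k
    by_cases hka : k ∈ a
    · rw [if_pos hka]
    · rw [if_neg hka, hW k hk, hY k hka]
  have hl : ∀ Z ∈ fib (key b) X, disj_mix a X (disj_mix a Y Z) = Z := by
    intro Z hZ
    have hW := hfw Z hZ
    rw [disj_mem] at hZ hW
    apply Subtype.ext
    rw [disj_mix_val a Y X _ (fun k hk => (hY k hk).symm) (fun k hk => hW k (hab k hk)),
      disj_mix_val a X Y Z hY (fun k hk => hZ k (hab k hk))]
    funext k
    by_cases hka : k ∈ a
    · simp only [if_pos hka]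
      exact (hZ k (hab k hka)).symm
    · simp only [if_neg hka]
  have hr : ∀ W ∈ fib (key b) Y, disj_mix a Y (disj_mix a X W) = W := by
    intro W hW
    have hZ := hbw W hW
    rw [disj_mem] at hZ hW
    apply Subtype.ext
    rw [disj_mix_val a X Y _ hY (fun k hk => hZ k (hab k hk)),
      disj_mix_val a Y X W (fun k hk => (hY k hk).symm) (fun k hk => hW k (hab k hk))]
    funext k
    by_cases hka : k ∈ a
    · simp only [if_pos hka]
      exact (hW k (hab k hka)).symm
    · simp only [if_neg hka]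
  have hsum : ∑ W ∈ fib (key b) Y, F W = ∑ Z ∈ fib (key b) X, F (disj_mix a Y Z) := by
    symm
    exact Finset.sum_bij' (fun Z _ => disj_mix a Y Z) (fun W _ => disj_mix a X W) hfw hbw hl hr
      (fun _ _ => rfl)
  have hcard : (fib (key b) Y).card = (fib (key b) X).card := by
    symm
    exact Finset.card_bij' (fun Z _ => disj_mix a Y Z) (fun W _ => disj_mix a X W) hfw hbw hl hr
  show (∑ W ∈ fib (key b) Y, F W) / ((fib (key b) Y).card : ℝ) = _
  rw [hsum, hcard]

theorem disj_EE {r : κ → ℕ} {c : ι → ℕ} (a b : Finset κ) (h : Disjoint a b)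
    (F : Tab r c → ℝ) (X : Tab r c) :
    E a (E b F) X = (∑ Y ∈ fib (key a) X, ∑ Z ∈ fib (key b) X, F (disj_mix a Y Z)) /
      (((fib (key b) X).card : ℝ) * ((fib (key a) X).card : ℝ)) := by
  show (∑ Y ∈ fib (key a) X, E b F Y) / ((fib (key a) X).card : ℝ) = _
  rw [Finset.sum_congr rfl (fun Y hY => disj_inner a b h F X Y hY), ← Finset.sum_div, div_div]

theorem E_comm_disj {r : κ → ℕ} {c : ι → ℕ} (a b : Finset κ) (h : Disjoint a b)
    (F : Tab r c → ℝ) : E a (E b F) = E b (E a F) := by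
  funext X
  rw [disj_EE a b h, disj_EE b a h.symm, Finset.sum_comm, mul_comm]
  congr 1
  refine Finset.sum_congr rfl fun Z hZ => Finset.sum_congr rfl fun Y hY => ?_
  rw [disj_mem] at hZ hY
  have hab : ∀ k, k ∈ a → k ∉ b := fun k hk hk' => Finset.disjoint_left.1 h hk hk'
  have hba : ∀ k, k ∈ b → k ∉ a := fun k hk hk' => Finset.disjoint_left.1 h hk' hk
  have e : disj_mix a Y Z = disj_mix b Z Y := by
    apply Subtype.ext
    rw [disj_mix_val a X Y Z hY (fun k hk => hZ k (hab k hk)),
      disj_mix_val b X Z Y hZ (fun k hk => hY k (hba k hk))]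
    funext k
    by_cases hka : k ∈ a
    · simp only [if_pos hka, if_neg (hab k hka)]
    · by_cases hkb : k ∈ b
      · simp only [if_neg hka, if_pos hkb]
      · simp only [if_neg hka, if_neg hkb]
        rw [hZ k hkb, hY k hka]
  rw [e]

theorem ip_disj_nonneg {r : κ → ℕ} {c : ι → ℕ} (a b : Finset κ) (h : Disjoint a b)
    (F : Tab r c → ℝ) :
    0 ≤ ip (fun X => F X - E a F X) (fun X => F X - E b F X) := by
  -- the projections
  have hsa : ∀ (s : Finset κ) (G H : Tab r c → ℝ),
      ip (fun X => G X - E s G X) H = ip G (fun X => H X - E s H X) := by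
    intro s G H
    have h1 := ip_avg (key s) G H
    have h2 : ip (fun X => G X - E s G X) H = ip G H - ip (E s G) H := by
      simp only [ip, sub_mul, Finset.sum_sub_distrib]
    have h3 : ip G (fun X => H X - E s H X) = ip G H - ip G (E s H) := by
      simp only [ip, mul_sub, Finset.sum_sub_distrib]
    rw [h2, h3]
    congr 1
  have hcomm : (fun X => (F X - E b F X) - E a (fun Y => F Y - E b F Y) X) =
      fun X => (F X - E a F X) - E b (fun Y => F Y - E a F Y) X := by
    funext X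
    have h1 : E a (fun Y => F Y - E b F Y) X = E a F X - E a (E b F) X := avg_sub _ _ _ _
    have h2 : E b (fun Y => F Y - E a F Y) X = E b F X - E b (E a F) X := avg_sub _ _ _ _
    rw [h1, h2, E_comm_disj a b h F]
    ring
  have h1 := ip_sub_avg (key a) (fun Y => F Y - E b F Y) (fun Y => F Y - E b F Y)
  have h2 : ip (fun Y => F Y - E b F Y)
      (fun X => (F X - E b F X) - E a (fun Y => F Y - E b F Y) X) =
      ip (fun X => F X - E a F X) (fun X => F X - E b F X) := by
    rw [hcomm]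
    have h3 := ip_sub_avg (key b) F (fun Y => F Y - E a F Y)
    have h4 : ip (fun Y => F Y - E b F Y) (fun X => (F X - E a F X) -
        E b (fun Y => F Y - E a F Y) X) = ip F (fun X => (F X - E a F X) -
        E b (fun Y => F Y - E a F Y) X) := h3
    rw [h4, ← hcomm, ← hsa a F (fun Y => F Y - E b F Y)]
  rw [← h2]
  have h5 : ip (fun Y => F Y - E b F Y)
      (fun X => (F X - E b F X) - E a (fun Y => F Y - E b F Y) X) =
      ip (fun X => (F X - E b F X) - E a (fun Y => F Y - E b F Y) X)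
        (fun X => (F X - E b F X) - E a (fun Y => F Y - E b F Y) X) := h1.symm
  rw [h5]
  exact ip_self_nonneg _

end

end VP335
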