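import Vale.Agent.P335.Triple
import Vale.Agent.P335.Disj

/-! P335: `L^2 ≥ L` -/

namespace VP335

open Finset

noncomputable section

open Classical

variable {κ ι : Type*} [Fintype κ] [Fintype ι]

/-- `F` minus its average over the fibres of `key a` -/
private def Bochner_Q {r : κ → ℕ} {c : ι → ℕ} (a : Finset κ) (F : Tab r c → ℝ) : Tab r c → ℝ :=
  fun X => F X - E a F X

private lemma Bochner_ip_sum_left {Ω α : Type*} [Fintype Ω] (s : Finset α) (f : α → Ω → ℝ)
    (G : Ω → ℝ) : ip (fun X => ∑ a ∈ s, f a X) G = ∑ a ∈ s, ip (f a) G := by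
  unfold ip
  simp only [sum_mul]
  rw [sum_comm]

private lemma Bochner_ip_sum_right {Ω α : Type*} [Fintype Ω] (s : Finset α) (f : α → Ω → ℝ)
    (G : Ω → ℝ) : ip G (fun X => ∑ a ∈ s, f a X) = ∑ a ∈ s, ip G (f a) := by
  unfold ip
  simp only [mul_sum]
  rw [sum_comm]

private lemma Bochner_Q_self {r : κ → ℕ} {c : ι → ℕ} (a : Finset κ) (F : Tab r c → ℝ) :
    ip F (Bochner_Q a F) = ip (Bochner_Q a F) (Bochner_Q a F) :=
  (ip_sub_avg (key a : Tab r c → κ → Finset ι) F F).symm

private lemma Bochner_key_mono {r : κ → ℕ} {c : ι → ℕ} {a t : Finset κ} (h : a ⊆ t)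
    {X Y : Tab r c} (hk : key a X = key a Y) : key t X = key t Y := by
  funext k
  unfold key
  by_cases hm : k ∈ t
  · rw [if_pos hm, if_pos hm]
  · rw [if_neg hm, if_neg hm]
    have h1 := congrFun hk k
    unfold key at h1
    rw [if_neg (fun h' => hm (h h')), if_neg (fun h' => hm (h h'))] at h1
    exact h1

private lemma Bochner_E_Q {r : κ → ℕ} {c : ι → ℕ} {a t : Finset κ} (h : a ⊆ t)
    (F : Tab r c → ℝ) (X : Tab r c) : E t (Bochner_Q a F) X = 0 := by
  have h1 : E t (E a F) = E t F :=
    avg_avg_finer (k := (key a : Tab r c → κ → Finset ι)) (k' := key t)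
      (fun x y hxy => Bochner_key_mono h hxy) F
  have h2 : E t (Bochner_Q a F) X = E t F X - E t (E a F) X :=
    avg_sub (key t) F (E a F) X
  rw [h2, h1, sub_self]

private lemma Bochner_cs {Ω : Type*} [Fintype Ω] (F G : Ω → ℝ) :
    (ip F G) ^ 2 ≤ ip F F * ip G G := by
  have := Finset.sum_mul_sq_le_sq_mul_sq (univ : Finset Ω) F G
  unfold ip
  simpa [sq] using this

private lemma Bochner_triple_sum {r : κ → ℕ} {c : ι → ℕ} (t : Finset κ) (ht : t.card = 3)
    (F : Tab r c → ℝ) :
    ip (Bochner_Q t F) (Bochner_Q t F) ≤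
      ∑ a ∈ powersetCard 2 t, ip (Bochner_Q a F) (Bochner_Q a F) := by
  obtain ⟨u, v, w, huv, huw, hvw, rfl⟩ := card_eq_three.mp ht
  have h := triple_ineq u v w huv huw hvw F
  have hps : powersetCard 2 ({u, v, w} : Finset κ) = {{u, v}, {u, w}, {v, w}} := by
    symm
    apply eq_of_subset_of_card_le
    · intro a ha
      simp only [mem_insert, mem_singleton] at ha
      rw [mem_powersetCard]
      rcases ha with rfl | rfl | rfl
      · exact ⟨by intro x hx; simp only [mem_insert, mem_singleton] at hx ⊢; tauto,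
          card_pair huv⟩
      · exact ⟨by intro x hx; simp only [mem_insert, mem_singleton] at hx ⊢; tauto,
          card_pair huw⟩
      · exact ⟨by intro x hx; simp only [mem_insert, mem_singleton] at hx ⊢; tauto,
          card_pair hvw⟩
    · rw [card_powersetCard, ht]
      have h3 : ({{u, v}, {u, w}, {v, w}} : Finset (Finset κ)).card = 3 := by
        rw [card_eq_three]
        refine ⟨{u, v}, {u, w}, {v, w}, ?_, ?_, ?_, rfl⟩
        · intro he
          have : v ∈ ({u, w} : Finset κ) := he ▸ (by simp)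
          simp only [mem_insert, mem_singleton] at this
          rcases this with h' | h'
          · exact huv h'.symm
          · exact hvw h'
        · intro he
          have : u ∈ ({v, w} : Finset κ) := he ▸ (by simp)
          simp only [mem_insert, mem_singleton] at this
          rcases this with h' | h'
          · exact huv h'
          · exact huw h'
        · intro he
          have : u ∈ ({v, w} : Finset κ) := he ▸ (by simp)
          simp only [mem_insert, mem_singleton] at this
          rcases this with h' | h'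
          · exact huv h'
          · exact huw h'
      rw [h3]
      decide
  have hne1 : ({u, v} : Finset κ) ∉ ({{u, w}, {v, w}} : Finset (Finset κ)) := by
    simp only [mem_insert, mem_singleton, not_or]
    constructor
    · intro he
      have : v ∈ ({u, w} : Finset κ) := he ▸ (by simp)
      simp only [mem_insert, mem_singleton] at this
      rcases this with h' | h'
      · exact huv h'.symm
      · exact hvw h'
    · intro he
      have : u ∈ ({v, w} : Finset κ) := he ▸ (by simp)
      simp only [mem_insert, mem_singleton] at this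
      rcases this with h' | h'
      · exact huv h'
      · exact huw h'
  have hne2 : ({u, w} : Finset κ) ∉ ({{v, w}} : Finset (Finset κ)) := by
    simp only [mem_singleton]
    intro he
    have : u ∈ ({v, w} : Finset κ) := he ▸ (by simp)
    simp only [mem_insert, mem_singleton] at this
    rcases this with h' | h'
    · exact huv h'
    · exact huw h'
  rw [hps, sum_insert hne1, sum_insert hne2, sum_singleton]
  have hq : ∀ a : Finset κ, ip (Bochner_Q a F) (Bochner_Q a F) = ∑ X, (F X - E a F X) ^ 2 := by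
    intro a
    unfold ip Bochner_Q
    exact sum_congr rfl (fun X _ => (sq _).symm)
  rw [hq, hq, hq, hq]
  linarith

private lemma Bochner_triple_nonneg {r : κ → ℕ} {c : ι → ℕ} (t : Finset κ) (ht : t.card = 3)
    (F : Tab r c → ℝ) :
    ∑ a ∈ powersetCard 2 t, ip (Bochner_Q a F) (Bochner_Q a F) ≤
      ∑ a ∈ powersetCard 2 t, ∑ b ∈ powersetCard 2 t, ip (Bochner_Q a F) (Bochner_Q b F) := by
  set A : Tab r c → ℝ := fun X => ∑ a ∈ powersetCard 2 t, Bochner_Q a F X with hA
  set x := ∑ a ∈ powersetCard 2 t, ip (Bochner_Q a F) (Bochner_Q a F) with hx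
  have hy : ∑ a ∈ powersetCard 2 t, ∑ b ∈ powersetCard 2 t,
      ip (Bochner_Q a F) (Bochner_Q b F) = ip A A := by
    rw [hA, Bochner_ip_sum_left]
    refine sum_congr rfl (fun a _ => ?_)
    rw [Bochner_ip_sum_right]
  rw [hy]
  have hxF : ip F A = x := by
    rw [hA, Bochner_ip_sum_right, hx]
    exact sum_congr rfl (fun a _ => Bochner_Q_self a F)
  have hEA : ip (E t F) A = 0 := by
    unfold E
    rw [ip_avg]
    have : avg (key t : Tab r c → κ → Finset ι) A = fun _ => 0 := by
      funext X
      rw [hA, avg_fsum]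
      refine sum_eq_zero (fun a ha => ?_)
      exact Bochner_E_Q (mem_powersetCard.mp ha).1 F X
    rw [this]
    simp [ip]
  have hQt : ip (Bochner_Q t F) A = x := by
    have : ip (Bochner_Q t F) A = ip F A - ip (E t F) A := by
      unfold ip Bochner_Q
      simp only [sub_mul, sum_sub_distrib]
    rw [this, hxF, hEA, sub_zero]
  have hcs := Bochner_cs (Bochner_Q t F) A
  rw [hQt] at hcs
  have ht3 := Bochner_triple_sum t ht F
  rw [← hx] at ht3
  have hA0 := ip_self_nonneg A
  have h1 : x ^ 2 ≤ x * ip A A := le_trans hcs (mul_le_mul_of_nonneg_right ht3 hA0)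
  have hx0 : 0 ≤ x := sum_nonneg (fun a _ => ip_self_nonneg _)
  rcases hx0.lt_or_eq with h | h
  · nlinarith
  · rw [← h]
    exact hA0

/-- ordered pairs of distinct, non-disjoint 2-sets -/
private def Bochner_S (κ : Type*) [Fintype κ] : Finset (Finset κ × Finset κ) :=
  ((powersetCard 2 (univ : Finset κ)) ×ˢ (powersetCard 2 (univ : Finset κ))).filter
    (fun p => p.1 ≠ p.2 ∧ ¬ Disjoint p.1 p.2)

private lemma Bochner_card_union {a b : Finset κ} (ha : a.card = 2) (hb : b.card = 2)
    (hab : a ≠ b) (hd : ¬ Disjoint a b) : (a ∪ b).card = 3 := by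
  have h1 := card_union_add_card_inter a b
  have h2 : 0 < (a ∩ b).card := by
    rw [card_pos]
    exact not_disjoint_iff_nonempty_inter.mp hd
  have h3 : (a ∩ b).card < 2 := by
    by_contra h
    push Not at h
    have h4 : a ∩ b = a := eq_of_subset_of_card_le inter_subset_left (by omega)
    have h5 : a ∩ b = b := eq_of_subset_of_card_le inter_subset_right (by omega)
    exact hab (h4.symm.trans h5)
  omega

private lemma Bochner_group (f : Finset κ × Finset κ → ℝ) :
    ∑ p ∈ Bochner_S κ, f p =
      ∑ t ∈ powersetCard 3 (univ : Finset κ),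
        ∑ p ∈ ((powersetCard 2 t) ×ˢ (powersetCard 2 t)).filter (fun p => p.1 ≠ p.2), f p := by
  rw [← sum_fiberwise_of_maps_to (s := Bochner_S κ) (t := powersetCard 3 (univ : Finset κ))
    (g := fun p => p.1 ∪ p.2)]
  · refine sum_congr rfl (fun t ht => ?_)
    have ht3 := (mem_powersetCard.mp ht).2
    refine sum_congr ?_ (fun _ _ => rfl)
    ext ⟨a, b⟩
    simp only [Bochner_S, mem_filter, mem_product, mem_powersetCard, subset_univ, true_and]
    constructor
    · rintro ⟨⟨⟨ha, hb⟩, hab, hd⟩, rfl⟩
      exact ⟨⟨⟨subset_union_left, ha⟩, ⟨subset_union_right, hb⟩⟩, hab⟩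
    · rintro ⟨⟨⟨hat, ha⟩, ⟨hbt, hb⟩⟩, hab⟩
      have hd : ¬ Disjoint a b := by
        intro h
        have h1 := card_union_of_disjoint h
        have h2 := card_le_card (union_subset hat hbt)
        omega
      have h3 := Bochner_card_union ha hb hab hd
      exact ⟨⟨⟨ha, hb⟩, hab, hd⟩, eq_of_subset_of_card_le (union_subset hat hbt) (by omega)⟩
  · rintro ⟨a, b⟩ hp
    simp only [Bochner_S, mem_filter, mem_product, mem_powersetCard, subset_univ,
      true_and] at hp
    obtain ⟨⟨ha, hb⟩, hab, hd⟩ := hp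
    rw [mem_powersetCard]
    exact ⟨subset_univ _, Bochner_card_union ha hb hab hd⟩

private lemma Bochner_offdiag {α : Type*} (s : Finset α) (f : α × α → ℝ)
    [DecidablePred (fun p : α × α => p.1 ≠ p.2)] :
    ∑ p ∈ (s ×ˢ s).filter (fun p => p.1 ≠ p.2), f p =
      ∑ a ∈ s, ∑ b ∈ s, f (a, b) - ∑ a ∈ s, f (a, a) := by
  have h1 : ∑ a ∈ s, ∑ b ∈ s, f (a, b) = ∑ p ∈ s ×ˢ s, f p := by
    rw [sum_product]
  have h2 : ∑ a ∈ s, f (a, a) = ∑ p ∈ (s ×ˢ s).filter (fun p => ¬ (p.1 ≠ p.2)), f p := by
    symm
    refine sum_nbij' (fun p => p.1) (fun a => (a, a)) ?_ ?_ ?_ ?_ ?_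
    · rintro ⟨a, b⟩ hp
      simp only [mem_filter, mem_product] at hp
      exact hp.1.1
    · intro a ha
      simp [ha]
    · rintro ⟨a, b⟩ hp
      simp only [mem_filter, mem_product, ne_eq, not_not] at hp
      rw [hp.2]
    · intro a _
      rfl
    · rintro ⟨a, b⟩ hp
      simp only [mem_filter, mem_product, ne_eq, not_not] at hp
      rw [hp.2]
  rw [h1, h2, ← sum_filter_add_sum_filter_not (s ×ˢ s) (fun p => p.1 ≠ p.2) f]
  ring

theorem bochner {r : κ → ℕ} {c : ι → ℕ} (F : Tab r c → ℝ) : ip F (L F) ≤ ip (L F) (L F) := by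
  set P := powersetCard 2 (univ : Finset κ) with hP
  have hL : L F = fun X => ∑ a ∈ P, Bochner_Q a F X := rfl
  have h1 : ip F (L F) = ∑ a ∈ P, ip (Bochner_Q a F) (Bochner_Q a F) := by
    rw [hL, Bochner_ip_sum_right]
    exact sum_congr rfl (fun a _ => Bochner_Q_self a F)
  have h2 : ip (L F) (L F) = ∑ a ∈ P, ∑ b ∈ P, ip (Bochner_Q a F) (Bochner_Q b F) := by
    rw [hL, Bochner_ip_sum_left]
    refine sum_congr rfl (fun a _ => ?_)
    rw [Bochner_ip_sum_right]
  set f : Finset κ × Finset κ → ℝ := fun p => ip (Bochner_Q p.1 F) (Bochner_Q p.2 F) with hf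
  have h3 := Bochner_offdiag P f
  have h4 : 0 ≤ ∑ p ∈ (P ×ˢ P).filter (fun p => p.1 ≠ p.2), f p := by
    rw [← sum_filter_add_sum_filter_not ((P ×ˢ P).filter (fun p => p.1 ≠ p.2))
      (fun p => Disjoint p.1 p.2) f]
    apply add_nonneg
    · refine sum_nonneg ?_
      rintro ⟨a, b⟩ hp
      simp only [mem_filter] at hp
      exact ip_disj_nonneg a b hp.2 F
    · have h5 : ((P ×ˢ P).filter (fun p => p.1 ≠ p.2)).filter (fun p => ¬ Disjoint p.1 p.2) =
          Bochner_S κ := by
        rw [filter_filter]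
        rfl
      rw [h5, Bochner_group]
      refine sum_nonneg (fun t ht => ?_)
      rw [Bochner_offdiag]
      have h6 := Bochner_triple_nonneg t (mem_powersetCard.mp ht).2 F
      simp only [hf]
      linarith
  rw [h3] at h4
  simp only [hf] at h4
  rw [h1, h2]
  linarith

end

end VP335
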