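import Vale.Agent.P335.Defs

/-! P335: basic facts on the switch chain -/

namespace VP335

open Finset

noncomputable section

open Classical

/-- `H` arises from `G` by a switch -/
def IsSw {n : ℕ} (G H : SimpleGraph (Fin n)) : Prop :=
  ∃ a b x y : Fin n, a ≠ b ∧ x ≠ y ∧ a ≠ x ∧ a ≠ y ∧ b ≠ x ∧ b ≠ y ∧
    G.Adj a x ∧ G.Adj b y ∧ ¬ G.Adj a y ∧ ¬ G.Adj b x ∧
    H.edgeSet = (G.edgeSet \ {s(a, x), s(b, y)}) ∪ {s(a, y), s(b, x)}

/-- the shape of perfect matchings -/
theorem Chain_pm_form {n : ℕ} {S : Finset (Fin n)} {F : Finset (Sym2 (Fin n))} (hS : S.card = 4)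
    (h : IsPM S F) : ∃ a b c d : Fin n, a ≠ b ∧ a ≠ c ∧ a ≠ d ∧ b ≠ c ∧ b ≠ d ∧ c ≠ d ∧
      S = {a, b, c, d} ∧ F = {s(a, b), s(c, d)} := by
  obtain ⟨hc, hd, hv⟩ := h
  obtain ⟨e, f, hef, rfl⟩ := Finset.card_eq_two.mp hc
  induction e using Sym2.ind with
  | _ a b =>
  induction f using Sym2.ind with
  | _ c d =>
  have hS' : S = {a, b, c, d} := by
    ext v
    rw [hv v]
    simp only [Finset.mem_insert, Finset.mem_singleton, exists_eq_or_imp, exists_eq_left,
      Sym2.mem_iff]
    tauto
  have h4 : ({a, b, c, d} : Finset (Fin n)).card = 4 := by rw [← hS', hS]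
  have hab : a ≠ b := by
    rintro rfl
    exact hd s(a, a) (by simp) (by simp)
  have hcd : c ≠ d := by
    rintro rfl
    exact hd s(c, c) (by simp) (by simp)
  have key : ∀ x y z : Fin n, ({a, b, c, d} : Finset (Fin n)) ⊆ {x, y, z} → False := by
    intro x y z hxyz
    have h1 := Finset.card_le_card hxyz
    have h2 : ({x, y, z} : Finset (Fin n)).card ≤ 3 := Finset.card_le_three
    omega
  refine ⟨a, b, c, d, hab, ?_, ?_, ?_, ?_, hcd, hS', rfl⟩
  · rintro rfl
    exact key a b d (by intro t; simp only [Finset.mem_insert, Finset.mem_singleton]; tauto)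
  · rintro rfl
    exact key a b c (by intro t; simp only [Finset.mem_insert, Finset.mem_singleton]; tauto)
  · rintro rfl
    exact key a b d (by intro t; simp only [Finset.mem_insert, Finset.mem_singleton]; tauto)
  · rintro rfl
    exact key a b c (by intro t; simp only [Finset.mem_insert, Finset.mem_singleton]; tauto)

/-- each vertex of `S` has exactly one partner -/
theorem Chain_partner {n : ℕ} {S : Finset (Fin n)} {F : Finset (Sym2 (Fin n))} (hS : S.card = 4)
    (h : IsPM S F) {v : Fin n} (hv : v ∈ S) : ∃ w, ∀ u, s(v, u) ∈ F ↔ u = w := by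
  obtain ⟨a, b, c, d, hab, hac, had, hbc, hbd, hcd, rfl, rfl⟩ := Chain_pm_form hS h
  simp only [Finset.mem_insert, Finset.mem_singleton] at hv
  rcases hv with rfl | rfl | rfl | rfl
  · refine ⟨b, fun u => ?_⟩
    simp only [Finset.mem_insert, Finset.mem_singleton, Sym2.eq_iff]
    constructor
    · rintro ((⟨_, h⟩ | ⟨h, _⟩) | (⟨h, _⟩ | ⟨h, _⟩))
      · exact h
      · exact absurd h hab
      · exact absurd h hac
      · exact absurd h had
    · rintro rfl
      simp
  · refine ⟨a, fun u => ?_⟩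
    simp only [Finset.mem_insert, Finset.mem_singleton, Sym2.eq_iff]
    constructor
    · rintro ((⟨h, _⟩ | ⟨_, h⟩) | (⟨h, _⟩ | ⟨h, _⟩))
      · exact absurd h.symm hab
      · exact h
      · exact absurd h hbc
      · exact absurd h hbd
    · rintro rfl
      simp
  · refine ⟨d, fun u => ?_⟩
    simp only [Finset.mem_insert, Finset.mem_singleton, Sym2.eq_iff]
    constructor
    · rintro ((⟨h, _⟩ | ⟨h, _⟩) | (⟨_, h⟩ | ⟨h, _⟩))
      · exact absurd h.symm hac
      · exact absurd h.symm hbc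
      · exact h
      · exact absurd h hcd
    · rintro rfl
      simp
  · refine ⟨c, fun u => ?_⟩
    simp only [Finset.mem_insert, Finset.mem_singleton, Sym2.eq_iff]
    constructor
    · rintro ((⟨h, _⟩ | ⟨h, _⟩) | (⟨h, _⟩ | ⟨_, h⟩))
      · exact absurd h.symm had
      · exact absurd h.symm hbd
      · exact absurd h.symm hcd
      · exact h
    · rintro rfl
      simp

theorem Chain_no_partner {n : ℕ} {S : Finset (Fin n)} {F : Finset (Sym2 (Fin n))}
    (h : IsPM S F) {v : Fin n} (hv : v ∉ S) (u : Fin n) : s(v, u) ∉ F := fun hu =>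
  hv ((h.2.2 v).mpr ⟨_, hu, by simp⟩)

/-- the condition of a switch -/
def Chain_cond {n : ℕ} (G : SimpleGraph (Fin n))
    (q : Finset (Sym2 (Fin n)) × Finset (Sym2 (Fin n))) : Prop :=
  (∀ e ∈ q.1, e ∈ G.edgeSet) ∧ (∀ e ∈ q.2, e ∉ G.edgeSet)

theorem Chain_doSwitch_pos {n : ℕ} {G : SimpleGraph (Fin n)}
    {q : Finset (Sym2 (Fin n)) × Finset (Sym2 (Fin n))} (h : Chain_cond G q) :
    doSwitch G q = SimpleGraph.fromEdgeSet
      ((G.edgeSet \ (q.1 : Set (Sym2 (Fin n)))) ∪ (q.2 : Set (Sym2 (Fin n)))) := by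
  unfold doSwitch
  exact if_pos h

theorem Chain_doSwitch_neg {n : ℕ} {G : SimpleGraph (Fin n)}
    {q : Finset (Sym2 (Fin n)) × Finset (Sym2 (Fin n))} (h : ¬ Chain_cond G q) :
    doSwitch G q = G := by
  unfold doSwitch
  exact if_neg h

theorem Chain_adj {n : ℕ} {G : SimpleGraph (Fin n)}
    {q : Finset (Sym2 (Fin n)) × Finset (Sym2 (Fin n))} (h : Chain_cond G q)
    (hd : ∀ e ∈ q.2, ¬ e.IsDiag) (v u : Fin n) :
    (doSwitch G q).Adj v u ↔ (G.Adj v u ∧ s(v, u) ∉ q.1) ∨ s(v, u) ∈ q.2 := by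
  rw [Chain_doSwitch_pos h, SimpleGraph.fromEdgeSet_adj]
  simp only [Set.mem_union, Set.mem_sdiff, SimpleGraph.mem_edgeSet, Finset.mem_coe]
  constructor
  · rintro ⟨h1, _⟩
    exact h1
  · intro h1
    refine ⟨h1, ?_⟩
    rcases h1 with ⟨h2, _⟩ | h2
    · exact h2.ne
    · rintro rfl
      exact hd _ h2 (by simp)

/-- switches preserve degrees -/
theorem Chain_degree {n : ℕ} {G : SimpleGraph (Fin n)} {S : Finset (Fin n)} (hS : S.card = 4)
    {q : Finset (Sym2 (Fin n)) × Finset (Sym2 (Fin n))} (hq : q ∈ matchPairs S) (v : Fin n) :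
    (univ.filter (fun w => (doSwitch G q).Adj v w)).card = (univ.filter (fun w => G.Adj v w)).card := by
  simp only [matchPairs, Finset.mem_filter, Finset.mem_univ, true_and] at hq
  obtain ⟨h1, h2, _⟩ := hq
  by_cases h : Chain_cond G q
  · by_cases hv : v ∈ S
    · obtain ⟨w1, hw1⟩ := Chain_partner hS h1 hv
      obtain ⟨w2, hw2⟩ := Chain_partner hS h2 hv
      have e1 : G.Adj v w1 := h.1 _ ((hw1 w1).mpr rfl)
      have e2 : ¬ G.Adj v w2 := h.2 _ ((hw2 w2).mpr rfl)
      have e3 : univ.filter (fun w => (doSwitch G q).Adj v w) =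
          insert w2 ((univ.filter (fun w => G.Adj v w)).erase w1) := by
        ext u
        simp only [Finset.mem_filter, Finset.mem_univ, true_and, Finset.mem_insert,
          Finset.mem_erase, Chain_adj h h2.2.1, hw1, hw2]
        tauto
      rw [e3, Finset.card_insert_of_notMem, Finset.card_erase_add_one]
      · simpa using e1
      · simp [e2]
    · congr 1
      ext u
      simp only [Finset.mem_filter, Finset.mem_univ, true_and, Chain_adj h h2.2.1]
      have := Chain_no_partner h1 hv u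
      have := Chain_no_partner h2 hv u
      tauto
  · rw [Chain_doSwitch_neg h]

theorem Chain_reverse {n : ℕ} {G H : SimpleGraph (Fin n)}
    {q : Finset (Sym2 (Fin n)) × Finset (Sym2 (Fin n))}
    (hd1 : ∀ e ∈ q.1, ¬ e.IsDiag) (hd : ∀ e ∈ q.2, ¬ e.IsDiag) (hGH : G ≠ H)
    (h : doSwitch G q = H) : doSwitch H q.swap = G := by
  by_cases hc : Chain_cond G q
  · subst h
    have hc' : Chain_cond (doSwitch G q) q.swap := by
      constructor
      · intro e he
        induction e using Sym2.ind with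
        | _ a b =>
        rw [SimpleGraph.mem_edgeSet, Chain_adj hc hd]
        exact Or.inr he
      · intro e he
        induction e using Sym2.ind with
        | _ a b =>
        rw [SimpleGraph.mem_edgeSet, Chain_adj hc hd]
        rintro (⟨_, h2⟩ | h2)
        · exact h2 he
        · exact hc.2 _ h2 (hc.1 _ he)
    ext v u
    rw [Chain_adj hc' hd1, Chain_adj hc hd]
    have h1 := hc.1 s(v, u)
    have h2 := hc.2 s(v, u)
    rw [SimpleGraph.mem_edgeSet] at h1 h2
    simp only [Prod.fst_swap, Prod.snd_swap]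
    tauto
  · rw [Chain_doSwitch_neg hc] at h
    exact absurd h hGH

theorem Chain_swap_mem {n : ℕ} {S : Finset (Fin n)}
    {q : Finset (Sym2 (Fin n)) × Finset (Sym2 (Fin n))} (hq : q ∈ matchPairs S) :
    q.swap ∈ matchPairs S := by
  simp only [matchPairs, Finset.mem_filter, Finset.mem_univ, true_and] at hq ⊢
  exact ⟨hq.2.1, hq.1, hq.2.2.symm⟩

theorem switchP_symm (n : ℕ) (d : Fin n → ℕ) (G H : Rlz n d) :
    switchP n d G H = switchP n d H G := by
  by_cases hGH : G = H
  · rw [hGH]
  · have hGH' : G.1 ≠ H.1 := fun h => hGH (Subtype.ext h)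
    unfold switchP
    rw [if_neg hGH, if_neg (Ne.symm hGH)]
    congr 3
    apply Finset.sum_congr rfl
    intro S _
    congr 1
    apply Finset.sum_nbij' Prod.swap Prod.swap
    · intro q hq
      exact Chain_swap_mem hq
    · intro q hq
      exact Chain_swap_mem hq
    · intro q _
      simp
    · intro q _
      simp
    · intro q hq
      simp only [matchPairs, Finset.mem_filter, Finset.mem_univ, true_and] at hq
      have h1 : doSwitch G.1 q = H.1 ↔ doSwitch H.1 q.swap = G.1 := by
        constructor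
        · exact Chain_reverse hq.1.2.1 hq.2.1.2.1 hGH'
        · intro h
          have := Chain_reverse (q := q.swap) hq.2.1.2.1 hq.1.2.1 hGH'.symm h
          rwa [Prod.swap_swap] at this
      simp only [h1]

theorem switchP_nonneg (n : ℕ) (d : Fin n → ℕ) (G H : Rlz n d) : 0 ≤ switchP n d G H := by
  unfold switchP
  have h1 : (0 : ℝ) ≤ if G = H then 1 else 0 := by split_ifs <;> norm_num
  have h2 : (0 : ℝ) ≤ (1 / (Nat.choose n 4 : ℝ)) * ∑ S ∈ powersetCard 4 (univ : Finset (Fin n)),
      (1 / ((matchPairs S).card : ℝ)) *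
        ∑ q ∈ matchPairs S, (if doSwitch G.1 q = H.1 then 1 else 0) := by
    apply mul_nonneg (by positivity)
    apply Finset.sum_nonneg
    intro S _
    apply mul_nonneg (by positivity)
    apply Finset.sum_nonneg
    intro q _
    split_ifs <;> norm_num
  linarith

theorem Chain_pm_mk {n : ℕ} {a b c d : Fin n} (hab : a ≠ b) (hac : a ≠ c) (had : a ≠ d)
    (hbc : b ≠ c) (hbd : b ≠ d) (hcd : c ≠ d) :
    IsPM ({a, b, c, d} : Finset (Fin n)) {s(a, b), s(c, d)} := by
  refine ⟨?_, ?_, ?_⟩
  · rw [Finset.card_pair]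
    intro h
    rw [Sym2.eq_iff] at h
    tauto
  · intro e he
    simp only [Finset.mem_insert, Finset.mem_singleton] at he
    rcases he with rfl | rfl
    · simpa using hab
    · simpa using hcd
  · intro v
    simp only [Finset.mem_insert, Finset.mem_singleton, exists_eq_or_imp, exists_eq_left,
      Sym2.mem_iff]
    tauto

theorem Chain_matchPairs_pos {n : ℕ} {S : Finset (Fin n)} (hS : S.card = 4) :
    0 < (matchPairs S).card := by
  obtain ⟨a, b, c, d, hab, hac, had, hbc, hbd, hcd, rfl⟩ := Finset.card_eq_four.mp hS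
  apply Finset.card_pos.mpr
  refine ⟨({s(a, b), s(c, d)}, {s(a, c), s(b, d)}), ?_⟩
  simp only [matchPairs, Finset.mem_filter, Finset.mem_univ, true_and]
  refine ⟨Chain_pm_mk hab hac had hbc hbd hcd, ?_, ?_⟩
  · have h1 := Chain_pm_mk hac hab had hbc.symm hcd hbd
    have h2 : ({a, c, b, d} : Finset (Fin n)) = {a, b, c, d} := by
      ext t
      simp only [Finset.mem_insert, Finset.mem_singleton]
      tauto
    rwa [h2] at h1
  · intro h
    have h1 : s(a, b) ∈ ({s(a, c), s(b, d)} : Finset (Sym2 (Fin n))) := by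
      rw [← h]
      simp
    simp only [Finset.mem_insert, Finset.mem_singleton, Sym2.eq_iff] at h1
    tauto

theorem switchP_row_sum (n : ℕ) (hn : 4 ≤ n) (d : Fin n → ℕ) (G : Rlz n d) :
    ∑ H, switchP n d G H = 1 := by
  unfold switchP
  rw [Finset.sum_add_distrib, ← Finset.mul_sum, ← Finset.mul_sum, ← Finset.mul_sum,
    Finset.sum_comm]
  have h1 : ∑ H : Rlz n d, (if G = H then (1 : ℝ) else 0) = 1 := by simp
  have h2 : ∀ S ∈ powersetCard 4 (univ : Finset (Fin n)),
      ∑ H : Rlz n d, (1 / ((matchPairs S).card : ℝ)) *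
        ∑ q ∈ matchPairs S, (if doSwitch G.1 q = H.1 then (1 : ℝ) else 0) = 1 := by
    intro S hS
    have hS4 : S.card = 4 := (Finset.mem_powersetCard.mp hS).2
    rw [← Finset.mul_sum, Finset.sum_comm]
    have h3 : ∀ q ∈ matchPairs S,
        ∑ H : Rlz n d, (if doSwitch G.1 q = H.1 then (1 : ℝ) else 0) = 1 := by
      intro q hq
      have h4 : ∀ v, (univ.filter (fun w => (doSwitch G.1 q).Adj v w)).card = d v := by
        intro v
        rw [Chain_degree hS4 hq v]
        exact G.2 v
      refine (Finset.sum_eq_single (⟨doSwitch G.1 q, h4⟩ : Rlz n d) ?_ ?_).trans ?_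
      · intro H _ hH
        refine if_neg ?_
        intro h
        exact hH (Subtype.ext h.symm)
      · intro h
        exact absurd (Finset.mem_univ _) h
      · exact if_pos rfl
    rw [Finset.sum_congr rfl h3]
    have h5 : ((matchPairs S).card : ℝ) ≠ 0 := by
      have := Chain_matchPairs_pos hS4
      positivity
    rw [Finset.sum_const, nsmul_eq_mul, mul_one]
    field_simp
  rw [h1, Finset.sum_congr rfl h2]
  rw [Finset.sum_const, nsmul_eq_mul, mul_one, Finset.card_powersetCard, Finset.card_univ,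
    Fintype.card_fin]
  have h6 : ((n.choose 4 : ℕ) : ℝ) ≠ 0 := by
    have := Nat.choose_pos hn
    positivity
  field_simp
  norm_num

theorem switchP_diag (n : ℕ) (d : Fin n → ℕ) (G : Rlz n d) : 1 / 2 ≤ switchP n d G G := by
  unfold switchP
  rw [if_pos rfl]
  have h2 : (0 : ℝ) ≤ (1 / (Nat.choose n 4 : ℝ)) * ∑ S ∈ powersetCard 4 (univ : Finset (Fin n)),
      (1 / ((matchPairs S).card : ℝ)) *
        ∑ q ∈ matchPairs S, (if doSwitch G.1 q = G.1 then 1 else 0) := by
    apply mul_nonneg (by positivity)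
    apply Finset.sum_nonneg
    intro S _
    apply mul_nonneg (by positivity)
    apply Finset.sum_nonneg
    intro q _
    split_ifs <;> norm_num
  linarith

theorem Chain_card_matchPairs {n : ℕ} {S : Finset (Fin n)} (hS : S.card = 4) :
    (matchPairs S).card ≤ 2 ^ 20 := by
  have h1 : matchPairs S ⊆ S.sym2.powerset ×ˢ S.sym2.powerset := by
    intro q hq
    simp only [matchPairs, Finset.mem_filter, Finset.mem_univ, true_and] at hq
    rw [Finset.mem_product, Finset.mem_powerset, Finset.mem_powerset]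
    constructor
    · intro e he
      rw [Finset.mem_sym2_iff]
      intro a ha
      exact (hq.1.2.2 a).mpr ⟨e, he, ha⟩
    · intro e he
      rw [Finset.mem_sym2_iff]
      intro a ha
      exact (hq.2.1.2.2 a).mpr ⟨e, he, ha⟩
  have h2 := Finset.card_le_card h1
  rw [Finset.card_product, Finset.card_powerset, Finset.card_sym2, hS] at h2
  have h3 : Nat.choose (4 + 1) 2 = 10 := rfl
  rw [h3] at h2
  norm_num at h2 ⊢
  exact h2

theorem switchP_lower (n : ℕ) (hn : 4 ≤ n) (d : Fin n → ℕ) (G H : Rlz n d) (h : IsSw G.1 H.1) :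
    1 / (2 * (n.choose 4 : ℝ) * 2 ^ 20) ≤ switchP n d G H := by
  obtain ⟨a, b, x, y, hab, hxy, hax, hay, hbx, hby, h1, h2, h3, h4, h5⟩ := h
  have hS4 : ({a, x, b, y} : Finset (Fin n)).card = 4 :=
    Finset.card_eq_four.mpr ⟨a, x, b, y, hax, hab, hay, hbx.symm, hxy, hby, rfl⟩
  have hmem : ({a, x, b, y} : Finset (Fin n)) ∈ powersetCard 4 (univ : Finset (Fin n)) :=
    Finset.mem_powersetCard.mpr ⟨Finset.subset_univ _, hS4⟩
  have hq : (({s(a, x), s(b, y)}, {s(a, y), s(b, x)}) :
      Finset (Sym2 (Fin n)) × Finset (Sym2 (Fin n))) ∈ matchPairs {a, x, b, y} := by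
    simp only [matchPairs, Finset.mem_filter, Finset.mem_univ, true_and]
    refine ⟨Chain_pm_mk hax hab hay hbx.symm hxy hby, ?_, ?_⟩
    · have e1 := Chain_pm_mk hay hab hax hby.symm hxy.symm hbx
      have e2 : ({a, y, b, x} : Finset (Fin n)) = {a, x, b, y} := by
        ext t
        simp only [Finset.mem_insert, Finset.mem_singleton]
        tauto
      rwa [e2] at e1
    · intro h
      have e1 : s(a, x) ∈ ({s(a, y), s(b, x)} : Finset (Sym2 (Fin n))) := by
        rw [← h]
        simp
      simp only [Finset.mem_insert, Finset.mem_singleton, Sym2.eq_iff] at e1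
      tauto
  have hcond : Chain_cond G.1 (({s(a, x), s(b, y)}, {s(a, y), s(b, x)}) :
      Finset (Sym2 (Fin n)) × Finset (Sym2 (Fin n))) := by
    constructor
    · intro e he
      simp only [Finset.mem_insert, Finset.mem_singleton] at he
      rcases he with rfl | rfl
      · exact h1
      · exact h2
    · intro e he
      simp only [Finset.mem_insert, Finset.mem_singleton] at he
      rcases he with rfl | rfl
      · exact h3
      · exact h4
  have hdo : doSwitch G.1 (({s(a, x), s(b, y)}, {s(a, y), s(b, x)}) :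
      Finset (Sym2 (Fin n)) × Finset (Sym2 (Fin n))) = H.1 := by
    rw [Chain_doSwitch_pos hcond]
    have e1 : ((H.1).edgeSet : Set (Sym2 (Fin n))) =
        ((G.1.edgeSet \ (({s(a, x), s(b, y)} : Finset (Sym2 (Fin n))) : Set (Sym2 (Fin n)))) ∪
          (({s(a, y), s(b, x)} : Finset (Sym2 (Fin n))) : Set (Sym2 (Fin n)))) := by
      rw [h5]
      simp
    rw [← e1, SimpleGraph.fromEdgeSet_edgeSet]
  unfold switchP
  have hC : (0 : ℝ) < (n.choose 4 : ℝ) := by
    have := Nat.choose_pos hn
    positivity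
  have hnn : ∀ S : Finset (Fin n), (0 : ℝ) ≤ (1 / ((matchPairs S).card : ℝ)) *
      ∑ q ∈ matchPairs S, (if doSwitch G.1 q = H.1 then 1 else 0) := by
    intro S
    apply mul_nonneg (by positivity)
    apply Finset.sum_nonneg
    intro q _
    split_ifs <;> norm_num
  have hin : (1 : ℝ) ≤ ∑ q ∈ matchPairs {a, x, b, y}, (if doSwitch G.1 q = H.1 then 1 else 0) := by
    have := Finset.single_le_sum (f := fun q => if doSwitch G.1 q = H.1 then (1 : ℝ) else 0)
      (fun q _ => by split_ifs <;> norm_num) hq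
    simp only [hdo, if_true] at this
    exact this
  have hM : (0 : ℝ) < ((matchPairs ({a, x, b, y} : Finset (Fin n))).card : ℝ) := by
    have := Chain_matchPairs_pos hS4
    positivity
  have hM2 : ((matchPairs ({a, x, b, y} : Finset (Fin n))).card : ℝ) ≤ 2 ^ 20 := by
    exact_mod_cast Chain_card_matchPairs hS4
  have hone : (1 : ℝ) / 2 ^ 20 ≤ (1 / ((matchPairs ({a, x, b, y} : Finset (Fin n))).card : ℝ)) *
      ∑ q ∈ matchPairs {a, x, b, y}, (if doSwitch G.1 q = H.1 then 1 else 0) := by
    calc (1 : ℝ) / 2 ^ 20 ≤ 1 / ((matchPairs ({a, x, b, y} : Finset (Fin n))).card : ℝ) := by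
          gcongr
      _ = 1 / ((matchPairs ({a, x, b, y} : Finset (Fin n))).card : ℝ) * 1 := by ring
      _ ≤ _ := by gcongr
  have hsum : (1 : ℝ) / 2 ^ 20 ≤ ∑ S ∈ powersetCard 4 (univ : Finset (Fin n)),
      (1 / ((matchPairs S).card : ℝ)) *
        ∑ q ∈ matchPairs S, (if doSwitch G.1 q = H.1 then 1 else 0) :=
    le_trans hone (Finset.single_le_sum (f := fun S => (1 / ((matchPairs S).card : ℝ)) *
        ∑ q ∈ matchPairs S, (if doSwitch G.1 q = H.1 then (1 : ℝ) else 0))
        (fun S _ => hnn S) hmem)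
  have h0 : (0 : ℝ) ≤ (1 / 2) * (if G = H then 1 else 0) := by split_ifs <;> norm_num
  calc 1 / (2 * (n.choose 4 : ℝ) * 2 ^ 20) = (1 / 2) * ((1 / (n.choose 4 : ℝ)) * (1 / 2 ^ 20)) := by
        field_simp
    _ ≤ (1 / 2) * ((1 / (n.choose 4 : ℝ)) * ∑ S ∈ powersetCard 4 (univ : Finset (Fin n)),
      (1 / ((matchPairs S).card : ℝ)) *
        ∑ q ∈ matchPairs S, (if doSwitch G.1 q = H.1 then 1 else 0)) := by gcongr
    _ ≤ _ := by linarith

end

end VP335
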