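import Vale.Agent.P335.Avg

/-! P335: three rows, the conditional expectation given one row is hypergeometric -/

namespace VP335

open Finset

noncomputable section

open Classical

variable {ι : Type*} [Fintype ι]

/-- number of columns of sum 1 not in the row `w` -/
def nN {r : Fin 3 → ℕ} {c : ι → ℕ} (w : Fin 3) (X : Tab r c) : ℕ :=
  (univ.filter (fun j => c j = 1 ∧ j ∉ X.1 w)).card

/-- number of columns of sum 2 in the row `w` -/
def nM {r : Fin 3 → ℕ} {c : ι → ℕ} (w : Fin 3) (X : Tab r c) : ℕ :=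
  (univ.filter (fun j => c j = 2 ∧ j ∈ X.1 w)).card

/-- number of columns with exactly one entry outside the row `w`, that entry being in row `u` -/
def nP {r : Fin 3 → ℕ} {c : ι → ℕ} (w u : Fin 3) (X : Tab r c) : ℕ :=
  (univ.filter (fun j => j ∈ X.1 u ∧
    ((c j = 1 ∧ j ∉ X.1 w) ∨ (c j = 2 ∧ j ∈ X.1 w)))).card

theorem classAvg_three (w u v : Fin 3) (hwu : w ≠ u) (hwv : w ≠ v) (huv : u ≠ v) (k : Fin 3) :
    k = w ∨ k = u ∨ k = v := by
  revert w u v k
  decide

omit [Fintype ι] in
theorem classAvg_col (w u v : Fin 3) (hwu : w ≠ u) (hwv : w ≠ v) (huv : u ≠ v)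
    (Z : Fin 3 → Finset ι) (j : ι) :
    (univ.filter (fun k => j ∈ Z k)).card =
      (if j ∈ Z w then 1 else 0) + ((if j ∈ Z u then 1 else 0) + (if j ∈ Z v then 1 else 0)) := by
  have h : (univ : Finset (Fin 3)) = {w, u, v} := by
    ext k
    simpa using classAvg_three w u v hwu hwv huv k
  rw [card_filter, h, sum_insert (by simp [hwu, hwv]), sum_insert (by simp [huv]),
    sum_singleton]

theorem classAvg_tab {r : Fin 3 → ℕ} {c : ι → ℕ} (w u v : Fin 3) (hwu : w ≠ u) (hwv : w ≠ v)
    (huv : u ≠ v) (X : Tab r c) (j : ι) :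
    (if j ∈ X.1 w then 1 else 0) + ((if j ∈ X.1 u then 1 else 0) +
      (if j ∈ X.1 v then 1 else 0)) = c j := by
  rw [← classAvg_col w u v hwu hwv huv X.1 j]
  exact X.2.2 j

omit [Fintype ι] in
theorem classAvg_sum_card (O1 O2 : Finset ι) (hd : Disjoint O1 O2) (p a : ℕ) (ha : a ≤ p) :
    ((powersetCard p (O1 ∪ O2)).filter (fun U => (U ∩ O1).card = a)).card =
      O1.card.choose a * O2.card.choose (p - a) := by
  rw [← card_powersetCard, ← card_powersetCard, ← card_product]
  refine card_nbij' (fun U => (U ∩ O1, U ∩ O2)) (fun A => A.1 ∪ A.2) ?_ ?_ ?_ ?_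
  · intro U hU
    simp only [coe_filter, mem_powersetCard, Set.mem_ofPred_eq] at hU
    obtain ⟨⟨hU1, hU2⟩, hU3⟩ := hU
    simp only [coe_product, Set.mem_prod, mem_coe, mem_powersetCard]
    refine ⟨⟨inter_subset_right, hU3⟩, inter_subset_right, ?_⟩
    have h1 : U = (U ∩ O1) ∪ (U ∩ O2) := by
      rw [← inter_union_distrib_left]
      exact (inter_eq_left.mpr hU1).symm
    have h2 : U.card = (U ∩ O1).card + (U ∩ O2).card := by
      conv_lhs => rw [h1]
      apply card_union_of_disjoint
      exact (hd.mono inter_subset_right inter_subset_right)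
    omega
  · intro A hA
    simp only [coe_product, Set.mem_prod, mem_coe, mem_powersetCard] at hA
    obtain ⟨⟨hA1, hA2⟩, hA3, hA4⟩ := hA
    simp only [coe_filter, mem_powersetCard, Set.mem_ofPred_eq]
    have hd' : Disjoint A.1 A.2 := hd.mono hA1 hA3
    refine ⟨⟨union_subset_union hA1 hA3, ?_⟩, ?_⟩
    · rw [card_union_of_disjoint hd', hA2, hA4]
      omega
    · have h3 : (A.1 ∪ A.2) ∩ O1 = A.1 := by
        ext j
        simp only [mem_inter, mem_union]
        constructor
        · rintro ⟨h4 | h4, h5⟩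
          · exact h4
          · exact absurd (hA3 h4) (disjoint_left.mp hd h5)
        · intro h4
          exact ⟨Or.inl h4, hA1 h4⟩
      rw [h3, hA2]
  · intro U hU
    simp only [coe_filter, mem_powersetCard, Set.mem_ofPred_eq] at hU
    obtain ⟨⟨hU1, hU2⟩, hU3⟩ := hU
    show (U ∩ O1) ∪ (U ∩ O2) = U
    rw [← inter_union_distrib_left]
    exact inter_eq_left.mpr hU1
  · intro A hA
    simp only [coe_product, Set.mem_prod, mem_coe, mem_powersetCard] at hA
    obtain ⟨⟨hA1, hA2⟩, hA3, hA4⟩ := hA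
    have h3 : (A.1 ∪ A.2) ∩ O1 = A.1 := by
      ext j
      simp only [mem_inter, mem_union]
      constructor
      · rintro ⟨h4 | h4, h5⟩
        · exact h4
        · exact absurd (hA3 h4) (disjoint_left.mp hd h5)
      · intro h4
        exact ⟨Or.inl h4, hA1 h4⟩
    have h4 : (A.1 ∪ A.2) ∩ O2 = A.2 := by
      ext j
      simp only [mem_inter, mem_union]
      constructor
      · rintro ⟨h4 | h4, h5⟩
        · exact absurd h5 (disjoint_left.mp hd (hA1 h4))
        · exact h4
      · intro h4
        exact ⟨Or.inr h4, hA3 h4⟩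
    exact Prod.ext h3 h4

omit [Fintype ι] in
theorem classAvg_sum (O1 O2 : Finset ι) (hd : Disjoint O1 O2) (p : ℕ) (f : ℕ → ℝ) :
    ∑ U ∈ powersetCard p (O1 ∪ O2), f (U ∩ O1).card =
      ∑ a ∈ range (p + 1), (O1.card.choose a : ℝ) * (O2.card.choose (p - a) : ℝ) * f a := by
  rw [← sum_fiberwise_of_maps_to (s := powersetCard p (O1 ∪ O2)) (t := range (p + 1))
    (g := fun U => (U ∩ O1).card)]
  · apply sum_congr rfl
    intro a ha
    rw [mem_range] at ha
    rw [← Nat.cast_mul, ← classAvg_sum_card O1 O2 hd p a (by omega)]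
    rw [sum_congr rfl (g := fun _ => f a), sum_const, nsmul_eq_mul]
    intro U hU
    rw [mem_filter] at hU
    rw [hU.2]
  · intro U hU
    rw [mem_powersetCard] at hU
    rw [mem_range]
    have := card_le_card (inter_subset_left : U ∩ O1 ⊆ U)
    omega

/-- the bijection between a fibre and a layer -/
theorem classAvg_bij {r : Fin 3 → ℕ} {c : ι → ℕ} (w u v : Fin 3) (hwu : w ≠ u) (hwv : w ≠ v)
    (huv : u ≠ v) (X : Tab r c) (g : Finset ι → ℝ) :
    ∑ Y ∈ fib (fun Y : Tab r c => Y.1 w) X,
      g (Y.1 u ∩ univ.filter (fun j => (c j = 1 ∧ j ∉ X.1 w) ∨ (c j = 2 ∧ j ∈ X.1 w))) =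
    ∑ U ∈ powersetCard (nP w u X)
      (univ.filter (fun j => (c j = 1 ∧ j ∉ X.1 w) ∨ (c j = 2 ∧ j ∈ X.1 w))), g U := by
  set O : Finset ι := univ.filter (fun j => (c j = 1 ∧ j ∉ X.1 w) ∨ (c j = 2 ∧ j ∈ X.1 w))
    with hO
  set D : Finset ι := X.1 u ∩ X.1 v with hD
  have hc := fun (Y : Tab r c) (j : ι) => classAvg_tab w u v hwu hwv huv Y j
  -- membership in O
  have hO' : ∀ j, j ∈ O ↔ ¬ (j ∈ X.1 u ↔ j ∈ X.1 v) := by
    intro j
    have h1 := hc X j
    simp only [hO, mem_filter, mem_univ, true_and]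
    by_cases a1 : j ∈ X.1 w <;> by_cases a2 : j ∈ X.1 u <;> by_cases a3 : j ∈ X.1 v <;>
      simp only [a1, a2, a3, if_true, if_false] at h1 <;> simp [a1, a2, a3, ← h1]
  -- the fibre
  have hfib : ∀ Y : Tab r c, Y.1 w = X.1 w → ∀ j,
      ((j ∈ O → (j ∈ Y.1 v ↔ j ∉ Y.1 u)) ∧ (j ∉ O → ((j ∈ Y.1 u ↔ j ∈ D) ∧ (j ∈ Y.1 v ↔ j ∈ D)))) := by
    intro Y hY j
    have h1 := hc X j
    have h2 := hc Y j
    rw [hY] at h2
    rw [hO', hD, mem_inter]
    by_cases a1 : j ∈ X.1 w <;> by_cases a2 : j ∈ X.1 u <;> by_cases a3 : j ∈ X.1 v <;>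
    by_cases b2 : j ∈ Y.1 u <;> by_cases b3 : j ∈ Y.1 v <;>
      simp only [a1, a2, a3, b2, b3, if_true, if_false] at h1 h2 <;> 
      simp [a2, a3, b2, b3] <;> omega
  have hDO : Disjoint D O := by
    rw [disjoint_left]
    intro j h1 h2
    rw [hO'] at h2
    rw [hD, mem_inter] at h1
    exact h2 ⟨fun _ => h1.2, fun _ => h1.1⟩
  have hXu : X.1 u = (X.1 u ∩ O) ∪ D := by
    ext j
    simp only [mem_union, mem_inter]
    have h1 := hfib X rfl j
    by_cases h2 : j ∈ O
    · simp only [h2, and_true]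
      constructor
      · intro h3; exact Or.inl h3
      · rintro (h3 | h3)
        · exact h3
        · exact absurd h2 (disjoint_left.mp hDO h3)
    · simp only [h2, and_false, false_or]
      exact (h1.2 h2).1
  have hnP : (X.1 u ∩ O).card = nP w u X := by
    unfold nP
    congr 1
    ext j
    simp [hO]
  have hru : (X.1 u ∩ O).card + D.card = r u := by
    rw [← X.2.1 u]
    conv_rhs => rw [hXu]
    rw [card_union_of_disjoint]
    exact (hDO.mono_right inter_subset_right).symm
  have hXv : X.1 v = (O \ (X.1 u ∩ O)) ∪ D := by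
    ext j
    simp only [mem_union, mem_inter, mem_sdiff, not_and]
    have h1 := hfib X rfl j
    by_cases h2 : j ∈ O
    · have h3 := h1.1 h2
      have h4 : j ∉ D := fun h => disjoint_left.mp hDO h h2
      simp only [h2, h4, or_false, true_and, not_true_eq_false, imp_false]
      exact h3
    · simp only [h2, false_and, false_or]
      exact (h1.2 h2).2
  have hrv : (O.card - nP w u X) + D.card = r v := by
    rw [← X.2.1 v]
    conv_rhs => rw [hXv]
    rw [card_union_of_disjoint, card_sdiff_of_subset inter_subset_right, hnP]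
    exact (hDO.mono_right sdiff_subset).symm
  symm
  refine sum_bij'
    (i := fun U hU => (⟨fun k => if k = w then X.1 w else if k = u then U ∪ D else (O \ U) ∪ D,
      ?_⟩ : Tab r c))
    (j := fun Y _ => Y.1 u ∩ O) ?_ ?_ ?_ ?_ ?_
  · rw [mem_powersetCard] at hU
    obtain ⟨hU1, hU2⟩ := hU
    constructor
    · intro k
      rcases classAvg_three w u v hwu hwv huv k with rfl | rfl | rfl
      · simp only [if_true]
        exact X.2.1 _
      · simp only [hwu.symm, if_false, if_true]
        rw [card_union_of_disjoint (hDO.mono_right hU1).symm, hU2, ← hnP]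
        exact hru
      · simp only [hwv.symm, huv.symm, if_false]
        rw [card_union_of_disjoint (hDO.mono_right sdiff_subset).symm,
          card_sdiff_of_subset hU1, hU2]
        exact hrv
    · intro j
      rw [classAvg_col w u v hwu hwv huv]
      simp only [hwu.symm, hwv.symm, huv.symm, if_false, if_true]
      rw [← hc X j]
      congr 1
      simp only [mem_union, mem_sdiff]
      by_cases h2 : j ∈ O
      · have h4 : j ∉ D := fun h => disjoint_left.mp hDO h h2
        have h5 := (hO' j).mp h2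
        by_cases a2 : j ∈ X.1 u <;> by_cases a3 : j ∈ X.1 v <;> by_cases a4 : j ∈ U <;>
          simp [h2, h4, a2, a3, a4] at h5 ⊢
      · have h5 := fun h => h2 ((hO' j).mpr h)
        have h6 : j ∉ U := fun h => h2 (hU1 h)
        simp only [h2, h6, hD, mem_inter, false_and, false_or]
        by_cases a2 : j ∈ X.1 u <;> by_cases a3 : j ∈ X.1 v <;> simp [a2, a3] at h5 ⊢
  · intro U hU
    refine mem_fib.mpr ?_
    show (if w = w then X.1 w else if w = u then U ∪ D else (O \ U) ∪ D) = X.1 w
    rw [if_pos rfl]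
  · intro Y hY
    rw [mem_fib] at hY
    rw [mem_powersetCard]
    refine ⟨inter_subset_right, ?_⟩
    have h1 : Y.1 u = (Y.1 u ∩ O) ∪ D := by
      ext j
      simp only [mem_union, mem_inter]
      have h1 := hfib Y hY j
      by_cases h2 : j ∈ O
      · simp only [h2, and_true]
        constructor
        · intro h3; exact Or.inl h3
        · rintro (h3 | h3)
          · exact h3
          · exact absurd h2 (disjoint_left.mp hDO h3)
      · simp only [h2, and_false, false_or]
        exact (h1.2 h2).1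
    have h2 : (Y.1 u ∩ O).card + D.card = r u := by
      rw [← Y.2.1 u]
      conv_rhs => rw [h1]
      rw [card_union_of_disjoint]
      exact (hDO.mono_right inter_subset_right).symm
    omega
  · intro U hU
    rw [mem_powersetCard] at hU
    obtain ⟨hU1, hU2⟩ := hU
    simp only [hwu.symm, if_false, if_true]
    ext j
    simp only [mem_inter, mem_union]
    constructor
    · rintro ⟨h1 | h1, h2⟩
      · exact h1
      · exact absurd h2 (disjoint_left.mp hDO h1)
    · intro h1
      exact ⟨Or.inl h1, hU1 h1⟩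
  · intro Y hY
    rw [mem_fib] at hY
    apply Subtype.ext
    funext k
    rcases classAvg_three w u v hwu hwv huv k with rfl | rfl | rfl
    · simp only [if_true]
      exact hY.symm
    · simp only [hwu.symm, if_false, if_true]
      ext j
      simp only [mem_union, mem_inter]
      have h1 := hfib Y hY j
      by_cases h2 : j ∈ O
      · simp only [h2, and_true]
        constructor
        · rintro (h3 | h3)
          · exact h3
          · exact absurd h2 (disjoint_left.mp hDO h3)
        · intro h3; exact Or.inl h3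
      · simp only [h2, and_false, false_or]
        exact (h1.2 h2).1.symm
    · simp only [hwv.symm, huv.symm, if_false]
      ext j
      simp only [mem_union, mem_inter, mem_sdiff, not_and]
      have h1 := hfib Y hY j
      by_cases h2 : j ∈ O
      · have h3 := h1.1 h2
        have h4 : j ∉ D := fun h => disjoint_left.mp hDO h h2
        simp only [h2, h4, or_false, true_and, not_true_eq_false, imp_false]
        exact h3.symm
      · simp only [h2, false_and, false_or]
        exact (h1.2 h2).2.symm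
  · intro U hU
    rw [mem_powersetCard] at hU
    obtain ⟨hU1, hU2⟩ := hU
    congr 1
    simp only [hwu.symm, if_false, if_true]
    ext j
    simp only [mem_inter, mem_union]
    constructor
    · intro h1
      exact ⟨Or.inl h1, hU1 h1⟩
    · rintro ⟨h1 | h1, h2⟩
      · exact h1
      · exact absurd h2 (disjoint_left.mp hDO h1)

theorem class_avg {r : Fin 3 → ℕ} {c : ι → ℕ} (w u v : Fin 3) (hwu : w ≠ u) (hwv : w ≠ v)
    (huv : u ≠ v) (φ ψ : ℕ → ℝ) (X : Tab r c) :
    avg (fun Y : Tab r c => Y.1 w) (fun Y => φ (sz u Y) + ψ (sz v Y)) X =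
      hyp (nN w X) (nM w X) (nP w u X) (fun a => φ a + ψ (nN w X - a)) := by
  set O1 : Finset ι := univ.filter (fun j => c j = 1 ∧ j ∉ X.1 w) with hO1
  set O2 : Finset ι := univ.filter (fun j => c j = 2 ∧ j ∈ X.1 w) with hO2
  have hO : (univ.filter (fun j => (c j = 1 ∧ j ∉ X.1 w) ∨ (c j = 2 ∧ j ∈ X.1 w))) =
      O1 ∪ O2 := by
    rw [hO1, hO2, ← filter_or]
  have hd : Disjoint O1 O2 := by
    rw [disjoint_left]
    intro j h1 h2
    simp only [hO1, hO2, mem_filter, mem_univ, true_and] at h1 h2
    omega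
  have hc := fun (Y : Tab r c) (j : ι) => classAvg_tab w u v hwu hwv huv Y j
  have hsu : ∀ Y : Tab r c, Y.1 w = X.1 w → sz u Y = ((Y.1 u ∩ (O1 ∪ O2)) ∩ O1).card := by
    intro Y hY
    unfold sz
    congr 1
    ext j
    simp only [mem_filter, mem_inter, mem_union, hO1, mem_univ, true_and]
    have h2 := hc Y j
    rw [hY] at h2
    constructor
    · rintro ⟨h3, h4⟩
      have h5 : j ∉ X.1 w := by
        intro h5
        rw [if_pos h5, if_pos h3] at h2
        omega
      exact ⟨⟨h3, Or.inl ⟨h4, h5⟩⟩, h4, h5⟩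
    · rintro ⟨⟨h3, _⟩, h4, _⟩
      exact ⟨h3, h4⟩
  have hsv : ∀ Y : Tab r c, Y.1 w = X.1 w →
      sz v Y = nN w X - ((Y.1 u ∩ (O1 ∪ O2)) ∩ O1).card := by
    intro Y hY
    have h1 : (Y.1 u ∩ (O1 ∪ O2)) ∩ O1 ⊆ O1 := inter_subset_right
    have h0 : nN w X = O1.card := rfl
    rw [h0, ← card_sdiff_of_subset h1]
    unfold sz
    congr 1
    ext j
    simp only [mem_filter, mem_inter, mem_union, mem_sdiff, hO1, mem_univ, true_and, not_and]
    have h2 := hc Y j
    rw [hY] at h2
    constructor
    · rintro ⟨h3, h4⟩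
      have h5 : j ∉ X.1 w := by
        intro h5
        rw [if_pos h5, if_pos h3] at h2
        omega
      refine ⟨⟨h4, h5⟩, fun h6 => ?_⟩
      rw [if_pos h6.1, if_pos h3] at h2
      omega
    · rintro ⟨⟨h4, h5⟩, h6⟩
      refine ⟨?_, h4⟩
      by_contra h7
      have h8 : j ∉ Y.1 u := fun h => h6 ⟨h, Or.inl ⟨h4, h5⟩⟩ h4 h5
      rw [if_neg h5, if_neg h8, if_neg h7] at h2
      omega
  have hsum : ∑ Y ∈ fib (fun Y : Tab r c => Y.1 w) X, (φ (sz u Y) + ψ (sz v Y)) =
      ∑ a ∈ range (nP w u X + 1), ((nN w X).choose a : ℝ) * ((nM w X).choose (nP w u X - a) : ℝ) *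
        (φ a + ψ (nN w X - a)) := by
    have h0 : nN w X = O1.card := rfl
    have h0' : nM w X = O2.card := rfl
    rw [show (nN w X).choose = O1.card.choose from rfl, show (nM w X).choose = O2.card.choose from rfl]
    rw [← classAvg_sum O1 O2 hd (nP w u X) (fun a => φ a + ψ (nN w X - a)), ← hO,
      ← classAvg_bij w u v hwu hwv huv X]
    apply sum_congr rfl
    intro Y hY
    rw [mem_fib] at hY
    rw [hsu Y hY, hsv Y hY, hO]
  have hcard : ((fib (fun Y : Tab r c => Y.1 w) X).card : ℝ) =
      ((nN w X + nM w X).choose (nP w u X) : ℝ) := by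
    have h1 := classAvg_bij w u v hwu hwv huv X (fun _ => 1)
    rw [sum_const, sum_const, nsmul_eq_mul, nsmul_eq_mul, mul_one, mul_one, card_powersetCard, hO,
      card_union_of_disjoint hd] at h1
    exact h1
  unfold avg hyp
  rw [hsum, hcard]

theorem classShift_facts {r : Fin 3 → ℕ} {c : ι → ℕ} (w u v : Fin 3) (hwu : w ≠ u)
    (hwv : w ≠ v) (huv : u ≠ v) (X : Tab r c) :
    nN w X + sz w X = (univ.filter (fun j => c j = 1)).card ∧
    sz w X + nM w X + (univ.filter (fun j => c j = 3)).card = r w ∧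
    nP w u X + (univ.filter (fun j => c j = 2)).card + (univ.filter (fun j => c j = 3)).card =
      r u + nM w X ∧
    nP w u X + nP w v X = nN w X + nM w X := by
  have hc := fun (j : ι) => classAvg_tab w u v hwu hwv huv X j
  have hsz : sz w X = (univ.filter (fun j => j ∈ X.1 w ∧ c j = 1)).card := by
    unfold sz
    congr 1
    ext j
    simp
  have hrw : ∀ k, r k = (univ.filter (fun j => j ∈ X.1 k)).card := by
    intro k
    rw [← X.2.1 k]
    congr 1
    ext j
    simp
  refine ⟨?_, ?_, ?_, ?_⟩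
  · rw [hsz]
    unfold nN
    simp only [card_filter]
    rw [← sum_add_distrib]
    apply sum_congr rfl
    intro j _
    by_cases a1 : j ∈ X.1 w <;> by_cases a2 : c j = 1 <;> simp [a1, a2]
  · rw [hsz, hrw w]
    unfold nM
    simp only [card_filter]
    rw [← sum_add_distrib, ← sum_add_distrib]
    apply sum_congr rfl
    intro j _
    have h1 := hc j
    by_cases a1 : j ∈ X.1 w <;> by_cases a2 : j ∈ X.1 u <;> by_cases a3 : j ∈ X.1 v <;>
      simp only [a1, a2, a3, if_true, if_false] at h1 <;> simp [a1, ← h1]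
  · rw [hrw u]
    unfold nM nP
    simp only [card_filter]
    rw [← sum_add_distrib, ← sum_add_distrib, ← sum_add_distrib]
    apply sum_congr rfl
    intro j _
    have h1 := hc j
    by_cases a1 : j ∈ X.1 w <;> by_cases a2 : j ∈ X.1 u <;> by_cases a3 : j ∈ X.1 v <;>
      simp only [a1, a2, a3, if_true, if_false] at h1 <;> simp [a1, a2, ← h1]
  · unfold nM nP nN
    simp only [card_filter]
    rw [← sum_add_distrib, ← sum_add_distrib]
    apply sum_congr rfl
    intro j _
    have h1 := hc j
    by_cases a1 : j ∈ X.1 w <;> by_cases a2 : j ∈ X.1 u <;> by_cases a3 : j ∈ X.1 v <;>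
      simp only [a1, a2, a3, if_true, if_false] at h1 <;> simp [a1, a2, a3, ← h1]

theorem class_shift {r : Fin 3 → ℕ} {c : ι → ℕ} (w u v : Fin 3) (hwu : w ≠ u) (hwv : w ≠ v)
    (huv : u ≠ v) (X Y : Tab r c) (s : ℕ) (h : sz w Y = sz w X + s) :
    nN w X = nN w Y + s ∧ nM w X = nM w Y + s ∧ nP w u X = nP w u Y + s ∧
      nP w u X + s ≤ nN w X + nM w X := by
  obtain ⟨a1, a2, a3, a4⟩ := classShift_facts w u v hwu hwv huv X
  obtain ⟨b1, b2, b3, b4⟩ := classShift_facts w u v hwu hwv huv Y
  obtain ⟨c1, c2, c3, c4⟩ := classShift_facts w v u hwv hwu huv.symm X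
  obtain ⟨d1, d2, d3, d4⟩ := classShift_facts w v u hwv hwu huv.symm Y
  refine ⟨by omega, by omega, by omega, by omega⟩

end

end VP335
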