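import Vale.Agent.P335.Avg

/-! P335: the tables are connected by changes of two rows -/

namespace VP335

open Finset

noncomputable section

open Classical

variable {κ ι : Type*} [Fintype κ] [Fintype ι]

theorem conn_switch {r : κ → ℕ} {c : ι → ℕ} (X : Tab r c) (k l : κ) (hkl : k ≠ l) (i j : ι)
    (h1 : j ∈ X.1 k) (h2 : j ∉ X.1 l) (h3 : i ∈ X.1 l) (h4 : i ∉ X.1 k) :
    ∃ X' : Tab r c, X'.1 k = insert i ((X.1 k).erase j) ∧
      X'.1 l = insert j ((X.1 l).erase i) ∧ ∀ k', k' ≠ k → k' ≠ l → X.1 k' = X'.1 k' := by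
  have hij : i ≠ j := fun h => h4 (h ▸ h1)
  obtain ⟨Z, hZk, hZl, hZ⟩ : ∃ Z : κ → Finset ι, Z k = insert i ((X.1 k).erase j) ∧
      Z l = insert j ((X.1 l).erase i) ∧ ∀ k', k' ≠ k → k' ≠ l → Z k' = X.1 k' := by
    refine ⟨fun k' => if k' = k then insert i ((X.1 k).erase j) else
      if k' = l then insert j ((X.1 l).erase i) else X.1 k', ?_, ?_, ?_⟩
    · simp
    · simp [hkl.symm]
    · intro k' hk hl
      simp [hk, hl]
  have hrow : ∀ k', (Z k').card = r k' := by
    intro k'
    by_cases hk : k' = k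
    · rw [hk, hZk, card_insert_of_notMem (fun h => h4 (mem_of_mem_erase h)),
        card_erase_of_mem h1, X.2.1 k]
      have := card_pos.mpr ⟨j, h1⟩
      rw [X.2.1 k] at this
      omega
    · by_cases hl : k' = l
      · rw [hl, hZl, card_insert_of_notMem (fun h => h2 (mem_of_mem_erase h)),
          card_erase_of_mem h3, X.2.1 l]
        have := card_pos.mpr ⟨i, h3⟩
        rw [X.2.1 l] at this
        omega
      · rw [hZ k' hk hl]
        exact X.2.1 k'
  have hcol : ∀ m, (univ.filter (fun k' => m ∈ Z k')).card = c m := by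
    intro m
    rw [← X.2.2 m]
    by_cases hm : m = i ∨ m = j
    · refine card_equiv (Equiv.swap k l) (fun k' => ?_)
      simp only [mem_filter, mem_univ, true_and]
      by_cases hk : k' = k
      · rw [hk, hZk, Equiv.swap_apply_left]
        rcases hm with rfl | rfl
        · simp [h3]
        · simp [h2, hij.symm]
      · by_cases hl : k' = l
        · rw [hl, hZl, Equiv.swap_apply_right]
          rcases hm with rfl | rfl
          · simp [h4, hij]
          · simp [h1]
        · rw [hZ k' hk hl, Equiv.swap_apply_of_ne_of_ne hk hl]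
    · rw [not_or] at hm
      congr 1
      ext k'
      simp only [mem_filter, mem_univ, true_and]
      by_cases hk : k' = k
      · rw [hk, hZk]
        simp [hm.1, hm.2]
      · by_cases hl : k' = l
        · rw [hl, hZl]
          simp [hm.1, hm.2]
        · rw [hZ k' hk hl]
  exact ⟨⟨Z, hrow, hcol⟩, hZk, hZl, fun k' hk hl => (hZ k' hk hl).symm⟩

/-- distance of two tables -/
def connD {r : κ → ℕ} {c : ι → ℕ} (X Y : Tab r c) : ℕ := ∑ k, (X.1 k \ Y.1 k).card

theorem connD_comm {r : κ → ℕ} {c : ι → ℕ} (X Y : Tab r c) : connD X Y = connD Y X := by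
  unfold connD
  apply sum_congr rfl
  intro k _
  apply card_sdiff_comm
  rw [X.2.1 k, Y.2.1 k]

theorem conn_caseA {r : κ → ℕ} {c : ι → ℕ} (X Y : Tab r c) (k l : κ) (hkl : k ≠ l) (i j : ι)
    (h1 : j ∈ X.1 k) (h2 : j ∉ X.1 l) (h3 : i ∈ X.1 l) (h4 : i ∉ X.1 k)
    (h5 : j ∉ Y.1 k) (h6 : j ∈ Y.1 l) (h7 : i ∈ Y.1 k ∨ i ∉ Y.1 l) :
    ∃ X' : Tab r c, (∀ k', k' ≠ k → k' ≠ l → X.1 k' = X'.1 k') ∧ connD X' Y < connD X Y := by
  obtain ⟨X', g1, g2, g3⟩ := conn_switch X k l hkl i j h1 h2 h3 h4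
  refine ⟨X', g3, ?_⟩
  have hij : i ≠ j := fun h => h4 (h ▸ h1)
  unfold connD
  have hl : l ∈ (univ : Finset κ).erase k := by simp [hkl.symm]
  rw [← add_sum_erase univ _ (mem_univ k), ← add_sum_erase univ (fun k => (X.1 k \ Y.1 k).card)
    (mem_univ k), ← add_sum_erase _ _ hl, ← add_sum_erase _ (fun k => (X.1 k \ Y.1 k).card) hl]
  have h8 : ∑ x ∈ (univ.erase k).erase l, (X'.1 x \ Y.1 x).card =
      ∑ x ∈ (univ.erase k).erase l, (X.1 x \ Y.1 x).card := by
    apply sum_congr rfl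
    intro x hx
    simp only [mem_erase, mem_univ, and_true] at hx
    rw [g3 x hx.2 hx.1]
  rw [h8]
  -- row k
  have hk1 : (X.1 k \ Y.1 k).card = ((X.1 k \ Y.1 k).erase j).card + 1 := by
    rw [card_erase_of_mem (by simp [h1, h5])]
    have : 0 < (X.1 k \ Y.1 k).card := card_pos.mpr ⟨j, by simp [h1, h5]⟩
    omega
  by_cases h9 : i ∈ Y.1 k
  · have hk2 : X'.1 k \ Y.1 k = (X.1 k \ Y.1 k).erase j := by
      rw [g1]
      ext m
      simp only [mem_sdiff, mem_insert, mem_erase]
      constructor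
      · rintro ⟨rfl | ⟨a1, a2⟩, a3⟩
        · exact absurd h9 a3
        · exact ⟨a1, a2, a3⟩
      · rintro ⟨a1, a2, a3⟩
        exact ⟨Or.inr ⟨a1, a2⟩, a3⟩
    have hl2 : X'.1 l \ Y.1 l ⊆ X.1 l \ Y.1 l := by
      rw [g2]
      intro m
      simp only [mem_sdiff, mem_insert, mem_erase]
      rintro ⟨rfl | ⟨a1, a2⟩, a3⟩
      · exact absurd h6 a3
      · exact ⟨a2, a3⟩
    have hl3 := card_le_card hl2
    rw [hk2]
    omega
  · have h10 : i ∉ Y.1 l := h7.resolve_left h9
    have hk2 : X'.1 k \ Y.1 k = insert i ((X.1 k \ Y.1 k).erase j) := by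
      rw [g1]
      ext m
      simp only [mem_sdiff, mem_insert, mem_erase]
      constructor
      · rintro ⟨rfl | ⟨a1, a2⟩, a3⟩
        · exact Or.inl rfl
        · exact Or.inr ⟨a1, a2, a3⟩
      · rintro (rfl | ⟨a1, a2, a3⟩)
        · exact ⟨Or.inl rfl, h9⟩
        · exact ⟨Or.inr ⟨a1, a2⟩, a3⟩
    have hk3 : (X'.1 k \ Y.1 k).card ≤ ((X.1 k \ Y.1 k).erase j).card + 1 := by
      rw [hk2]
      exact card_insert_le _ _
    have hl2 : X'.1 l \ Y.1 l ⊆ (X.1 l \ Y.1 l).erase i := by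
      rw [g2]
      intro m
      simp only [mem_sdiff, mem_insert, mem_erase]
      rintro ⟨rfl | ⟨a1, a2⟩, a3⟩
      · exact absurd h6 a3
      · exact ⟨a1, a2, a3⟩
    have hl3 := card_le_card hl2
    rw [card_erase_of_mem (by simp [h3, h10])] at hl3
    have hl4 : 0 < (X.1 l \ Y.1 l).card := card_pos.mpr ⟨i, by simp [h3, h10]⟩
    omega

theorem conn_aux {r : κ → ℕ} {c : ι → ℕ} (F : Tab r c → ℝ)
    (h : ∀ k l : κ, k ≠ l → ∀ X Y : Tab r c, (∀ k', k' ≠ k → k' ≠ l → X.1 k' = Y.1 k') →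
      F X = F Y) (n : ℕ) : ∀ X Y : Tab r c, connD X Y = n → F X = F Y := by
  induction n using Nat.strong_induction_on with
  | _ n ih =>
    intro X Y hn
    by_cases hXY : ∀ k, X.1 k ⊆ Y.1 k
    · have : X = Y := by
        apply Subtype.ext
        funext k
        exact eq_of_subset_of_card_le (hXY k) (by rw [X.2.1 k, Y.2.1 k])
      rw [this]
    · push Not at hXY
      obtain ⟨k, hk⟩ := hXY
      rw [not_subset] at hk
      obtain ⟨j, h1, h5⟩ := hk
      obtain ⟨l, h6, h2⟩ : ∃ l, j ∈ Y.1 l ∧ j ∉ X.1 l := by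
        by_contra hcon
        push Not at hcon
        have hs : (univ.filter (fun k => j ∈ Y.1 k)) ⊆ (univ.filter (fun k => j ∈ X.1 k)) := by
          intro l hl
          simp only [mem_filter, mem_univ, true_and] at hl ⊢
          exact hcon l hl
        have he := eq_of_subset_of_card_le hs (by rw [X.2.2 j, Y.2.2 j])
        have hk' : k ∈ univ.filter (fun k => j ∈ X.1 k) := by simp [h1]
        rw [← he] at hk'
        simp only [mem_filter, mem_univ, true_and] at hk'
        exact h5 hk'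
      have hkl : k ≠ l := fun hh => h2 (hh ▸ h1)
      by_cases hA : ∃ i, i ∈ X.1 l ∧ i ∉ X.1 k ∧ (i ∈ Y.1 k ∨ i ∉ Y.1 l)
      · obtain ⟨i, h3, h4, h7⟩ := hA
        obtain ⟨X', g1, g2⟩ := conn_caseA X Y k l hkl i j h1 h2 h3 h4 h5 h6 h7
        rw [h k l hkl X X' g1]
        exact ih _ (by rw [← hn]; exact g2) X' Y rfl
      · by_cases hB : ∃ i, i ∈ Y.1 k ∧ i ∉ Y.1 l ∧ (i ∈ X.1 l ∨ i ∉ X.1 k)
        · obtain ⟨i, h3, h4, h7⟩ := hB
          obtain ⟨Y', g1, g2⟩ := conn_caseA Y X l k hkl.symm i j h6 h5 h3 h4 h2 h1 h7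
          rw [h l k hkl.symm Y Y' g1]
          refine (ih _ ?_ Y' X rfl).symm
          rw [← hn, connD_comm X Y]
          exact g2
        · exfalso
          push Not at hA hB
          have c1 : X.1 l \ X.1 k ⊆ (Y.1 l \ Y.1 k).erase j := by
            intro i hi
            rw [mem_sdiff] at hi
            have := hA i hi.1 hi.2
            rw [mem_erase, mem_sdiff]
            exact ⟨fun hh => h2 (hh ▸ hi.1), this.2, this.1⟩
          have c2 : Y.1 k \ Y.1 l ⊆ (X.1 k \ X.1 l).erase j := by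
            intro i hi
            rw [mem_sdiff] at hi
            have := hB i hi.1 hi.2
            rw [mem_erase, mem_sdiff]
            exact ⟨fun hh => h5 (hh ▸ hi.1), this.2, this.1⟩
          have c3 := card_le_card c1
          have c4 := card_le_card c2
          rw [card_erase_of_mem (by simp [h5, h6])] at c3
          rw [card_erase_of_mem (by simp [h1, h2])] at c4
          have c5 : 0 < (Y.1 l \ Y.1 k).card := card_pos.mpr ⟨j, by simp [h5, h6]⟩
          have c6 : 0 < (X.1 k \ X.1 l).card := card_pos.mpr ⟨j, by simp [h1, h2]⟩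
          have d1 : ∀ Z : Tab r c, r k + (Z.1 l \ Z.1 k).card = r l + (Z.1 k \ Z.1 l).card := by
            intro Z
            have e1 := card_sdiff_add_card (Z.1 l) (Z.1 k)
            have e2 := card_sdiff_add_card (Z.1 k) (Z.1 l)
            rw [union_comm] at e2
            rw [Z.2.1 k] at e1
            rw [Z.2.1 l] at e2
            omega
          have d2 := d1 X
          have d3 := d1 Y
          omega

theorem conn {r : κ → ℕ} {c : ι → ℕ} (F : Tab r c → ℝ)
    (h : ∀ k l : κ, k ≠ l → ∀ X Y : Tab r c, (∀ k', k' ≠ k → k' ≠ l → X.1 k' = Y.1 k') →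
      F X = F Y) : ∀ X Y : Tab r c, F X = F Y :=
  fun X Y => conn_aux F h _ X Y rfl

end

end VP335
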