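import Mathlib

/-!
# P335 (Kannan, Tetali and Vempala conjecture for simple graphs): the objects of the statement
-/

namespace VP335

open Finset

noncomputable section

open Classical

/-- `Real n d`: simple graphs on the vertex set `Fin n` in which `v` has degree `d v`. -/
def Rlz (n : ℕ) (d : Fin n → ℕ) : Type :=
  {G : SimpleGraph (Fin n) // ∀ v, (univ.filter (fun w => G.Adj v w)).card = d v}

instance (n : ℕ) : Fintype (SimpleGraph (Fin n)) := Fintype.ofFinite _

instance (n : ℕ) (d : Fin n → ℕ) : Fintype (Rlz n d) := by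
  unfold Rlz
  infer_instance

/-- `F` is (the edge set of) a perfect matching of the complete graph on the 4-element set `S`:
two non-loop edges whose endpoints are exactly the elements of `S`. -/
def IsPM {n : ℕ} (S : Finset (Fin n)) (F : Finset (Sym2 (Fin n))) : Prop :=
  F.card = 2 ∧ (∀ e ∈ F, ¬ e.IsDiag) ∧ ∀ v, v ∈ S ↔ ∃ e ∈ F, v ∈ e

/-- the ordered pairs of distinct perfect matchings of the complete graph on `S`
(there are six of them when `S` has four elements) -/
def matchPairs {n : ℕ} (S : Finset (Fin n)) :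
    Finset (Finset (Sym2 (Fin n)) × Finset (Sym2 (Fin n))) :=
  univ.filter (fun q => IsPM S q.1 ∧ IsPM S q.2 ∧ q.1 ≠ q.2)

/-- replace `q.1` by `q.2` if both edges of `q.1` are present and both edges of `q.2` are absent,
otherwise do nothing -/
def doSwitch {n : ℕ} (G : SimpleGraph (Fin n)) (q : Finset (Sym2 (Fin n)) × Finset (Sym2 (Fin n))) :
    SimpleGraph (Fin n) :=
  if (∀ e ∈ q.1, e ∈ G.edgeSet) ∧ (∀ e ∈ q.2, e ∉ G.edgeSet) then
    SimpleGraph.fromEdgeSet ((G.edgeSet \ (q.1 : Set (Sym2 (Fin n)))) ∪ (q.2 : Set (Sym2 (Fin n))))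
  else G

/-- the switch chain: with probability `1/2` stay put; otherwise choose a 4-element set `S`
uniformly, then uniformly an ordered pair of distinct perfect matchings of `S`, and switch. -/
def switchP (n : ℕ) (d : Fin n → ℕ) : Matrix (Rlz n d) (Rlz n d) ℝ :=
  fun G H =>
    (1 / 2) * (if G = H then 1 else 0) +
    (1 / 2) * ((1 / (Nat.choose n 4 : ℝ)) * ∑ S ∈ powersetCard 4 (univ : Finset (Fin n)),
      (1 / ((matchPairs S).card : ℝ)) * ∑ q ∈ matchPairs S, (if doSwitch G.1 q = H.1 then 1 else 0))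

/-- total variation distance between the law of the chain at time `t` started at `G`
and the uniform distribution -/
def tvDist (n : ℕ) (d : Fin n → ℕ) (t : ℕ) (G : Rlz n d) : ℝ :=
  (1 / 2) * ∑ H : Rlz n d, |(switchP n d ^ t) G H - 1 / (Fintype.card (Rlz n d) : ℝ)|

/-- the mixing time -/
def tmix (n : ℕ) (d : Fin n → ℕ) : ℕ := sInf {t : ℕ | ∀ G : Rlz n d, tvDist n d t G ≤ 1 / 4}

/-- `d` is the degree vector of a split graph: some simple graph with degrees `d` has its
vertex set partitioned into a clique `K` and an independent set -/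
def IsSplitDegree (n : ℕ) (d : Fin n → ℕ) : Prop :=
  ∃ G : Rlz n d, ∃ K : Finset (Fin n),
    (∀ u ∈ K, ∀ v ∈ K, u ≠ v → G.1.Adj u v) ∧ (∀ u, u ∉ K → ∀ v, v ∉ K → ¬ G.1.Adj u v)

end

end VP335
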