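import Vale.Agent.P335.Poincare

/-! P335: Poincare inequality for the Johnson graph, and for one pair of rows -/

namespace VP335

open Finset

noncomputable section

open Classical

private lemma Johnson_step {Ω β : Type*} [Fintype Ω] (k : Ω → β) (G : Ω → ℝ) (x : Ω) :
    (G x - avg k G x) ^ 2 ≤ (1 / 4) * ∑ y ∈ fib k x, (G x - G y) ^ 2 := by
  have hx : x ∈ fib k x := self_mem_fib k x
  set n : ℝ := ((fib k x).card : ℝ) with hn
  have hn1 : (1 : ℝ) ≤ n := by
    rw [hn]; exact_mod_cast fib_card_pos k x
  have hn0 : n ≠ 0 := by positivity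
  have h1 : G x - avg k G x = (∑ y ∈ (fib k x).erase x, (G x - G y)) / n := by
    have h2 : ∑ y ∈ (fib k x).erase x, (G x - G y) = ∑ y ∈ fib k x, (G x - G y) := by
      rw [← Finset.add_sum_erase _ _ hx]; simp
    rw [h2, sum_sub_distrib, sum_const, nsmul_eq_mul, ← hn]
    unfold avg
    rw [← hn]
    field_simp
  have h3 : (∑ y ∈ (fib k x).erase x, (G x - G y)) ^ 2 ≤
      (n - 1) * ∑ y ∈ (fib k x).erase x, (G x - G y) ^ 2 := by
    have := sq_sum_le_card_mul_sum_sq (s := (fib k x).erase x) (f := fun y => G x - G y)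
    rw [card_erase_of_mem hx, Nat.cast_sub (fib_card_pos k x), Nat.cast_one, ← hn] at this
    exact this
  have h4 : ∑ y ∈ (fib k x).erase x, (G x - G y) ^ 2 = ∑ y ∈ fib k x, (G x - G y) ^ 2 := by
    rw [← Finset.add_sum_erase _ _ hx]; simp
  have h5 : 0 ≤ ∑ y ∈ fib k x, (G x - G y) ^ 2 := sum_nonneg fun _ _ => sq_nonneg _
  rw [h4] at h3
  rw [h1, div_pow, div_le_iff₀ (by positivity)]
  refine h3.trans ?_
  have h6 : n - 1 ≤ 1 / 4 * n ^ 2 := by nlinarith [sq_nonneg (n - 2)]
  calc (n - 1) * ∑ y ∈ fib k x, (G x - G y) ^ 2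
      ≤ (1 / 4 * n ^ 2) * ∑ y ∈ fib k x, (G x - G y) ^ 2 := mul_le_mul_of_nonneg_right h6 h5
    _ = (1 / 4 * ∑ y ∈ fib k x, (G x - G y) ^ 2) * n ^ 2 := by ring

/-- row sums -/
private def Johnson_r {ι : Type*} (O : Finset ι) : {x // x ∈ O} → ℕ := fun _ => 1

/-- column sums -/
private def Johnson_c {ι : Type*} (O : Finset ι) (p : ℕ) : Bool → ℕ :=
  fun b => if b = true then p else O.card - p

private abbrev Johnson_T {ι : Type*} (O : Finset ι) (p : ℕ) : Type _ :=
  Tab (Johnson_r O) (Johnson_c O p)

/-- the rows equal to `{true}` -/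
private def Johnson_A {ι : Type*} (O : Finset ι) (p : ℕ) (X : Johnson_T O p) :
    Finset {x // x ∈ O} := univ.filter (fun k => true ∈ X.1 k)

private lemma Johnson_A_card {ι : Type*} (O : Finset ι) (p : ℕ) (X : Johnson_T O p) :
    (Johnson_A O p X).card = p := by
  have := X.2.2 true
  simpa [Johnson_c, Johnson_A] using this

private lemma Johnson_row {ι : Type*} (O : Finset ι) (p : ℕ) (X : Johnson_T O p)
    (k : {x // x ∈ O}) : X.1 k = if k ∈ Johnson_A O p X then {true} else {false} := by
  have h1 : (X.1 k).card = 1 := X.2.1 k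
  obtain ⟨b, hb⟩ := card_eq_one.mp h1
  simp only [Johnson_A, mem_filter, mem_univ, true_and, hb, mem_singleton]
  cases b <;> simp

private lemma Johnson_ext {ι : Type*} (O : Finset ι) (p : ℕ) {X Y : Johnson_T O p}
    (h : Johnson_A O p X = Johnson_A O p Y) : X = Y := by
  apply Subtype.ext
  funext k
  rw [Johnson_row O p X k, Johnson_row O p Y k, h]

private def Johnson_S {ι : Type*} (O : Finset ι) (p : ℕ) (X : Johnson_T O p) : Finset ι :=
  (Johnson_A O p X).map (Function.Embedding.subtype _)

private lemma Johnson_S_inj {ι : Type*} (O : Finset ι) (p : ℕ) {X Y : Johnson_T O p}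
    (h : Johnson_S O p X = Johnson_S O p Y) : X = Y :=
  Johnson_ext O p (map_injective _ h)

private lemma Johnson_image {ι : Type*} [Fintype ι] (O : Finset ι) (p : ℕ) (hp : p ≤ O.card) :
    (univ : Finset (Johnson_T O p)).image (Johnson_S O p) = powersetCard p O := by
  ext U
  rw [mem_image, mem_powersetCard]
  constructor
  · rintro ⟨X, _, rfl⟩
    refine ⟨?_, ?_⟩
    · intro x hx
      simp only [Johnson_S, mem_map, Function.Embedding.coe_subtype] at hx
      obtain ⟨y, _, rfl⟩ := hx
      exact y.2
    · rw [Johnson_S, card_map, Johnson_A_card]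
  · rintro ⟨hUO, hU⟩
    have htrue : (univ.filter (fun k : {x // x ∈ O} => k.1 ∈ U)).card = p := by
      rw [← hU, ← card_map (Function.Embedding.subtype _)]
      congr 1
      ext x
      simp only [mem_map, mem_filter, mem_univ, true_and, Function.Embedding.coe_subtype]
      constructor
      · rintro ⟨y, hy, rfl⟩
        exact hy
      · intro hx
        exact ⟨⟨x, hUO hx⟩, hx, rfl⟩
    have hfalse : (univ.filter (fun k : {x // x ∈ O} => k.1 ∉ U)).card = O.card - p := by
      have h1 := card_filter_add_card_filter_not (s := (univ : Finset {x // x ∈ O}))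
        (fun k : {x // x ∈ O} => k.1 ∈ U)
      rw [htrue, card_univ, Fintype.card_coe] at h1
      omega
    refine ⟨⟨fun k => if k.1 ∈ U then {true} else {false}, ?_, ?_⟩, mem_univ _, ?_⟩
    · intro k
      simp only [Johnson_r]
      split_ifs <;> simp
    · intro b
      beta_reduce
      cases b
      · refine Eq.trans (congrArg card
          (?_ : _ = univ.filter (fun k : {x // x ∈ O} => k.1 ∉ U)))
          (hfalse.trans (by simp [Johnson_c]))
        ext k
        simp only [mem_filter, mem_univ, true_and]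
        split_ifs with h <;> simp [h]
      · refine Eq.trans (congrArg card
          (?_ : _ = univ.filter (fun k : {x // x ∈ O} => k.1 ∈ U)))
          (htrue.trans (by simp [Johnson_c]))
        ext k
        simp only [mem_filter, mem_univ, true_and]
        split_ifs with h <;> simp [h]
    · ext x
      simp only [Johnson_S, Johnson_A, mem_map, mem_filter, mem_univ, true_and,
        Function.Embedding.coe_subtype]
      constructor
      · rintro ⟨y, hy, rfl⟩
        by_contra h
        rw [if_neg h] at hy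
        simp at hy
      · intro hx
        refine ⟨⟨x, hUO hx⟩, ?_, rfl⟩
        simp [hx]

private lemma Johnson_sum {ι : Type*} [Fintype ι] (O : Finset ι) (p : ℕ) (hp : p ≤ O.card)
    (g : Finset ι → ℝ) :
    ∑ U ∈ powersetCard p O, g U = ∑ X : Johnson_T O p, g (Johnson_S O p X) := by
  rw [← Johnson_image O p hp, sum_image]
  intro X _ Y _ h
  exact Johnson_S_inj O p h

private lemma Johnson_key {ι : Type*} [Fintype ι] (O : Finset ι) (p : ℕ) (X Y : Johnson_T O p)
    (hXY : X ≠ Y) (a : Finset {x // x ∈ O}) (ha : a.card = 2) (hk : key a Y = key a X) :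
    (Johnson_S O p X \ Johnson_S O p Y).card = 1 ∧
      a = (Johnson_A O p X \ Johnson_A O p Y) ∪ (Johnson_A O p Y \ Johnson_A O p X) := by
  set A := Johnson_A O p X with hA
  set B := Johnson_A O p Y with hB
  have hAB : A ≠ B := fun h => hXY (Johnson_ext O p h)
  have hAc : A.card = p := Johnson_A_card O p X
  have hBc : B.card = p := Johnson_A_card O p Y
  have hsub : (A \ B) ∪ (B \ A) ⊆ a := by
    intro k hk'
    by_contra hka
    have h1 : Y.1 k = X.1 k := by
      have := congrFun hk k
      simpa [key, hka] using this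
    have h2 : k ∈ A ↔ k ∈ B := by
      rw [hA, hB]
      simp only [Johnson_A, mem_filter, mem_univ, true_and, h1]
    simp only [mem_union, mem_sdiff] at hk'
    tauto
  have hd : Disjoint (A \ B) (B \ A) := disjoint_sdiff_sdiff
  have hc : (A \ B).card = (B \ A).card := by
    have h1 := card_sdiff_add_card_inter A B
    have h2 := card_sdiff_add_card_inter B A
    rw [inter_comm B A] at h2
    omega
  have hpos : 0 < (A \ B).card := by
    rw [Nat.pos_iff_ne_zero]
    intro h0
    have h1 : A ⊆ B := by
      rw [← sdiff_eq_empty_iff_subset]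
      exact card_eq_zero.mp h0
    exact hAB (eq_of_subset_of_card_le h1 (by omega))
  have hcu : ((A \ B) ∪ (B \ A)).card = 2 * (A \ B).card := by
    rw [card_union_of_disjoint hd, ← hc]; ring
  have hle := card_le_card hsub
  have h1 : (A \ B).card = 1 := by omega
  refine ⟨?_, ?_⟩
  · have h2 : Johnson_S O p X \ Johnson_S O p Y =
        (A \ B).map (Function.Embedding.subtype _) := by
      ext x
      simp only [Johnson_S, mem_sdiff, mem_map, Function.Embedding.coe_subtype, ← hA, ← hB]
      constructor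
      · rintro ⟨⟨y, hy, rfl⟩, h⟩
        exact ⟨y, ⟨hy, fun hyB => h ⟨y, hyB, rfl⟩⟩, rfl⟩
      · rintro ⟨y, ⟨hyA, hyB⟩, rfl⟩
        refine ⟨⟨y, hyA, rfl⟩, ?_⟩
        rintro ⟨z, hz, hzy⟩
        rw [Subtype.ext hzy] at hz
        exact hyB hz
    rw [h2, card_map, h1]
  · exact (eq_of_subset_of_card_le hsub (by omega)).symm

theorem johnson {ι : Type*} [Fintype ι] (O : Finset ι) (p : ℕ) (F : Finset ι → ℝ) :
    ∑ U ∈ powersetCard p O,
        (F U - (∑ V ∈ powersetCard p O, F V) / ((powersetCard p O).card : ℝ)) ^ 2 ≤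
      (1 / 4) * ∑ U ∈ powersetCard p O, ∑ V ∈ powersetCard p O,
        (if (U \ V).card = 1 then (F U - F V) ^ 2 else 0) := by
  by_cases hp : p ≤ O.card
  swap
  · have h0 : powersetCard p O = ∅ := powersetCard_eq_empty.mpr (by omega)
    simp [h0]
  set G : Johnson_T O p → ℝ := fun X => F (Johnson_S O p X) with hG
  have hcard : ((powersetCard p O).card : ℝ) = (Fintype.card (Johnson_T O p) : ℝ) := by
    have := Johnson_sum O p hp (fun _ => (1 : ℝ))
    simpa using this
  have hmean : (∑ V ∈ powersetCard p O, F V) / ((powersetCard p O).card : ℝ) = mean G := by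
    rw [Johnson_sum O p hp F, hcard]
    rfl
  have hL : ∑ U ∈ powersetCard p O,
      (F U - (∑ V ∈ powersetCard p O, F V) / ((powersetCard p O).card : ℝ)) ^ 2 =
      ∑ X, (G X - mean G) ^ 2 := by
    rw [hmean, Johnson_sum O p hp (fun U => (F U - mean G) ^ 2)]
  have hR : ∑ U ∈ powersetCard p O, ∑ V ∈ powersetCard p O,
      (if (U \ V).card = 1 then (F U - F V) ^ 2 else 0) =
      ∑ X : Johnson_T O p, ∑ Y : Johnson_T O p,
        (if (Johnson_S O p X \ Johnson_S O p Y).card = 1 then (G X - G Y) ^ 2 else 0) := by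
    rw [Johnson_sum O p hp (fun U => ∑ V ∈ powersetCard p O,
      (if (U \ V).card = 1 then (F U - F V) ^ 2 else 0))]
    refine sum_congr rfl fun X _ => ?_
    rw [Johnson_sum O p hp (fun V =>
      (if (Johnson_S O p X \ V).card = 1 then (F (Johnson_S O p X) - F V) ^ 2 else 0))]
  rw [hL, hR]
  refine (poincare G).trans ?_
  have h1 : ∑ a ∈ powersetCard 2 (univ : Finset {x // x ∈ O}), ∑ X, (G X - E a G X) ^ 2 ≤
      ∑ a ∈ powersetCard 2 (univ : Finset {x // x ∈ O}), ∑ X : Johnson_T O p,
        (1 / 4) * ∑ Y : Johnson_T O p, (if key a Y = key a X then (G X - G Y) ^ 2 else 0) := by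
    refine sum_le_sum fun a _ => sum_le_sum fun X _ => ?_
    refine (Johnson_step (key a) G X).trans (le_of_eq ?_)
    rw [fib, sum_filter]
    refine congrArg (fun z => (1 / 4 : ℝ) * z) (sum_congr rfl fun Y _ => ?_)
    by_cases h : key a Y = key a X
    · rw [if_pos h, if_pos h]
    · rw [if_neg h, if_neg h]
  refine h1.trans ?_
  have h2 : ∑ a ∈ powersetCard 2 (univ : Finset {x // x ∈ O}), ∑ X : Johnson_T O p,
        (1 / 4) * ∑ Y : Johnson_T O p, (if key a Y = key a X then (G X - G Y) ^ 2 else 0) =
      (1 / 4) * ∑ X : Johnson_T O p, ∑ Y : Johnson_T O p,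
        ∑ a ∈ powersetCard 2 (univ : Finset {x // x ∈ O}),
          (if key a Y = key a X then (G X - G Y) ^ 2 else 0) := by
    rw [mul_sum, sum_comm]
    refine sum_congr rfl fun X _ => ?_
    rw [← mul_sum, sum_comm]
  rw [h2]
  refine mul_le_mul_of_nonneg_left ?_ (by norm_num)
  refine sum_le_sum fun X _ => sum_le_sum fun Y _ => ?_
  by_cases hXY : X = Y
  · subst hXY
    simp
  · by_cases hex : ∃ a ∈ powersetCard 2 (univ : Finset {x // x ∈ O}), key a Y = key a X
    · obtain ⟨a, ha, hka⟩ := hex
      have h3 := Johnson_key O p X Y hXY a (mem_powersetCard.mp ha).2 hka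
      rw [if_pos h3.1]
      rw [sum_eq_single_of_mem a ha]
      · rw [if_pos hka]
      · intro b hb hba
        rw [if_neg]
        intro hkb
        have h4 := Johnson_key O p X Y hXY b (mem_powersetCard.mp hb).2 hkb
        exact hba (h4.2.trans h3.2.symm)
    · push Not at hex
      rw [sum_eq_zero (fun a ha => if_neg (hex a ha))]
      split_ifs
      · exact sq_nonneg _
      · exact le_rfl

end

end VP335
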