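import Vale.Agent.P335.Base

/-! P335: a Poincare inequality bounds the mixing time of a lazy symmetric chain -/

namespace VP335

open Finset

noncomputable section

open Classical

/-- the action of the kernel on functions -/
def mixT {Ω : Type*} [Fintype Ω] (P : Matrix Ω Ω ℝ) (F : Ω → ℝ) : Ω → ℝ :=
  fun x => ∑ y, P x y * F y

/-- the bilinear form of the kernel -/
def mixB {Ω : Type*} [Fintype Ω] (P : Matrix Ω Ω ℝ) (F G : Ω → ℝ) : ℝ :=
  ∑ x, ∑ y, P x y * (F x * G y)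

theorem mixB_mixT {Ω : Type*} [Fintype Ω] (P : Matrix Ω Ω ℝ) (F G : Ω → ℝ) :
    mixB P F G = ∑ x, F x * mixT P G x := by
  unfold mixB mixT
  refine sum_congr rfl fun x _ => ?_
  rw [mul_sum]
  exact sum_congr rfl fun y _ => by ring

theorem mixB_comm {Ω : Type*} [Fintype Ω] (P : Matrix Ω Ω ℝ) (hs : ∀ x y, P x y = P y x)
    (F G : Ω → ℝ) : mixB P F G = mixB P G F := by
  unfold mixB
  rw [sum_comm]
  refine sum_congr rfl fun y _ => sum_congr rfl fun x _ => ?_
  rw [hs x y]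
  ring

theorem mixB_self_T {Ω : Type*} [Fintype Ω] (P : Matrix Ω Ω ℝ) (hs : ∀ x y, P x y = P y x)
    (F : Ω → ℝ) : mixB P F (mixT P F) = ∑ x, mixT P F x ^ 2 := by
  rw [mixB_comm P hs, mixB_mixT]
  exact sum_congr rfl fun x _ => by ring

theorem mix_row {Ω : Type*} [Fintype Ω] (P : Matrix Ω Ω ℝ) (h1 : ∀ x, ∑ y, P x y = 1)
    (F : Ω → ℝ) : ∑ x, ∑ y, P x y * F x ^ 2 = ∑ x, F x ^ 2 := by
  refine sum_congr rfl fun x _ => ?_
  rw [← sum_mul, h1 x, one_mul]

theorem mix_col {Ω : Type*} [Fintype Ω] (P : Matrix Ω Ω ℝ) (hs : ∀ x y, P x y = P y x)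
    (h1 : ∀ x, ∑ y, P x y = 1)
    (F : Ω → ℝ) : ∑ x, ∑ y, P x y * F y ^ 2 = ∑ x, F x ^ 2 := by
  rw [sum_comm]
  refine sum_congr rfl fun y _ => ?_
  rw [← sum_mul]
  have : ∑ x, P x y = 1 := by
    rw [← h1 y]
    exact sum_congr rfl fun x _ => hs x y
  rw [this, one_mul]

theorem mix_sub {Ω : Type*} [Fintype Ω] (P : Matrix Ω Ω ℝ) (hs : ∀ x y, P x y = P y x)
    (h1 : ∀ x, ∑ y, P x y = 1) (F : Ω → ℝ) :
    ∑ x, ∑ y, P x y * (F x - F y) ^ 2 = 2 * ∑ x, F x ^ 2 - 2 * mixB P F F := by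
  have h : ∑ x, ∑ y, P x y * (F x - F y) ^ 2 =
      ∑ x, ∑ y, P x y * F x ^ 2 + ∑ x, ∑ y, P x y * F y ^ 2 - 2 * mixB P F F := by
    unfold mixB
    rw [mul_sum, ← sum_add_distrib, ← sum_sub_distrib]
    refine sum_congr rfl fun x _ => ?_
    rw [mul_sum, ← sum_add_distrib, ← sum_sub_distrib]
    exact sum_congr rfl fun y _ => by ring
  rw [h, mix_row P h1, mix_col P hs h1]
  ring

theorem mix_add {Ω : Type*} [Fintype Ω] (P : Matrix Ω Ω ℝ) (hs : ∀ x y, P x y = P y x)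
    (h1 : ∀ x, ∑ y, P x y = 1) (F : Ω → ℝ) :
    ∑ x, ∑ y, P x y * (F x + F y) ^ 2 = 2 * ∑ x, F x ^ 2 + 2 * mixB P F F := by
  have h : ∑ x, ∑ y, P x y * (F x + F y) ^ 2 =
      ∑ x, ∑ y, P x y * F x ^ 2 + ∑ x, ∑ y, P x y * F y ^ 2 + 2 * mixB P F F := by
    unfold mixB
    rw [mul_sum, ← sum_add_distrib, ← sum_add_distrib]
    refine sum_congr rfl fun x _ => ?_
    rw [mul_sum, ← sum_add_distrib, ← sum_add_distrib]
    exact sum_congr rfl fun y _ => by ring
  rw [h, mix_row P h1, mix_col P hs h1]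
  ring

theorem mixB_nonneg {Ω : Type*} [Fintype Ω] (P : Matrix Ω Ω ℝ) (hs : ∀ x y, P x y = P y x)
    (hn : ∀ x y, 0 ≤ P x y) (h1 : ∀ x, ∑ y, P x y = 1) (hl : ∀ x, 1 / 2 ≤ P x x)
    (F : Ω → ℝ) : 0 ≤ mixB P F F := by
  have h := mix_add P hs h1 F
  have h2 : 2 * ∑ x, F x ^ 2 ≤ ∑ x, ∑ y, P x y * (F x + F y) ^ 2 := by
    rw [mul_sum]
    refine sum_le_sum fun x _ => ?_
    have h3 : P x x * (F x + F x) ^ 2 ≤ ∑ y, P x y * (F x + F y) ^ 2 :=
      single_le_sum (f := fun y => P x y * (F x + F y) ^ 2)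
        (fun y _ => mul_nonneg (hn x y) (sq_nonneg _)) (mem_univ x)
    have h4 : 2 * F x ^ 2 ≤ P x x * (F x + F x) ^ 2 := by
      nlinarith [hl x, sq_nonneg (F x)]
    linarith
  linarith

theorem mixB_lin {Ω : Type*} [Fintype Ω] (P : Matrix Ω Ω ℝ) (hs : ∀ x y, P x y = P y x)
    (F G : Ω → ℝ) (a : ℝ) : mixB P (fun x => a * F x - G x) (fun x => a * F x - G x) =
      a ^ 2 * mixB P F F - 2 * a * mixB P F G + mixB P G G := by
  have h : mixB P (fun x => a * F x - G x) (fun x => a * F x - G x) =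
      a ^ 2 * mixB P F F - a * mixB P F G - a * mixB P G F + mixB P G G := by
    unfold mixB
    simp only [mul_sum, ← sum_sub_distrib, ← sum_add_distrib]
    refine sum_congr rfl fun x _ => sum_congr rfl fun y _ => ?_
    ring
  rw [h, mixB_comm P hs G F]
  ring

theorem mix_contract {Ω : Type*} [Fintype Ω] (P : Matrix Ω Ω ℝ)
    (hs : ∀ x y, P x y = P y x) (hn : ∀ x y, 0 ≤ P x y) (h1 : ∀ x, ∑ y, P x y = 1)
    (hl : ∀ x, 1 / 2 ≤ P x x) (A : ℝ) (hA : 1 ≤ A)
    (hP : ∀ F : Ω → ℝ, ∑ x, (F x - mean F) ^ 2 ≤ A * ∑ x, ∑ y, P x y * (F x - F y) ^ 2)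
    (F : Ω → ℝ) (hF : ∑ x, F x = 0) :
    ∑ x, mixT P F x ^ 2 ≤ (1 - 1 / (2 * A)) ^ 2 * ∑ x, F x ^ 2 := by
  have key : ∀ G : Ω → ℝ, ∑ x, G x = 0 → mixB P G G ≤ (1 - 1 / (2 * A)) * ∑ x, G x ^ 2 := by
    intro G hG
    have h := hP G
    rw [mix_sub P hs h1] at h
    have hm : mean G = 0 := by
      rw [mean, hG, zero_div]
    rw [hm] at h
    simp only [sub_zero] at h
    have hA0 : (0 : ℝ) < 2 * A := by linarith
    have h2 : (2 * A) * mixB P G G ≤ (2 * A) * ((1 - 1 / (2 * A)) * ∑ x, G x ^ 2) := by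
      have e : (2 * A) * ((1 - 1 / (2 * A)) * ∑ x, G x ^ 2) =
          2 * A * (∑ x, G x ^ 2) - ∑ x, G x ^ 2 := by
        field_simp
      rw [e]
      nlinarith
    exact le_of_mul_le_mul_left h2 hA0
  set lam : ℝ := 1 - 1 / (2 * A) with hlam
  have hlam0 : 0 < lam := by
    have : 1 / (2 * A) ≤ 1 / 2 := by
      apply one_div_le_one_div_of_le <;> linarith
    linarith
  have hTF : ∑ x, mixT P F x = 0 := by
    unfold mixT
    rw [sum_comm]
    have : ∀ y, ∑ x, P x y * F y = F y := by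
      intro y
      rw [← sum_mul]
      have : ∑ x, P x y = 1 := by
        rw [← h1 y]
        exact sum_congr rfl fun x _ => hs x y
      rw [this, one_mul]
    rw [sum_congr rfl fun y _ => this y, hF]
  have hpos := mixB_nonneg P hs hn h1 hl (fun x => lam * F x - mixT P F x)
  rw [mixB_lin P hs, mixB_self_T P hs] at hpos
  have k1 := key F hF
  have k2 := key (mixT P F) hTF
  have h3 : lam * ∑ x, mixT P F x ^ 2 ≤ lam * (lam ^ 2 * ∑ x, F x ^ 2) := by
    have h4 : lam ^ 2 * mixB P F F ≤ lam ^ 2 * (lam * ∑ x, F x ^ 2) :=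
      mul_le_mul_of_nonneg_left k1 (sq_nonneg _)
    nlinarith
  exact le_of_mul_le_mul_left h3 hlam0

theorem mixing {Ω : Type*} [Fintype Ω] [DecidableEq Ω] [Nonempty Ω] (P : Matrix Ω Ω ℝ)
    (hs : ∀ x y, P x y = P y x) (hn : ∀ x y, 0 ≤ P x y) (h1 : ∀ x, ∑ y, P x y = 1)
    (hl : ∀ x, 1 / 2 ≤ P x x) (A : ℝ) (hA : 1 ≤ A)
    (hP : ∀ F : Ω → ℝ, ∑ x, (F x - mean F) ^ 2 ≤ A * ∑ x, ∑ y, P x y * (F x - F y) ^ 2)
    (t : ℕ) (ht : A * (2 * Real.log 2 + Real.log (Fintype.card Ω)) ≤ t) (x : Ω) :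
    (1 / 2) * ∑ y, |(P ^ t) x y - 1 / (Fintype.card Ω : ℝ)| ≤ 1 / 4 := by
  set n : ℝ := (Fintype.card Ω : ℝ) with hn'
  have hnpos : 0 < n := by
    rw [hn']
    exact_mod_cast Fintype.card_pos
  set lam : ℝ := 1 - 1 / (2 * A) with hlam
  have hlam0 : 0 < lam := by
    have : 1 / (2 * A) ≤ 1 / 2 := by
      apply one_div_le_one_div_of_le <;> linarith
    linarith
  have hstep : ∀ s : ℕ, (fun y => (P ^ (s + 1)) x y - 1 / n) =
      mixT P (fun y => (P ^ s) x y - 1 / n) := by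
    intro s
    funext y
    rw [pow_succ, Matrix.mul_apply]
    unfold mixT
    have e : ∑ z, P y z * ((P ^ s) x z - 1 / n) =
        ∑ z, P y z * (P ^ s) x z - (∑ z, P y z) * (1 / n) := by
      rw [sum_mul, ← sum_sub_distrib]
      exact sum_congr rfl fun z _ => by ring
    rw [e, h1 y, one_mul]
    congr 1
    exact sum_congr rfl fun z _ => by rw [hs z y]; ring
  have hsum : ∀ s : ℕ, ∑ y, ((P ^ s) x y - 1 / n) = 0 := by
    intro s
    induction s with
    | zero =>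
      rw [pow_zero, sum_sub_distrib, sum_const, card_univ, nsmul_eq_mul]
      have : ∑ y, (1 : Matrix Ω Ω ℝ) x y = 1 := by
        simp [Matrix.one_apply]
      rw [this, ← hn']
      field_simp
      ring
    | succ s ih =>
      have h : ∀ y, (P ^ (s + 1)) x y - 1 / n = mixT P (fun y => (P ^ s) x y - 1 / n) y :=
        fun y => congrFun (hstep s) y
      rw [sum_congr rfl fun y _ => h y]
      unfold mixT
      rw [sum_comm]
      have : ∀ z, ∑ y, P y z * ((P ^ s) x z - 1 / n) = (P ^ s) x z - 1 / n := by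
        intro z
        rw [← sum_mul]
        have : ∑ y, P y z = 1 := by
          rw [← h1 z]
          exact sum_congr rfl fun y _ => hs y z
        rw [this, one_mul]
      rw [sum_congr rfl fun z _ => this z, ih]
  have hdec : ∀ s : ℕ, ∑ y, ((P ^ s) x y - 1 / n) ^ 2 ≤ (lam ^ 2) ^ s := by
    intro s
    induction s with
    | zero =>
      rw [pow_zero, pow_zero]
      have e : ∀ y, ((1 : Matrix Ω Ω ℝ) x y - 1 / n) ^ 2 =
          (1 : Matrix Ω Ω ℝ) x y * (1 - 2 / n) + 1 / n ^ 2 := by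
        intro y
        by_cases h : x = y
        · rw [h, Matrix.one_apply_eq]
          field_simp
          ring
        · rw [Matrix.one_apply_ne h]
          field_simp
          ring
      rw [sum_congr rfl fun y _ => e y, sum_add_distrib, ← sum_mul, sum_const, card_univ,
        nsmul_eq_mul, ← hn']
      have : ∑ y, (1 : Matrix Ω Ω ℝ) x y = 1 := by
        simp [Matrix.one_apply]
      rw [this]
      have h5 : (1 : ℝ) * (1 - 2 / n) + n * (1 / n ^ 2) = 1 - 1 / n := by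
        field_simp
        ring
      rw [h5]
      have : 0 < 1 / n := by positivity
      linarith
    | succ s ih =>
      have h := mix_contract P hs hn h1 hl A hA hP (fun y => (P ^ s) x y - 1 / n) (hsum s)
      rw [← hstep s] at h
      refine h.trans ?_
      rw [pow_succ, mul_comm]
      exact mul_le_mul_of_nonneg_right ih (sq_nonneg _)
  have hcs : (∑ y, |(P ^ t) x y - 1 / n|) ^ 2 ≤ n * ∑ y, ((P ^ t) x y - 1 / n) ^ 2 := by
    have h := sq_sum_le_card_mul_sum_sq (s := (univ : Finset Ω))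
      (f := fun y => |(P ^ t) x y - 1 / n|)
    simp only [sq_abs, card_univ] at h
    exact h
  have hexp : n * (lam ^ 2) ^ t ≤ 1 / 4 := by
    have hA0 : 0 < A := by linarith
    have h6 : lam ≤ Real.exp (-(1 / (2 * A))) := by
      have := Real.add_one_le_exp (-(1 / (2 * A)))
      linarith
    have h7 : (lam ^ 2) ^ t ≤ Real.exp (-(t / A)) := by
      calc (lam ^ 2) ^ t = lam ^ (2 * t) := by rw [pow_mul]
        _ ≤ (Real.exp (-(1 / (2 * A)))) ^ (2 * t) := pow_le_pow_left₀ hlam0.le h6 _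
        _ = Real.exp (-(t / A)) := by
            rw [← Real.exp_nat_mul]
            congr 1
            push_cast
            field_simp
    have h8 : Real.exp (-(t / A)) ≤ Real.exp (-(2 * Real.log 2 + Real.log n)) := by
      apply Real.exp_le_exp.2
      have : 2 * Real.log 2 + Real.log n ≤ t / A := by
        rw [le_div_iff₀ hA0]
        linarith
      linarith
    have h9 : Real.exp (-(2 * Real.log 2 + Real.log n)) = 1 / (4 * n) := by
      rw [Real.exp_neg, Real.exp_add, Real.exp_log hnpos]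
      have : Real.exp (2 * Real.log 2) = 4 := by
        rw [two_mul, Real.exp_add, Real.exp_log (by norm_num)]
        norm_num
      rw [this, one_div]
    have h10 : (lam ^ 2) ^ t ≤ 1 / (4 * n) := (h7.trans h8).trans h9.le
    calc n * (lam ^ 2) ^ t ≤ n * (1 / (4 * n)) := mul_le_mul_of_nonneg_left h10 hnpos.le
      _ = 1 / 4 := by field_simp
  have hfin : (∑ y, |(P ^ t) x y - 1 / n|) ^ 2 ≤ (1 / 2) ^ 2 := by
    have := mul_le_mul_of_nonneg_left (hdec t) hnpos.le
    nlinarith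
  have := abs_le_of_sq_le_sq' hfin (by norm_num)
  linarith [this.2]

end

end VP335
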