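import Vale.Agent.P335.Base
import Vale.Agent.P335.Chain

/-! P335: realizations of a split degree vector are 0/1 tables with given margins -/

namespace VP335

open Finset

noncomputable section

open Classical

theorem split_filter_card {n : ℕ} (K : Finset (Fin n)) (p : Fin n → Prop) :
    (univ.filter p).card = (K.filter p).card + (Kᶜ.filter p).card := by
  have h : univ.filter p = K.filter p ∪ Kᶜ.filter p := by
    rw [← filter_union, union_compl]
  rw [h, card_union_of_disjoint]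
  exact disjoint_filter_filter disjoint_compl_right

theorem split_cross {n : ℕ} (H : SimpleGraph (Fin n)) (K : Finset (Fin n)) :
    ∑ v ∈ K, (Kᶜ.filter (fun w => H.Adj v w)).card =
      ∑ v ∈ Kᶜ, (K.filter (fun w => H.Adj v w)).card := by
  have h := sum_card_bipartiteAbove_eq_sum_card_bipartiteBelow (s := K) (t := Kᶜ)
    (fun a b => H.Adj a b)
  unfold bipartiteAbove bipartiteBelow at h
  rw [h]
  refine sum_congr rfl fun v _ => ?_
  congr 1
  exact filter_congr fun w _ => ⟨fun h => h.symm, fun h => h.symm⟩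

theorem split_count {n : ℕ} {d : Fin n → ℕ} (H : Rlz n d) (K : Finset (Fin n)) :
    ∑ v ∈ K, d v + ∑ v ∈ Kᶜ, (Kᶜ.filter (fun w => H.1.Adj v w)).card =
      ∑ v ∈ Kᶜ, d v + ∑ v ∈ K, (K.filter (fun w => H.1.Adj v w)).card := by
  have h1 : ∑ v ∈ K, d v = ∑ v ∈ K, (K.filter (fun w => H.1.Adj v w)).card +
      ∑ v ∈ K, (Kᶜ.filter (fun w => H.1.Adj v w)).card := by
    rw [← sum_add_distrib]
    exact sum_congr rfl fun v _ => by rw [← H.2 v, split_filter_card K]
  have h2 : ∑ v ∈ Kᶜ, d v = ∑ v ∈ Kᶜ, (K.filter (fun w => H.1.Adj v w)).card +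
      ∑ v ∈ Kᶜ, (Kᶜ.filter (fun w => H.1.Adj v w)).card := by
    rw [← sum_add_distrib]
    exact sum_congr rfl fun v _ => by rw [← H.2 v, split_filter_card K]
  rw [h1, h2, split_cross H.1 K]
  ring

theorem split_rigid (n : ℕ) (d : Fin n → ℕ) (G H : Rlz n d) (K : Finset (Fin n))
    (h1 : ∀ u ∈ K, ∀ v ∈ K, u ≠ v → G.1.Adj u v) (h2 : ∀ u, u ∉ K → ∀ v, v ∉ K → ¬ G.1.Adj u v) :
    (∀ u ∈ K, ∀ v ∈ K, u ≠ v → H.1.Adj u v) ∧ (∀ u, u ∉ K → ∀ v, v ∉ K → ¬ H.1.Adj u v) := by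
  have hG := split_count G K
  have hH := split_count H K
  have hb : ∑ v ∈ Kᶜ, (Kᶜ.filter (fun w => G.1.Adj v w)).card = 0 := by
    refine sum_eq_zero fun v hv => ?_
    rw [card_eq_zero, filter_eq_empty_iff]
    exact fun w hw => h2 v (mem_compl.1 hv) w (mem_compl.1 hw)
  have hsub : ∀ v ∈ K, K.filter (fun w => H.1.Adj v w) ⊆ K.filter (fun w => G.1.Adj v w) := by
    intro v hv w hw
    rw [mem_filter] at hw ⊢
    exact ⟨hw.1, h1 v hv w hw.1 hw.2.ne⟩
  have hle : ∀ v ∈ K, (K.filter (fun w => H.1.Adj v w)).card ≤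
      (K.filter (fun w => G.1.Adj v w)).card := fun v hv => card_le_card (hsub v hv)
  have hsum : ∑ v ∈ K, (K.filter (fun w => H.1.Adj v w)).card ≤
      ∑ v ∈ K, (K.filter (fun w => G.1.Adj v w)).card := sum_le_sum hle
  have heq : ∑ v ∈ K, (K.filter (fun w => H.1.Adj v w)).card =
      ∑ v ∈ K, (K.filter (fun w => G.1.Adj v w)).card := by omega
  have hz : ∑ v ∈ Kᶜ, (Kᶜ.filter (fun w => H.1.Adj v w)).card = 0 := by omega
  constructor
  · intro u hu v hv huv
    have h3 := (sum_eq_sum_iff_of_le hle).1 heq u hu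
    have h4 := eq_of_subset_of_card_le (hsub u hu) h3.ge
    have h5 : v ∈ K.filter (fun w => G.1.Adj u w) := mem_filter.2 ⟨hv, h1 u hu v hv huv⟩
    rw [← h4] at h5
    exact (mem_filter.1 h5).2
  · intro u hu v hv
    have h3 := (sum_eq_zero_iff.1 hz) u (mem_compl.2 hu)
    rw [card_eq_zero, filter_eq_empty_iff] at h3
    exact h3 (mem_compl.2 hv)

/-- the number of elements of a finite set of a subtype -/
theorem split_sub_card {n : ℕ} {q : Fin n → Prop} (A : Finset {v // q v}) (T : Finset (Fin n))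
    (h : ∀ v, v ∈ T ↔ ∃ hv : q v, (⟨v, hv⟩ : {v // q v}) ∈ A) : A.card = T.card := by
  have e : T = A.map (Function.Embedding.subtype q) := by
    ext v
    rw [h, mem_map]
    constructor
    · rintro ⟨hv, hA⟩
      exact ⟨⟨v, hv⟩, hA, rfl⟩
    · rintro ⟨w, hw, rfl⟩
      exact ⟨w.2, hw⟩
  rw [e, card_map]

theorem split_row_card {n : ℕ} {d : Fin n → ℕ} (G : Rlz n d) (K : Finset (Fin n))
    (h1 : ∀ u ∈ K, ∀ v ∈ K, u ≠ v → G.1.Adj u v) (k : Fin n) (hk : k ∈ K) :
    (Kᶜ.filter (fun w => G.1.Adj k w)).card = d k - (K.card - 1) ∧ K.card - 1 ≤ d k := by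
  have e : K.filter (fun w => G.1.Adj k w) = K.erase k := by
    ext w
    rw [mem_filter, mem_erase]
    constructor
    · exact fun h => ⟨h.2.ne', h.1⟩
    · exact fun h => ⟨h.2, h1 k hk w h.2 h.1.symm⟩
  have h := split_filter_card K (fun w => G.1.Adj k w)
  rw [G.2 k, e, card_erase_of_mem hk] at h
  omega

theorem split_col_card {n : ℕ} {d : Fin n → ℕ} (G : Rlz n d) (K : Finset (Fin n))
    (h2 : ∀ u, u ∉ K → ∀ v, v ∉ K → ¬ G.1.Adj u v) (j : Fin n) (hj : j ∉ K) :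
    (K.filter (fun w => G.1.Adj j w)).card = d j := by
  have h := split_filter_card K (fun w => G.1.Adj j w)
  have e : Kᶜ.filter (fun w => G.1.Adj j w) = ∅ := by
    rw [filter_eq_empty_iff]
    exact fun w hw => h2 j hj w (mem_compl.1 hw)
  rw [G.2 j, e, card_empty] at h
  omega

/-- the graph with clique `K`, independent outside `K`, and given bipartite part -/
def splitGraph {n : ℕ} (K : Finset (Fin n)) (X : {v // v ∈ K} → Finset {v // v ∉ K}) :
    SimpleGraph (Fin n) where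
  Adj u v := (u ∈ K ∧ v ∈ K ∧ u ≠ v) ∨ (∃ (hu : u ∈ K) (hv : v ∉ K), (⟨v, hv⟩ : {v // v ∉ K}) ∈ X ⟨u, hu⟩) ∨
    (∃ (hu : u ∉ K) (hv : v ∈ K), (⟨u, hu⟩ : {v // v ∉ K}) ∈ X ⟨v, hv⟩)
  symm := by
    constructor
    rintro u v (⟨h1, h2, h3⟩ | ⟨hu, hv, h⟩ | ⟨hu, hv, h⟩)
    · exact Or.inl ⟨h2, h1, h3.symm⟩
    · exact Or.inr (Or.inr ⟨hv, hu, h⟩)
    · exact Or.inr (Or.inl ⟨hv, hu, h⟩)
  loopless := by
    constructor
    rintro u (⟨_, _, h3⟩ | ⟨hu, hv, _⟩ | ⟨hu, hv, _⟩)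
    · exact h3 rfl
    · exact hv hu
    · exact hu hv

theorem splitGraph_KK {n : ℕ} (K : Finset (Fin n)) (X : {v // v ∈ K} → Finset {v // v ∉ K})
    {u v : Fin n} (hu : u ∈ K) (hv : v ∈ K) : (splitGraph K X).Adj u v ↔ u ≠ v := by
  constructor
  · rintro (⟨_, _, h3⟩ | ⟨_, hv', _⟩ | ⟨hu', _, _⟩)
    · exact h3
    · exact absurd hv hv'
    · exact absurd hu hu'
  · exact fun h => Or.inl ⟨hu, hv, h⟩

theorem splitGraph_KI {n : ℕ} (K : Finset (Fin n)) (X : {v // v ∈ K} → Finset {v // v ∉ K})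
    {u v : Fin n} (hu : u ∈ K) (hv : v ∉ K) :
    (splitGraph K X).Adj u v ↔ (⟨v, hv⟩ : {v // v ∉ K}) ∈ X ⟨u, hu⟩ := by
  constructor
  · rintro (⟨_, h2, _⟩ | ⟨_, _, h⟩ | ⟨hu', _, _⟩)
    · exact absurd h2 hv
    · exact h
    · exact absurd hu hu'
  · exact fun h => Or.inr (Or.inl ⟨hu, hv, h⟩)

theorem splitGraph_II {n : ℕ} (K : Finset (Fin n)) (X : {v // v ∈ K} → Finset {v // v ∉ K})
    {u v : Fin n} (hu : u ∉ K) (hv : v ∉ K) : ¬ (splitGraph K X).Adj u v := by
  rintro (⟨h1, _, _⟩ | ⟨hu', _, _⟩ | ⟨_, hv', _⟩)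
  · exact hu h1
  · exact hu hu'
  · exact hv hv'

theorem split_col_aux {κ ι : Type*} [Fintype κ] (A B : κ → Finset ι) (c : ι → ℕ)
    (hA : ∀ j, (univ.filter (fun k => j ∈ A k)).card = c j)
    (hB : ∀ j, (univ.filter (fun k => j ∈ B k)).card = c j) (k l : κ) (hkl : k ≠ l)
    (h : ∀ k', k' ≠ k → k' ≠ l → A k' = B k') (j : ι) :
    (j ∈ A k → j ∉ B k → (j ∉ A l ∧ j ∈ B l)) ∧ (j ∉ A k → j ∈ B k → (j ∈ A l ∧ j ∉ B l)) ∧
      ((j ∈ A k ↔ j ∈ B k) → (j ∈ A l ↔ j ∈ B l)) := by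
  have hX := hA j
  have hY := hB j
  rw [card_filter] at hX hY
  rw [← add_sum_erase univ _ (mem_univ k), ← add_sum_erase (univ.erase k) _
    (mem_erase.2 ⟨hkl.symm, mem_univ l⟩)] at hX hY
  have e : ∑ x ∈ (univ.erase k).erase l, (if j ∈ A x then 1 else 0) =
      ∑ x ∈ (univ.erase k).erase l, (if j ∈ B x then 1 else 0 : ℕ) := by
    refine sum_congr rfl fun x hx => ?_
    rw [mem_erase, mem_erase] at hx
    rw [h x hx.2.1 hx.1]
  rw [e] at hX
  have hm : (if j ∈ A k then 1 else 0) + (if j ∈ A l then 1 else 0) =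
      (if j ∈ B k then 1 else 0) + (if j ∈ B l then 1 else 0 : ℕ) := by omega
  clear hX hY e
  by_cases a1 : j ∈ A k <;> by_cases a2 : j ∈ A l <;> by_cases a3 : j ∈ B k <;>
    by_cases a4 : j ∈ B l <;> simp [a1, a2, a3, a4] at hm ⊢

theorem split_card_symm {ι : Type*} (A B : Finset ι) (hc : A.card = B.card)
    (h : (A \ B).card = 1) : (B \ A).card = 1 := by
  have e1 := card_sdiff_add_card_inter A B
  have e2 := card_sdiff_add_card_inter B A
  rw [inter_comm] at e2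
  omega

theorem split_card_one {ι : Type*} (A B : Finset ι) (h : (A \ B).card = 1) :
    ∃ x, x ∈ A ∧ x ∉ B ∧ ∀ j, j ≠ x → j ∈ A → j ∈ B := by
  obtain ⟨x, hx⟩ := card_eq_one.1 h
  have hxm : x ∈ A \ B := by rw [hx]; exact mem_singleton_self x
  rw [mem_sdiff] at hxm
  refine ⟨x, hxm.1, hxm.2, fun j hj hA => ?_⟩
  by_contra hB
  have : j ∈ A \ B := mem_sdiff.2 ⟨hA, hB⟩
  rw [hx, mem_singleton] at this
  exact hj this

theorem split_mem_cols {κ ι : Type*} [Fintype κ] (A : κ → Finset ι) (j : ι) (k : κ) :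
    k ∈ univ.filter (fun k => j ∈ A k) ↔ j ∈ A k := by
  rw [mem_filter]
  exact ⟨fun h => h.2, fun h => ⟨mem_univ _, h⟩⟩

/-- the full local structure of a switch of tables -/
theorem split_local {κ ι : Type*} [Fintype κ] (A B : κ → Finset ι) (r : κ → ℕ) (c : ι → ℕ)
    (rA : ∀ k, (A k).card = r k) (rB : ∀ k, (B k).card = r k)
    (hA : ∀ j, (univ.filter (fun k => j ∈ A k)).card = c j)
    (hB : ∀ j, (univ.filter (fun k => j ∈ B k)).card = c j) (k l : κ) (hkl : k ≠ l)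
    (h : ∀ k', k' ≠ k → k' ≠ l → A k' = B k') (h1 : (A k \ B k).card = 1) :
    ∃ x y : ι, x ≠ y ∧ (x ∈ A k ∧ x ∉ B k) ∧ (y ∈ B k ∧ y ∉ A k) ∧ (x ∉ A l ∧ x ∈ B l) ∧
      (y ∈ A l ∧ y ∉ B l) ∧ (∀ j, j ≠ x → j ≠ y → (j ∈ A k ↔ j ∈ B k)) ∧
      ∀ j, j ≠ x → j ≠ y → (j ∈ A l ↔ j ∈ B l) := by
  obtain ⟨x, hx1, hx2, hx3⟩ := split_card_one _ _ h1
  obtain ⟨y, hy1, hy2, hy3⟩ := split_card_one _ _
    (split_card_symm _ _ ((rA k).trans (rB k).symm) h1)
  have hcol := split_col_aux A B c hA hB k l hkl h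
  have hk : ∀ j, j ≠ x → j ≠ y → (j ∈ A k ↔ j ∈ B k) :=
    fun j h1 h2 => ⟨hx3 j h1, hy3 j h2⟩
  exact ⟨x, y, fun h => hy2 (h ▸ hx1), ⟨hx1, hx2⟩, ⟨hy1, hy2⟩, (hcol x).1 hx1 hx2,
    (hcol y).2.1 hy2 hy1, hk, fun j h1 h2 => (hcol j).2.2 (hk j h1 h2)⟩

/-- the table of a graph -/
def splitTab {n : ℕ} (K : Finset (Fin n)) (G : SimpleGraph (Fin n)) (k : {v // v ∈ K}) :
    Finset {v // v ∉ K} :=
  univ.filter (fun j => G.Adj k.1 j.1)

theorem mem_splitTab {n : ℕ} (K : Finset (Fin n)) (G : SimpleGraph (Fin n)) (k : {v // v ∈ K})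
    (j : {v // v ∉ K}) : j ∈ splitTab K G k ↔ G.Adj k.1 j.1 := by
  rw [splitTab, mem_filter]
  exact ⟨fun h => h.2, fun h => ⟨mem_univ _, h⟩⟩

theorem splitTab_row {n : ℕ} (K : Finset (Fin n)) (G : SimpleGraph (Fin n)) (k : {v // v ∈ K}) :
    (splitTab K G k).card = (Kᶜ.filter (fun w => G.Adj k.1 w)).card := by
  refine split_sub_card _ _ fun v => ?_
  rw [mem_filter, mem_compl]
  constructor
  · exact fun h => ⟨h.1, (mem_splitTab K G k _).2 h.2⟩
  · rintro ⟨hv, h⟩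
    exact ⟨hv, (mem_splitTab K G k _).1 h⟩

theorem split_equiv (n : ℕ) (d : Fin n → ℕ) (G0 : Rlz n d) (K : Finset (Fin n))
    (h1 : ∀ u ∈ K, ∀ v ∈ K, u ≠ v → G0.1.Adj u v)
    (h2 : ∀ u, u ∉ K → ∀ v, v ∉ K → ¬ G0.1.Adj u v) :
    ∃ (r : {v // v ∈ K} → ℕ) (c : {v // v ∉ K} → ℕ) (e : Rlz n d ≃ Tab r c),
      ∀ (G H : Rlz n d) (k l : {v // v ∈ K}), k ≠ l → swRel k l (e G) (e H) → IsSw G.1 H.1 := by
  have hrig := fun H : Rlz n d => split_rigid n d G0 H K h1 h2
  let r : {v // v ∈ K} → ℕ := fun k => d k.1 - (K.card - 1)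
  let c : {v // v ∉ K} → ℕ := fun j => d j.1
  have hr : ∀ (G : Rlz n d) (k : {v // v ∈ K}), (splitTab K G.1 k).card = r k := fun G k =>
    (splitTab_row K G.1 k).trans (split_row_card G K (hrig G).1 k.1 k.2).1
  have hc : ∀ (G : Rlz n d) (j : {v // v ∉ K}) (A : Finset {v // v ∈ K}),
      (∀ k, k ∈ A ↔ j ∈ splitTab K G.1 k) → A.card = c j := by
    intro G j A hA
    refine (split_sub_card A (K.filter (fun w => G.1.Adj j.1 w)) fun v => ?_).trans
      (split_col_card G K (hrig G).2 j.1 j.2)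
    rw [mem_filter]
    constructor
    · exact fun h => ⟨h.1, (hA _).2 ((mem_splitTab K G.1 _ _).2 h.2.symm)⟩
    · rintro ⟨hv, h⟩
      exact ⟨hv, ((mem_splitTab K G.1 _ _).1 ((hA _).1 h)).symm⟩
  let f : Rlz n d → Tab r c := fun G => ⟨splitTab K G.1, hr G, fun j => hc G j _ (split_mem_cols _ j)⟩
  have hf : ∀ (G : Rlz n d) (k : {v // v ∈ K}) (j : {v // v ∉ K}),
      j ∈ (f G).1 k ↔ G.1.Adj k.1 j.1 := fun G k j => mem_splitTab K G.1 k j
  have hinj : Function.Injective f := by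
    intro G H hGH
    have hKI : ∀ u v, u ∈ K → v ∉ K → (G.1.Adj u v ↔ H.1.Adj u v) := by
      intro u v hu hv
      have := hf G ⟨u, hu⟩ ⟨v, hv⟩
      rw [hGH, hf H ⟨u, hu⟩ ⟨v, hv⟩] at this
      exact this.symm
    apply Subtype.ext
    ext u v
    by_cases hu : u ∈ K <;> by_cases hv : v ∈ K
    · exact ⟨fun h => (hrig H).1 u hu v hv h.ne, fun h => (hrig G).1 u hu v hv h.ne⟩
    · exact hKI u v hu hv
    · have := hKI v u hv hu
      exact ⟨fun h => (this.1 h.symm).symm, fun h => (this.2 h.symm).symm⟩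
    · exact ⟨fun h => absurd h ((hrig G).2 u hu v hv), fun h => absurd h ((hrig H).2 u hu v hv)⟩
  have hsurj : Function.Surjective f := by
    intro X
    have hdeg : ∀ v, (univ.filter (fun w => (splitGraph K X.1).Adj v w)).card = d v := by
      intro v
      by_cases hv : v ∈ K
      · rw [split_filter_card K]
        have e1 : K.filter (fun w => (splitGraph K X.1).Adj v w) = K.erase v := by
          ext w
          rw [mem_filter, mem_erase]
          constructor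
          · exact fun h => ⟨h.2.ne', h.1⟩
          · exact fun h => ⟨h.2, (splitGraph_KK K X.1 hv h.2).2 h.1.symm⟩
        have e2 : (Kᶜ.filter (fun w => (splitGraph K X.1).Adj v w)).card = r ⟨v, hv⟩ := by
          refine (split_sub_card (X.1 ⟨v, hv⟩) _ fun w => ?_).symm.trans (X.2.1 ⟨v, hv⟩)
          rw [mem_filter, mem_compl]
          constructor
          · exact fun h => ⟨h.1, (splitGraph_KI K X.1 hv h.1).1 h.2⟩
          · rintro ⟨hw, h⟩
            exact ⟨hw, (splitGraph_KI K X.1 hv hw).2 h⟩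
        rw [e1, card_erase_of_mem hv, e2]
        have := (split_row_card G0 K h1 v hv).2
        show K.card - 1 + (d v - (K.card - 1)) = d v
        omega
      · rw [split_filter_card K]
        have e1 : Kᶜ.filter (fun w => (splitGraph K X.1).Adj v w) = ∅ := by
          rw [filter_eq_empty_iff]
          exact fun w hw => splitGraph_II K X.1 hv (mem_compl.1 hw)
        have e2 : (K.filter (fun w => (splitGraph K X.1).Adj v w)).card = c ⟨v, hv⟩ := by
          refine Eq.trans (Eq.symm (split_sub_card _ _ fun w => ?_)) (X.2.2 ⟨v, hv⟩)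
          rw [mem_filter]
          constructor
          · exact fun h => ⟨h.1, (split_mem_cols X.1 ⟨v, hv⟩ ⟨w, h.1⟩).2
              ((splitGraph_KI K X.1 h.1 hv).1 h.2.symm)⟩
          · rintro ⟨hw, h⟩
            exact ⟨hw, ((splitGraph_KI K X.1 hw hv).2
              ((split_mem_cols X.1 ⟨v, hv⟩ ⟨w, hw⟩).1 h)).symm⟩
        rw [e1, e2, card_empty, add_zero]
    refine ⟨⟨splitGraph K X.1, hdeg⟩, ?_⟩
    apply Subtype.ext
    funext k
    ext j
    exact (hf ⟨splitGraph K X.1, hdeg⟩ k j).trans (splitGraph_KI K X.1 k.2 j.2)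
  refine ⟨r, c, Equiv.ofBijective f ⟨hinj, hsurj⟩, ?_⟩
  intro G H k l hkl hsw
  have hsw' : swRel k l (f G) (f H) := hsw
  obtain ⟨hrows, hcard⟩ := hsw'
  obtain ⟨x, y, hxy, hxm, hym, hxl, hyl, hk, hl⟩ := split_local (f G).1 (f H).1 r c (f G).2.1
    (f H).2.1 (f G).2.2 (f H).2.2 k l hkl hrows hcard
  -- the mixed adjacencies
  have hmix : ∀ u v (hu : u ∈ K) (hv : v ∉ K), (H.1.Adj u v ↔
      (G.1.Adj u v ∧ ¬ (u = k.1 ∧ v = x.1) ∧ ¬ (u = l.1 ∧ v = y.1)) ∨
        (u = k.1 ∧ v = y.1) ∨ (u = l.1 ∧ v = x.1)) := by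
    intro u v hu hv
    rw [← hf H ⟨u, hu⟩ ⟨v, hv⟩, ← hf G ⟨u, hu⟩ ⟨v, hv⟩]
    have hkl' : k.1 ≠ l.1 := fun h => hkl (Subtype.ext h)
    have hxy' : x.1 ≠ y.1 := fun h => hxy (Subtype.ext h)
    by_cases huk : u = k.1
    · have e : (⟨u, hu⟩ : {v // v ∈ K}) = k := Subtype.ext huk
      rw [e]
      have hul : u ≠ l.1 := fun h => hkl' (huk ▸ h)
      by_cases hvx : v = x.1
      · have e' : (⟨v, hv⟩ : {v // v ∉ K}) = x := Subtype.ext hvx
        rw [e']
        have hvy : v ≠ y.1 := fun h => hxy' (hvx ▸ h)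
        constructor
        · intro h
          exact absurd h hxm.2
        · rintro (⟨_, h, _⟩ | ⟨_, h⟩ | ⟨h, _⟩)
          · exact absurd ⟨huk, hvx⟩ h
          · exact absurd h hvy
          · exact absurd h hul
      · by_cases hvy : v = y.1
        · have e' : (⟨v, hv⟩ : {v // v ∉ K}) = y := Subtype.ext hvy
          rw [e']
          exact ⟨fun _ => Or.inr (Or.inl ⟨huk, hvy⟩), fun _ => hym.1⟩
        · rw [← hk ⟨v, hv⟩ (fun h => hvx (congrArg Subtype.val h))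
            (fun h => hvy (congrArg Subtype.val h))]
          constructor
          · exact fun h => Or.inl ⟨h, fun h' => hvx h'.2, fun h' => hvy h'.2⟩
          · rintro (⟨h, _, _⟩ | ⟨_, h⟩ | ⟨_, h⟩)
            · exact h
            · exact absurd h hvy
            · exact absurd h hvx
    · by_cases hul : u = l.1
      · have e : (⟨u, hu⟩ : {v // v ∈ K}) = l := Subtype.ext hul
        rw [e]
        by_cases hvx : v = x.1
        · have e' : (⟨v, hv⟩ : {v // v ∉ K}) = x := Subtype.ext hvx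
          rw [e']
          exact ⟨fun _ => Or.inr (Or.inr ⟨hul, hvx⟩), fun _ => hxl.2⟩
        · by_cases hvy : v = y.1
          · have e' : (⟨v, hv⟩ : {v // v ∉ K}) = y := Subtype.ext hvy
            rw [e']
            constructor
            · intro h
              exact absurd h hyl.2
            · rintro (⟨_, _, h⟩ | ⟨h, _⟩ | ⟨_, h⟩)
              · exact absurd ⟨hul, hvy⟩ h
              · exact absurd h huk
              · exact absurd h hvx
          · rw [← hl ⟨v, hv⟩ (fun h => hvx (congrArg Subtype.val h))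
              (fun h => hvy (congrArg Subtype.val h))]
            constructor
            · exact fun h => Or.inl ⟨h, fun h' => hvx h'.2, fun h' => hvy h'.2⟩
            · rintro (⟨h, _, _⟩ | ⟨_, h⟩ | ⟨_, h⟩)
              · exact h
              · exact absurd h hvy
              · exact absurd h hvx
      · rw [hrows ⟨u, hu⟩ (fun h => huk (congrArg Subtype.val h))
          (fun h => hul (congrArg Subtype.val h))]
        constructor
        · exact fun h => Or.inl ⟨h, fun h' => huk h'.1, fun h' => hul h'.1⟩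
        · rintro (⟨h, _, _⟩ | ⟨h, _⟩ | ⟨h, _⟩)
          · exact h
          · exact absurd h huk
          · exact absurd h hul
  have hKne : ∀ {u v : Fin n}, u ∈ K → v ∉ K → u ≠ v := fun hu hv h => hv (h ▸ hu)
  refine ⟨k.1, l.1, x.1, y.1, fun h => hkl (Subtype.ext h), fun h => hxy (Subtype.ext h),
    hKne k.2 x.2, hKne k.2 y.2, hKne l.2 x.2, hKne l.2 y.2, (hf G k x).1 hxm.1,
    (hf G l y).1 hyl.1, fun h => hym.2 ((hf G k y).2 h), fun h => hxl.1 ((hf G l x).2 h), ?_⟩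
  have hsym : ∀ {u v a b : Fin n}, u ∈ K → v ∉ K → a ∈ K → b ∉ K →
      (s(u, v) = s(a, b) ↔ u = a ∧ v = b) := by
    intro u v a b hu hv ha hb
    rw [Sym2.eq_iff]
    constructor
    · rintro (h | h)
      · exact h
      · exact absurd (h.1 ▸ hu) hb
    · exact fun h => Or.inl h
  have hmixS : ∀ u v, u ∈ K → v ∉ K → (s(u, v) ∈ H.1.edgeSet ↔
      s(u, v) ∈ (G.1.edgeSet \ {s(k.1, x.1), s(l.1, y.1)}) ∪ {s(k.1, y.1), s(l.1, x.1)}) := by
    intro u v hu hv
    rw [SimpleGraph.mem_edgeSet, hmix u v hu hv]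
    simp only [Set.mem_union, Set.mem_sdiff, Set.mem_insert_iff, Set.mem_singleton_iff,
      SimpleGraph.mem_edgeSet, hsym hu hv k.2 x.2, hsym hu hv l.2 y.2, hsym hu hv k.2 y.2,
      hsym hu hv l.2 x.2, not_or]
  have hsameK : ∀ u v a b : Fin n, (u ∈ K ↔ v ∈ K) → a ∈ K → b ∉ K → s(u, v) ≠ s(a, b) := by
    intro u v a b huv ha hb h
    rw [Sym2.eq_iff] at h
    rcases h with ⟨rfl, rfl⟩ | ⟨rfl, rfl⟩
    · exact hb (huv.1 ha)
    · exact hb (huv.2 ha)
  ext e
  induction e using Sym2.ind with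
  | _ u v =>
    by_cases hu : u ∈ K <;> by_cases hv : v ∈ K
    · have hs := hsameK u v
      simp only [Set.mem_union, Set.mem_sdiff, Set.mem_insert_iff, Set.mem_singleton_iff,
        SimpleGraph.mem_edgeSet, hs _ _ (iff_of_true hu hv) k.2 x.2,
        hs _ _ (iff_of_true hu hv) l.2 y.2, hs _ _ (iff_of_true hu hv) k.2 y.2,
        hs _ _ (iff_of_true hu hv) l.2 x.2, or_self, not_false_eq_true, and_true, or_false]
      exact ⟨fun h => (hrig G).1 u hu v hv h.ne, fun h => (hrig H).1 u hu v hv h.ne⟩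
    · exact hmixS u v hu hv
    · have := hmixS v u hv hu
      rw [Sym2.eq_swap]
      exact this
    · have hs := hsameK u v
      simp only [Set.mem_union, Set.mem_sdiff, Set.mem_insert_iff, Set.mem_singleton_iff,
        SimpleGraph.mem_edgeSet, hs _ _ (iff_of_false hu hv) k.2 x.2,
        hs _ _ (iff_of_false hu hv) l.2 y.2, hs _ _ (iff_of_false hu hv) k.2 y.2,
        hs _ _ (iff_of_false hu hv) l.2 x.2, or_self, not_false_eq_true, and_true, or_false]
      exact ⟨fun h => absurd h ((hrig H).2 u hu v hv), fun h => absurd h ((hrig G).2 u hu v hv)⟩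

end

end VP335
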