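import Vale.Agent.P335.Base
import Vale.Agent.P162.SymEig

/-! P335: an upper bound for a quadratic form from its eigenfunctions -/

namespace VP335

open Finset

noncomputable section

open Classical

/-- the linear equivalence between Euclidean space and functions -/
private def Spectral_e (Ω : Type*) [Fintype Ω] : EuclideanSpace ℝ Ω ≃ₗ[ℝ] (Ω → ℝ) :=
  WithLp.linearEquiv 2 ℝ (Ω → ℝ)

private lemma Spectral_inner {Ω : Type*} [Fintype Ω] (x y : EuclideanSpace ℝ Ω) :
    inner ℝ x y = ip (Spectral_e Ω x) (Spectral_e Ω y) := by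
  rw [PiLp.inner_apply]
  unfold ip
  apply Finset.sum_congr rfl
  intro i _
  simp only [RCLike.inner_apply, conj_trivial]
  rw [mul_comm]
  rfl

/-- if a symmetric operator preserves the mean-zero functions and has no nonzero mean-zero
eigenfunction with eigenvalue above `θ0`, then its quadratic form is at most `θ0` there -/
theorem spectral_upper {Ω : Type*} [Fintype Ω] (T : (Ω → ℝ) →ₗ[ℝ] (Ω → ℝ))
    (hs : ∀ F G, ip (T F) G = ip F (T G))
    (h0 : ∀ F : Ω → ℝ, ∑ x, F x = 0 → ∑ x, T F x = 0) (θ0 : ℝ)
    (h : ∀ θ : ℝ, θ0 < θ → ∀ F : Ω → ℝ, ∑ x, F x = 0 → T F = θ • F → F = 0) :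
    ∀ F : Ω → ℝ, ∑ x, F x = 0 → ip F (T F) ≤ θ0 * ip F F := by
  set e := Spectral_e Ω with he
  set T' : EuclideanSpace ℝ Ω →ₗ[ℝ] EuclideanSpace ℝ Ω :=
    e.symm.toLinearMap ∘ₗ (-T) ∘ₗ e.toLinearMap with hT'
  have hT'app : ∀ x, e (T' x) = -T (e x) := by
    intro x
    simp [hT']
  have hsym : T'.IsSymmetric := by
    intro x y
    rw [Spectral_inner, Spectral_inner, ← he, hT'app, hT'app]
    have h1 := hs (e x) (e y)
    unfold ip at h1 ⊢
    simp only [Pi.neg_apply, neg_mul, mul_neg, Finset.sum_neg_distrib]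
    rw [h1]
  -- the mean zero subspace
  let S : Submodule ℝ (EuclideanSpace ℝ Ω) :=
    { carrier := {x | ∑ i, e x i = 0}
      add_mem' := by
        intro a b ha hb
        simp only [Set.mem_setOf_eq, map_add, Pi.add_apply, Finset.sum_add_distrib] at *
        rw [ha, hb, add_zero]
      zero_mem' := by simp
      smul_mem' := by
        intro c a ha
        simp only [Set.mem_setOf_eq, map_smul, Pi.smul_apply, smul_eq_mul,
          ← Finset.mul_sum] at *
        rw [ha, mul_zero] }
  have hS : ∀ v ∈ S, T' v ∈ S := by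
    intro v hv
    show ∑ i, e (T' v) i = 0
    rw [hT'app]
    simp only [Pi.neg_apply, Finset.sum_neg_distrib]
    rw [h0 (e v) hv, neg_zero]
  have key := Vale.Agent.P162.inner_ge_of_eigen T' hsym S hS (-θ0) (by
    intro v hv hv0 μ hμ
    by_contra hlt
    push Not at hlt
    have h1 : T (e v) = (-μ) • e v := by
      have h2 := congrArg e hμ
      rw [hT'app, map_smul] at h2
      rw [neg_smul, ← h2, neg_neg]
    have h3 := h (-μ) (by linarith) (e v) hv h1
    apply hv0
    exact e.injective (by rw [h3, map_zero]))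
  intro F hF
  have h1 := key (e.symm F) (by
    show ∑ i, e (e.symm F) i = 0
    rw [LinearEquiv.apply_symm_apply]
    exact hF)
  rw [← real_inner_self_eq_norm_sq, Spectral_inner, Spectral_inner, ← he, hT'app,
    LinearEquiv.apply_symm_apply] at h1
  have h2 : ip F (-T F) = - ip F (T F) := by
    unfold ip
    simp [Finset.sum_neg_distrib]
  rw [h2] at h1
  linarith

end

end VP335
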