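import Vale.Agent.P335.Avg

/-! P335: transfer of averages to a parametrised fibre -/

namespace VP335

open Finset

noncomputable section

open Classical

variable {Ω Ω' β γ γ' : Type*} [Fintype Ω] [Fintype Ω']

theorem fib_eq_map {K : Ω → β} {x0 : Ω} {e : Ω' → Ω} (he : Function.Injective e)
    (him : ∀ y, K y = K x0 ↔ ∃ z, e z = y) : fib K x0 = univ.map ⟨e, he⟩ := by
  ext y
  rw [mem_fib, him y]
  simp

theorem sum_fib_eq {K : Ω → β} {x0 : Ω} {e : Ω' → Ω} (he : Function.Injective e)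
    (him : ∀ y, K y = K x0 ↔ ∃ z, e z = y) (g : Ω → ℝ) :
    ∑ y ∈ fib K x0, g y = ∑ z, g (e z) := by
  rw [fib_eq_map he him, sum_map]
  rfl

theorem avg_eq_mean {K : Ω → β} {x0 : Ω} {e : Ω' → Ω} (he : Function.Injective e)
    (him : ∀ y, K y = K x0 ↔ ∃ z, e z = y) (F : Ω → ℝ) (z : Ω') :
    avg K F (e z) = mean (fun z => F (e z)) := by
  have h1 : K (e z) = K x0 := (him _).mpr ⟨z, rfl⟩
  rw [avg_const F h1]
  unfold avg mean
  rw [sum_fib_eq he him, fib_eq_map he him, card_map, card_univ]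

theorem avg_transfer {K : Ω → β} {x0 : Ω} {e : Ω' → Ω} (he : Function.Injective e)
    (him : ∀ y, K y = K x0 ↔ ∃ z, e z = y) {k : Ω → γ} {k' : Ω' → γ'}
    (h : ∀ x y, k x = k y → K x = K y) (hk : ∀ z z', k' z = k' z' ↔ k (e z) = k (e z'))
    (F : Ω → ℝ) (z : Ω') : avg k F (e z) = avg k' (fun z => F (e z)) z := by
  have h1 : fib k (e z) = (fib k' z).map ⟨e, he⟩ := by
    ext y
    rw [mem_fib, mem_map]
    constructor
    · intro hy
      have h2 : K y = K x0 := (h _ _ hy).trans ((him _).mpr ⟨z, rfl⟩)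
      obtain ⟨z', rfl⟩ := (him y).mp h2
      exact ⟨z', mem_fib.mpr ((hk _ _).mpr hy), rfl⟩
    · rintro ⟨z', hz', rfl⟩
      exact (hk _ _).mp (mem_fib.mp hz')
  unfold avg
  rw [h1, sum_map, card_map]
  rfl

/-- to compare two sums over `Ω` it is enough to compare them on every fibre of `K` -/
theorem sum_le_of_fib (K : Ω → β) (g g' : Ω → ℝ)
    (h : ∀ x, ∑ y ∈ fib K x, g y ≤ ∑ y ∈ fib K x, g' y) : ∑ x, g x ≤ ∑ x, g' x := by
  rw [← sum_avg K g, ← sum_avg K g']
  refine sum_le_sum (fun x _ => ?_)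
  unfold avg
  exact div_le_div_of_nonneg_right (h x) (Nat.cast_nonneg _)

end

end VP335
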