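import Vale.Agent.P335.ThreeRow
import Vale.Agent.P335.Transfer

/-! P335: the three-row inequality inside a table with any number of rows -/

namespace VP335

open Finset

noncomputable section

open Classical

variable {κ ι : Type*} [Fintype κ] [Fintype ι]

/-- three rows -/
def trho (u v w : κ) : Fin 3 → κ := ![u, v, w]

/-- column sums of `X` over the rows `u, v, w` -/
def tcol {r : κ → ℕ} {c : ι → ℕ} (u v w : κ) (X : Tab r c) (j : ι) : ℕ :=
  (univ.filter (fun m : Fin 3 => j ∈ X.1 (trho u v w m))).card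

theorem trho_inj {u v w : κ} (huv : u ≠ v) (huw : u ≠ w) (hvw : v ≠ w) :
    Function.Injective (trho u v w) := by
  intro a b h
  fin_cases a <;> fin_cases b <;> simp_all [trho]

theorem mem_triple {u v w k : κ} : k ∈ ({u, v, w} : Finset κ) ↔ ∃ m, trho u v w m = k := by
  simp only [mem_insert, mem_singleton, trho]
  constructor
  · rintro (rfl | rfl | rfl)
    · exact ⟨0, rfl⟩
    · exact ⟨1, rfl⟩
    · exact ⟨2, rfl⟩
  · rintro ⟨m, hm⟩
    fin_cases m <;> simp at hm <;> simp [hm]

/-- splitting a column count into the three rows and the rest -/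
theorem col_split {u v w : κ} (huv : u ≠ v) (huw : u ≠ w) (hvw : v ≠ w)
    (Y : κ → Finset ι) (j : ι) :
    (univ.filter (fun k => j ∈ Y k)).card =
      (univ.filter (fun m : Fin 3 => j ∈ Y (trho u v w m))).card +
        (univ.filter (fun k => k ∉ ({u, v, w} : Finset κ) ∧ j ∈ Y k)).card := by
  have h1 : (univ.filter (fun m : Fin 3 => j ∈ Y (trho u v w m))).card =
      (univ.filter (fun k => k ∈ ({u, v, w} : Finset κ) ∧ j ∈ Y k)).card := by
    rw [← card_map ⟨trho u v w, trho_inj huv huw hvw⟩]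
    refine congrArg card ?_
    ext k
    simp only [mem_map, mem_filter, mem_univ, true_and, Function.Embedding.coeFn_mk, mem_triple]
    constructor
    · rintro ⟨m, hm, rfl⟩
      exact ⟨⟨m, rfl⟩, hm⟩
    · rintro ⟨⟨m, rfl⟩, hm⟩
      exact ⟨m, hm, rfl⟩
  rw [h1, ← card_union_of_disjoint]
  · refine congrArg card ?_
    ext k
    simp only [mem_filter, mem_univ, true_and, mem_union]
    tauto
  · rw [disjoint_filter]
    intro k _ h2 h3
    exact h3.1 h2.1

theorem key_eq_iff {r : κ → ℕ} {c : ι → ℕ} (a : Finset κ) (X Y : Tab r c) :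
    key a X = key a Y ↔ ∀ k, k ∉ a → X.1 k = Y.1 k := by
  constructor
  · intro h k hk
    have := congrFun h k
    simpa [key, hk] using this
  · intro h
    funext k
    by_cases hk : k ∈ a
    · simp [key, hk]
    · simp [key, hk, h k hk]

/-- glue a three-row table into `X0` -/
def tglue {r : κ → ℕ} {c : ι → ℕ} (u v w : κ) (X0 : Tab r c)
    (Z : Tab (fun m => r (trho u v w m)) (tcol u v w X0)) : κ → Finset ι :=
  fun k => if k = u then Z.1 0 else if k = v then Z.1 1 else if k = w then Z.1 2 else X0.1 k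

theorem tglue_rho {r : κ → ℕ} {c : ι → ℕ} {u v w : κ} (huv : u ≠ v) (huw : u ≠ w) (hvw : v ≠ w)
    (X0 : Tab r c) (Z : Tab (fun m => r (trho u v w m)) (tcol u v w X0)) (m : Fin 3) :
    tglue u v w X0 Z (trho u v w m) = Z.1 m := by
  fin_cases m
  · simp [tglue, trho]
  · simp [tglue, trho, huv.symm]
  · simp [tglue, trho, huw.symm, hvw.symm]

theorem tglue_out {r : κ → ℕ} {c : ι → ℕ} {u v w : κ}
    (X0 : Tab r c) (Z : Tab (fun m => r (trho u v w m)) (tcol u v w X0)) (k : κ)
    (hk : k ∉ ({u, v, w} : Finset κ)) : tglue u v w X0 Z k = X0.1 k := by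
  simp only [mem_insert, mem_singleton, not_or] at hk
  simp [tglue, hk.1, hk.2.1, hk.2.2]

/-- the glued table -/
def tg {r : κ → ℕ} {c : ι → ℕ} {u v w : κ} (huv : u ≠ v) (huw : u ≠ w) (hvw : v ≠ w)
    (X0 : Tab r c) (Z : Tab (fun m => r (trho u v w m)) (tcol u v w X0)) : Tab r c :=
  ⟨tglue u v w X0 Z, by
    constructor
    · intro k
      by_cases hk : k ∈ ({u, v, w} : Finset κ)
      · obtain ⟨m, rfl⟩ := mem_triple.mp hk
        rw [tglue_rho huv huw hvw]
        exact Z.2.1 m
      · rw [tglue_out X0 Z k hk]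
        exact X0.2.1 k
    · intro j
      rw [← X0.2.2 j, col_split huv huw hvw, col_split huv huw hvw (Y := X0.1)]
      refine congrArg₂ (· + ·) ?_ ?_
      · simp only [tglue_rho huv huw hvw]
        exact Z.2.2 j
      · refine congrArg card (filter_congr (fun k _ => ?_))
        constructor
        · rintro ⟨h1, h2⟩
          exact ⟨h1, by rwa [tglue_out X0 Z k h1] at h2⟩
        · rintro ⟨h1, h2⟩
          exact ⟨h1, by rwa [tglue_out X0 Z k h1]⟩⟩

theorem tg_inj {r : κ → ℕ} {c : ι → ℕ} {u v w : κ} (huv : u ≠ v) (huw : u ≠ w) (hvw : v ≠ w)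
    (X0 : Tab r c) : Function.Injective (tg huv huw hvw X0) := by
  intro Z Z' h
  apply Subtype.ext
  funext m
  have h1 := congrFun (congrArg Subtype.val h) (trho u v w m)
  simpa only [tg, tglue_rho huv huw hvw] using h1

theorem tg_im {r : κ → ℕ} {c : ι → ℕ} {u v w : κ} (huv : u ≠ v) (huw : u ≠ w) (hvw : v ≠ w)
    (X0 : Tab r c) (Y : Tab r c) :
    key ({u, v, w} : Finset κ) Y = key ({u, v, w} : Finset κ) X0 ↔
      ∃ Z, tg huv huw hvw X0 Z = Y := by
  rw [key_eq_iff]
  constructor
  · intro h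
    refine ⟨⟨fun m => Y.1 (trho u v w m), fun m => Y.2.1 _, fun j => ?_⟩, ?_⟩
    · have h1 := Y.2.2 j
      have h2 := X0.2.2 j
      rw [col_split huv huw hvw] at h1 h2
      have h3 : (univ.filter (fun k => k ∉ ({u, v, w} : Finset κ) ∧ j ∈ Y.1 k)).card =
          (univ.filter (fun k => k ∉ ({u, v, w} : Finset κ) ∧ j ∈ X0.1 k)).card := by
        refine congrArg card (filter_congr (fun k _ => ?_))
        constructor
        · rintro ⟨h1, h2⟩
          exact ⟨h1, by rwa [h k h1] at h2⟩
        · rintro ⟨h1, h2⟩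
          exact ⟨h1, by rwa [h k h1]⟩
      unfold tcol
      rw [h3] at h1
      have h4 : (univ.filter (fun m : Fin 3 => j ∈ Y.1 (trho u v w m))).card =
          (univ.filter (fun m : Fin 3 => j ∈ X0.1 (trho u v w m))).card := by omega
      exact h4
    · apply Subtype.ext
      funext k
      by_cases hk : k ∈ ({u, v, w} : Finset κ)
      · obtain ⟨m, rfl⟩ := mem_triple.mp hk
        exact tglue_rho huv huw hvw X0 _ m
      · exact (tglue_out X0 _ k hk).trans (h k hk).symm
  · rintro ⟨Z, rfl⟩ k hk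
    simp only [tg]
    exact tglue_out X0 Z k hk

theorem tg_key {r : κ → ℕ} {c : ι → ℕ} {u v w : κ} (huv : u ≠ v) (huw : u ≠ w) (hvw : v ≠ w)
    (X0 : Tab r c) (a : Finset κ) (m : Fin 3)
    (ha : ∀ k, k ∈ a ↔ (k ∈ ({u, v, w} : Finset κ) ∧ k ≠ trho u v w m))
    (Z Z' : Tab (fun m => r (trho u v w m)) (tcol u v w X0)) :
    Z.1 m = Z'.1 m ↔ key a (tg huv huw hvw X0 Z) = key a (tg huv huw hvw X0 Z') := by
  rw [key_eq_iff]
  simp only [tg]
  constructor
  · intro h k hk
    rw [ha, not_and_or, not_not] at hk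
    rcases hk with hk | rfl
    · rw [tglue_out X0 Z k hk, tglue_out X0 Z' k hk]
    · rw [tglue_rho huv huw hvw, tglue_rho huv huw hvw, h]
  · intro h
    have := h (trho u v w m) (by rw [ha]; simp)
    rwa [tglue_rho huv huw hvw, tglue_rho huv huw hvw] at this

theorem triple_ineq {r : κ → ℕ} {c : ι → ℕ} (u v w : κ) (huv : u ≠ v) (huw : u ≠ w) (hvw : v ≠ w)
    (F : Tab r c → ℝ) :
    ∑ X, (F X - E {u, v, w} F X) ^ 2 ≤
      ∑ X, (F X - E {u, v} F X) ^ 2 + ∑ X, (F X - E {u, w} F X) ^ 2 +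
        ∑ X, (F X - E {v, w} F X) ^ 2 := by
  rw [← sum_add_distrib, ← sum_add_distrib]
  refine sum_le_of_fib (key ({u, v, w} : Finset κ)) _ _ (fun X0 => ?_)
  have he := tg_inj huv huw hvw X0
  have him := tg_im huv huw hvw X0
  rw [sum_fib_eq he him, sum_fib_eq he him]
  set F' : Tab (fun m => r (trho u v w m)) (tcol u v w X0) → ℝ :=
    fun Z => F (tg huv huw hvw X0 Z) with hF'
  have hfine : ∀ a : Finset κ, (∀ k ∈ a, k ∈ ({u, v, w} : Finset κ)) → ∀ X Y : Tab r c,
      key a X = key a Y → key ({u, v, w} : Finset κ) X = key ({u, v, w} : Finset κ) Y := by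
    intro a ha X Y h
    rw [key_eq_iff] at h ⊢
    exact fun k hk => h k (fun h' => hk (ha k h'))
  have e0 : ∀ Z, E ({u, v, w} : Finset κ) F (tg huv huw hvw X0 Z) = mean F' := by
    intro Z
    exact avg_eq_mean he him F Z
  have e1 : ∀ Z, E ({u, v} : Finset κ) F (tg huv huw hvw X0 Z) =
      avg (fun Z : Tab (fun m => r (trho u v w m)) (tcol u v w X0) => Z.1 2) F' Z := by
    intro Z
    refine avg_transfer he him (hfine _ (by intro k hk; simp at hk ⊢; tauto)) ?_ F Z
    refine tg_key huv huw hvw X0 _ 2 (fun k => ?_)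
    simp only [mem_insert, mem_singleton, trho]
    constructor
    · rintro (rfl | rfl)
      · exact ⟨Or.inl rfl, huw⟩
      · exact ⟨Or.inr (Or.inl rfl), hvw⟩
    · rintro ⟨h1 | h1 | h1, h2⟩
      · exact Or.inl h1
      · exact Or.inr h1
      · exact absurd h1 h2
  have e2 : ∀ Z, E ({u, w} : Finset κ) F (tg huv huw hvw X0 Z) =
      avg (fun Z : Tab (fun m => r (trho u v w m)) (tcol u v w X0) => Z.1 1) F' Z := by
    intro Z
    refine avg_transfer he him (hfine _ (by intro k hk; simp at hk ⊢; tauto)) ?_ F Z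
    refine tg_key huv huw hvw X0 _ 1 (fun k => ?_)
    simp only [mem_insert, mem_singleton, trho]
    constructor
    · rintro (rfl | rfl)
      · exact ⟨Or.inl rfl, huv⟩
      · exact ⟨Or.inr (Or.inr rfl), hvw.symm⟩
    · rintro ⟨h1 | h1 | h1, h2⟩
      · exact Or.inl h1
      · exact absurd h1 h2
      · exact Or.inr h1
  have e3 : ∀ Z, E ({v, w} : Finset κ) F (tg huv huw hvw X0 Z) =
      avg (fun Z : Tab (fun m => r (trho u v w m)) (tcol u v w X0) => Z.1 0) F' Z := by
    intro Z
    refine avg_transfer he him (hfine _ (by intro k hk; simp at hk ⊢; tauto)) ?_ F Z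
    refine tg_key huv huw hvw X0 _ 0 (fun k => ?_)
    simp only [mem_insert, mem_singleton, trho]
    constructor
    · rintro (rfl | rfl)
      · exact ⟨Or.inr (Or.inl rfl), huv.symm⟩
      · exact ⟨Or.inr (Or.inr rfl), huw.symm⟩
    · rintro ⟨h1 | h1 | h1, h2⟩
      · exact absurd h1 h2
      · exact Or.inl h1
      · exact Or.inr h1
  simp only [e0, e1, e2, e3]
  have h3 := three_row F'
  rw [Fin.sum_univ_three] at h3
  refine h3.trans (le_of_eq ?_)
  rw [← sum_add_distrib, ← sum_add_distrib]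
  exact sum_congr rfl (fun Z _ => by ring)

end

end VP335
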