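import Vale.Agent.P335.Hyp1

/-! P335: the hypergeometric averages are Lipschitz -/

namespace VP335

open Finset

noncomputable section

open Classical

theorem hyp2_piece (n m q : ℕ) (u g : ℕ → ℝ) (K Λ : ℝ)
    (h : ∀ a, a ≤ q → a ≤ n → q - a ≤ m → |u a - K * g a| ≤ K * Λ) :
    |hS n m q u - K * hS n m q g| ≤ K * Λ * ((n + m).choose q : ℝ) := by
  have e1 : hS n m q u - K * hS n m q g =
      ∑ a ∈ range (q + 1), (n.choose a : ℝ) * (m.choose (q - a) : ℝ) * (u a - K * g a) := by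
    unfold hS
    rw [Finset.mul_sum, ← Finset.sum_sub_distrib]
    refine Finset.sum_congr rfl fun a _ => ?_
    ring
  have e2 : K * Λ * ((n + m).choose q : ℝ) =
      ∑ a ∈ range (q + 1), (n.choose a : ℝ) * (m.choose (q - a) : ℝ) * (K * Λ) := by
    rw [← hS_one n m q]
    unfold hS
    rw [Finset.mul_sum]
    refine Finset.sum_congr rfl fun a _ => ?_
    ring
  rw [e1, e2]
  refine (Finset.abs_sum_le_sum_abs _ _).trans (Finset.sum_le_sum fun a ha => ?_)
  have haq : a ≤ q := Nat.lt_succ_iff.mp (Finset.mem_range.mp ha)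
  by_cases h1 : a ≤ n
  · by_cases h2 : q - a ≤ m
    · rw [abs_mul]
      have hpos : (0 : ℝ) ≤ (n.choose a : ℝ) * (m.choose (q - a) : ℝ) := by positivity
      rw [abs_of_nonneg hpos]
      exact mul_le_mul_of_nonneg_left (h a haq h1 h2) hpos
    · have : m.choose (q - a) = 0 := Nat.choose_eq_zero_of_lt (by omega)
      simp [this]
  · have : n.choose a = 0 := Nat.choose_eq_zero_of_lt (by omega)
    simp [this]

/-- combination of two values close to `g` -/
theorem hyp2_comb (x y g α β Λ : ℝ) (hα : 0 ≤ α) (hβ : 0 ≤ β) (hx : |x - g| ≤ Λ)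
    (hy : |y - g| ≤ Λ) : |(α * x + β * y) - (α + β) * g| ≤ (α + β) * Λ := by
  have e : (α * x + β * y) - (α + β) * g = α * (x - g) + β * (y - g) := by ring
  rw [e]
  refine (abs_add_le _ _).trans ?_
  rw [abs_mul, abs_mul, abs_of_nonneg hα, abs_of_nonneg hβ, add_mul]
  exact add_le_add (mul_le_mul_of_nonneg_left hx hα) (mul_le_mul_of_nonneg_left hy hβ)

theorem hyp2_scale (c P W T C Λ K : ℝ) (hc : 0 < c) (hC : 0 < C)
    (hW : c * W = K * C) (h : |c * P - K * T| ≤ K * Λ * C) : |P - W * (T / C)| ≤ Λ * W := by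
  have hW' : W = K * C / c := by field_simp; linarith
  have e : c * (P - W * (T / C)) = c * P - K * T := by
    rw [hW']; field_simp
  have e2 : c * (Λ * W) = K * Λ * C := by
    rw [hW']; field_simp
  have h3 : |c * (P - W * (T / C))| ≤ c * (Λ * W) := by rw [e, e2]; exact h
  rw [abs_mul, abs_of_pos hc] at h3
  exact le_of_mul_le_mul_left h3 hc

theorem hyp2_binsplit (n m q : ℕ) :
    ((n + 1 + (m + 1)).choose (q + 1) : ℝ) =
      ((n + m).choose (q + 1) : ℝ) + (((n + m).choose q : ℝ) + ((n + m).choose q : ℝ)) +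
        (if q = 0 then 0 else ((n + m).choose (q - 1) : ℝ)) := by
  have := hS_split n m q (fun _ => 1)
  simpa [hS_one] using this

theorem hyp2_core (n m q : ℕ) (hq : q ≤ n + m) (Λ : ℝ) (φ ψ : ℕ → ℝ)
    (hφ : ∀ x, |φ (x + 1) - φ x| ≤ Λ) (hψ : ∀ x, |ψ (x + 1) - ψ x| ≤ Λ) :
    |hyp (n + 1) (m + 1) (q + 1) (fun a => φ a + ψ (n + 1 - a)) -
      hyp n m q (fun a => φ a + ψ (n - a))| ≤ Λ := by
  set f : ℕ → ℝ := fun a => φ a + ψ (n + 1 - a) with hf
  set g : ℕ → ℝ := fun a => φ a + ψ (n - a) with hg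
  have hC : (0 : ℝ) < ((n + m).choose q : ℝ) := by exact_mod_cast Nat.choose_pos hq
  have hT : (0 : ℝ) < ((n + 1 + (m + 1)).choose (q + 1) : ℝ) := by
    exact_mod_cast Nat.choose_pos (by omega)
  have hΛ : 0 ≤ Λ := (abs_nonneg _).trans (hφ 0)
  have d1 : ∀ a, |f (a + 1) - g a| ≤ Λ := by
    intro a
    have : f (a + 1) - g a = φ (a + 1) - φ a := by
      simp only [hf, hg]
      rw [Nat.add_sub_add_right]; ring
    rw [this]; exact hφ a
  have d2 : ∀ a, a ≤ n → |f a - g a| ≤ Λ := by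
    intro a ha
    have : f a - g a = ψ (n - a + 1) - ψ (n - a) := by
      simp only [hf, hg]
      rw [show n + 1 - a = n - a + 1 by omega]; ring
    rw [this]; exact hψ _
  set T := hS n m q g with hTdef
  set C : ℝ := ((n + m).choose q : ℝ) with hCdef
  have p2 : |hS n m q (fun a => f (a + 1)) - C * (T / C)| ≤ Λ * C := by
    refine hyp2_scale 1 _ C T C Λ 1 one_pos hC (by ring) ?_
    have := hyp2_piece n m q (fun a => f (a + 1)) g 1 Λ (fun a _ _ _ => by
      simpa using d1 a)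
    simpa using this
  have p3 : |hS n m q f - C * (T / C)| ≤ Λ * C := by
    refine hyp2_scale 1 _ C T C Λ 1 one_pos hC (by ring) ?_
    have := hyp2_piece n m q f g 1 Λ (fun a _ h _ => by
      simpa using d2 a h)
    simpa using this
  have p1 : |hS n m (q + 1) f - ((n + m).choose (q + 1) : ℝ) * (T / C)| ≤
      Λ * ((n + m).choose (q + 1) : ℝ) := by
    refine hyp2_scale ((q : ℝ) + 1) _ _ T C Λ ((n : ℝ) + m - q) (by positivity) hC ?_ ?_
    · have := hS_up n m q (fun _ => 1)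
      rw [hS_one] at this
      rw [this]
      have e : (fun a : ℕ => ((n : ℝ) - a) * (1 : ℝ) + ((m : ℝ) - ((q : ℝ) - a)) * 1) =
          fun _ => ((n : ℝ) + m - q) := by
        funext a; ring
      rw [e]
      have e2 : hS n m q (fun _ => ((n : ℝ) + m - q)) = ((n : ℝ) + m - q) * hS n m q (fun _ => 1) := by
        unfold hS
        rw [Finset.mul_sum]
        refine Finset.sum_congr rfl fun a _ => ?_
        ring
      rw [e2, hS_one]
    · rw [hS_up n m q f]
      refine hyp2_piece n m q _ g _ Λ fun a ha h1 h2 => ?_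
      have hα : (0 : ℝ) ≤ (n : ℝ) - a := by
        have : (a : ℝ) ≤ n := by exact_mod_cast h1
        linarith
      have hβ : (0 : ℝ) ≤ (m : ℝ) - ((q : ℝ) - a) := by
        have h3 : q ≤ m + a := by omega
        have : (q : ℝ) ≤ m + a := by exact_mod_cast h3
        linarith
      have := hyp2_comb (f (a + 1)) (f a) (g a) _ _ Λ hα hβ (d1 a) (d2 a h1)
      have e : (n : ℝ) - a + ((m : ℝ) - ((q : ℝ) - a)) = (n : ℝ) + m - q := by ring
      rw [e] at this
      exact this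
  have p4 : |(if q = 0 then 0 else hS n m (q - 1) (fun a => f (a + 1))) -
      (if q = 0 then 0 else ((n + m).choose (q - 1) : ℝ)) * (T / C)| ≤
      Λ * (if q = 0 then 0 else ((n + m).choose (q - 1) : ℝ)) := by
    rcases Nat.eq_zero_or_pos q with h0 | h0
    · simp [h0]
    · obtain ⟨r, rfl⟩ : ∃ r, q = r + 1 := ⟨q - 1, by omega⟩
      simp only [Nat.add_eq_zero_iff, one_ne_zero, and_false, if_false, Nat.add_sub_cancel]
      have hr : (0 : ℝ) < (n : ℝ) + m - r := by
        have : (r : ℝ) + 1 ≤ n + m := by exact_mod_cast hq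
        linarith
      refine hyp2_scale ((n : ℝ) + m - r) _ _ T C Λ ((r : ℝ) + 1) hr hC ?_ ?_
      · have := hS_down n m r (fun _ => 1)
        rw [hS_one] at this
        rw [this]
        have e2 : hS n m (r + 1) (fun a => (a : ℝ) * 1 + ((r : ℝ) + 1 - a) * 1) =
            ((r : ℝ) + 1) * hS n m (r + 1) (fun _ => 1) := by
          unfold hS
          rw [Finset.mul_sum]
          refine Finset.sum_congr rfl fun a _ => ?_
          ring
        rw [e2, hS_one]
      · rw [hS_down n m r (fun a => f (a + 1))]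
        refine hyp2_piece n m (r + 1) _ g _ Λ fun a ha h1 h2 => ?_
        have hα : (0 : ℝ) ≤ (a : ℝ) := Nat.cast_nonneg a
        have hβ : (0 : ℝ) ≤ (r : ℝ) + 1 - a := by
          have : (a : ℝ) ≤ r + 1 := by exact_mod_cast ha
          linarith
        have := hyp2_comb (f a) (f (a + 1)) (g a) _ _ Λ hα hβ (d2 a h1) (d1 a)
        have e : (a : ℝ) + ((r : ℝ) + 1 - a) = (r : ℝ) + 1 := by ring
        rw [e] at this
        have e3 : (a : ℝ) * f (a - 1 + 1) = (a : ℝ) * f a := by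
          rcases Nat.eq_zero_or_pos a with h | h
          · simp [h]
          · rw [Nat.sub_add_cancel h]
        simp only [e3]
        exact this
  have hsum : |hS (n + 1) (m + 1) (q + 1) f -
      ((n + 1 + (m + 1)).choose (q + 1) : ℝ) * (T / C)| ≤
      Λ * ((n + 1 + (m + 1)).choose (q + 1) : ℝ) := by
    rw [hS_split, hyp2_binsplit]
    set X1 := hS n m (q + 1) f
    set X2 := hS n m q (fun a => f (a + 1))
    set X3 := hS n m q f
    set X4 := (if q = 0 then 0 else hS n m (q - 1) (fun a => f (a + 1)))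
    set W4 : ℝ := (if q = 0 then 0 else ((n + m).choose (q - 1) : ℝ))
    set W1 : ℝ := ((n + m).choose (q + 1) : ℝ)
    rw [abs_le] at p1 p2 p3 p4 ⊢
    constructor <;> nlinarith [p1.1, p1.2, p2.1, p2.2, p3.1, p3.2, p4.1, p4.2]
  have e1 : hyp (n + 1) (m + 1) (q + 1) f =
      hS (n + 1) (m + 1) (q + 1) f / ((n + 1 + (m + 1)).choose (q + 1) : ℝ) := rfl
  have e2 : hyp n m q g = T / C := rfl
  rw [e1, e2]
  set D : ℝ := ((n + 1 + (m + 1)).choose (q + 1) : ℝ)
  have e3 : hS (n + 1) (m + 1) (q + 1) f / D - T / C =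
      (hS (n + 1) (m + 1) (q + 1) f - D * (T / C)) / D := by
    field_simp
  rw [e3, abs_div, abs_of_pos hT, div_le_iff₀ hT]
  exact hsum

theorem hyp_step (N M p : ℕ) (hN : 1 ≤ N) (hM : 1 ≤ M) (hp : 1 ≤ p) (hlt : p < N + M)
    (Λ : ℝ) (φ ψ : ℕ → ℝ) (hφ : ∀ x, |φ (x + 1) - φ x| ≤ Λ) (hψ : ∀ x, |ψ (x + 1) - ψ x| ≤ Λ) :
    |hyp N M p (fun a => φ a + ψ (N - a)) -
      hyp (N - 1) (M - 1) (p - 1) (fun a => φ a + ψ (N - 1 - a))| ≤ Λ := by
  obtain ⟨n, rfl⟩ : ∃ n, N = n + 1 := ⟨N - 1, by omega⟩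
  obtain ⟨m, rfl⟩ : ∃ m, M = m + 1 := ⟨M - 1, by omega⟩
  obtain ⟨q, rfl⟩ : ∃ q, p = q + 1 := ⟨p - 1, by omega⟩
  simp only [Nat.add_sub_cancel]
  exact hyp2_core n m q (by omega) Λ φ ψ hφ hψ

theorem hyp_tele (N M p s : ℕ) (hN : s ≤ N) (hM : s ≤ M) (hp : s ≤ p) (hlt : p + s ≤ N + M)
    (Λ : ℝ) (φ ψ : ℕ → ℝ) (hφ : ∀ x, |φ (x + 1) - φ x| ≤ Λ) (hψ : ∀ x, |ψ (x + 1) - ψ x| ≤ Λ) :
    |hyp N M p (fun a => φ a + ψ (N - a)) -
      hyp (N - s) (M - s) (p - s) (fun a => φ a + ψ (N - s - a))| ≤ s * Λ := by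
  induction s with
  | zero => simp
  | succ s ih =>
    have h1 := ih (by omega) (by omega) (by omega) (by omega)
    have h2 := hyp_step (N - s) (M - s) (p - s) (by omega) (by omega) (by omega) (by omega)
      Λ φ ψ hφ hψ
    simp only [Nat.sub_sub] at h1 h2 ⊢
    have h3 := abs_sub_le (hyp N M p (fun a => φ a + ψ (N - a)))
      (hyp (N - s) (M - s) (p - s) (fun a => φ a + ψ (N - (s + a))))
      (hyp (N - (s + 1)) (M - (s + 1)) (p - (s + 1)) (fun a => φ a + ψ (N - (s + 1 + a))))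
    refine h3.trans ?_
    have h4 : |hyp (N - s) (M - s) (p - s) (fun a => φ a + ψ (N - (s + a))) -
        hyp (N - (s + 1)) (M - (s + 1)) (p - (s + 1)) (fun a => φ a + ψ (N - (s + 1 + a)))| ≤ Λ := by
      simpa [add_assoc] using h2
    push_cast
    linarith

end

end VP335
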