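import Vale.Agent.P335.Base

/-! P335: identities for hypergeometric sums -/

namespace VP335

open Finset

noncomputable section

open Classical

/-- the unnormalised sum -/
def hS (N M p : ℕ) (f : ℕ → ℝ) : ℝ :=
  ∑ a ∈ range (p + 1), (N.choose a : ℝ) * (M.choose (p - a) : ℝ) * f a

theorem hS_one (N M p : ℕ) : hS N M p (fun _ => 1) = ((N + M).choose p : ℝ) := by
  unfold hS
  rw [Nat.add_choose_eq N M p,
    Finset.Nat.sum_antidiagonal_eq_sum_range_succ (fun i j => N.choose i * M.choose j) p]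
  push_cast
  refine Finset.sum_congr rfl fun a _ => ?_
  ring

theorem hyp1_splitN (N M p : ℕ) (f : ℕ → ℝ) :
    hS (N + 1) M (p + 1) f = hS N M (p + 1) f + hS N M p (fun a => f (a + 1)) := by
  unfold hS
  rw [Finset.sum_range_succ' _ (p + 1), Finset.sum_range_succ' _ (p + 1)]
  have : ∀ a ∈ range (p + 1), ((N + 1).choose (a + 1) : ℝ) * (M.choose (p + 1 - (a + 1)) : ℝ) * f (a + 1) =
      (N.choose (a + 1) : ℝ) * (M.choose (p + 1 - (a + 1)) : ℝ) * f (a + 1) +
      (N.choose a : ℝ) * (M.choose (p - a) : ℝ) * f (a + 1) := by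
    intro a _
    rw [Nat.choose_succ_succ, Nat.add_sub_add_right]
    push_cast
    ring
  rw [Finset.sum_congr rfl this, Finset.sum_add_distrib]
  simp only [Nat.choose_zero_right]
  ring

theorem hyp1_splitM (N M p : ℕ) (f : ℕ → ℝ) :
    hS N (M + 1) (p + 1) f = hS N M (p + 1) f + hS N M p f := by
  unfold hS
  rw [Finset.sum_range_succ _ (p + 1), Finset.sum_range_succ _ (p + 1)]
  have : ∀ a ∈ range (p + 1), (N.choose a : ℝ) * ((M + 1).choose (p + 1 - a) : ℝ) * f a =
      (N.choose a : ℝ) * (M.choose (p + 1 - a) : ℝ) * f a +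
      (N.choose a : ℝ) * (M.choose (p - a) : ℝ) * f a := by
    intro a ha
    have h : a ≤ p := Nat.lt_succ_iff.mp (Finset.mem_range.mp ha)
    rw [show p + 1 - a = (p - a) + 1 by omega, Nat.choose_succ_succ]
    push_cast
    ring
  rw [Finset.sum_congr rfl this, Finset.sum_add_distrib]
  simp only [Nat.sub_self, Nat.choose_zero_right]
  ring

/-- split according to which of a distinguished type-1 and a distinguished type-2 element are chosen -/
theorem hS_split (N M p : ℕ) (f : ℕ → ℝ) :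
    hS (N + 1) (M + 1) (p + 1) f =
      hS N M (p + 1) f + (hS N M p (fun a => f (a + 1)) + hS N M p f) +
        (if p = 0 then 0 else hS N M (p - 1) (fun a => f (a + 1))) := by
  rw [hyp1_splitN, hyp1_splitM]
  rcases p with _ | r
  · simp [hS]
    ring
  · rw [hyp1_splitM]
    simp
    ring

theorem hyp1_choose (N b : ℕ) :
    ((b : ℝ) + 1) * (N.choose (b + 1) : ℝ) = ((N : ℝ) - b) * (N.choose b : ℝ) := by
  have h := Nat.choose_succ_right_eq N b
  by_cases hb : b ≤ N
  · have h' : (N.choose (b + 1) : ℝ) * ((b : ℝ) + 1) = (N.choose b : ℝ) * ((N : ℝ) - b) := by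
      rw [← Nat.cast_sub hb]; exact_mod_cast h
    linarith
  · rw [Nat.choose_eq_zero_of_lt (by omega : N < b), Nat.choose_eq_zero_of_lt (by omega : N < b + 1)]
    simp

theorem hyp1_T1 (N M q : ℕ) (u : ℕ → ℝ) :
    ∑ a ∈ range (q + 1 + 1), (N.choose a : ℝ) * (M.choose (q + 1 - a) : ℝ) * ((a : ℝ) * u a) =
      ∑ b ∈ range (q + 1), (N.choose b : ℝ) * (M.choose (q - b) : ℝ) * (((N : ℝ) - b) * u (b + 1)) := by
  rw [Finset.sum_range_succ' _ (q + 1)]
  simp only [Nat.cast_zero, zero_mul, mul_zero, add_zero]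
  refine Finset.sum_congr rfl fun b _ => ?_
  rw [Nat.add_sub_add_right]
  have h := hyp1_choose N b
  push_cast
  calc (N.choose (b + 1) : ℝ) * (M.choose (q - b) : ℝ) * (((b : ℝ) + 1) * u (b + 1))
      = (((b : ℝ) + 1) * (N.choose (b + 1) : ℝ)) * ((M.choose (q - b) : ℝ) * u (b + 1)) := by ring
    _ = _ := by rw [h]; ring

theorem hyp1_T2 (N M q : ℕ) (u : ℕ → ℝ) :
    ∑ a ∈ range (q + 1 + 1), (N.choose a : ℝ) * (M.choose (q + 1 - a) : ℝ) *
        (((q : ℝ) + 1 - a) * u a) =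
      ∑ b ∈ range (q + 1), (N.choose b : ℝ) * (M.choose (q - b) : ℝ) *
        (((M : ℝ) - ((q : ℝ) - b)) * u b) := by
  rw [Finset.sum_range_succ _ (q + 1)]
  have : ((q : ℝ) + 1 - ((q + 1 : ℕ) : ℝ)) = 0 := by push_cast; ring
  rw [this]
  simp only [zero_mul, mul_zero, add_zero]
  refine Finset.sum_congr rfl fun b hb => ?_
  have hbq : b ≤ q := Nat.lt_succ_iff.mp (Finset.mem_range.mp hb)
  rw [show q + 1 - b = (q - b) + 1 by omega]
  have h := hyp1_choose M (q - b)
  rw [Nat.cast_sub hbq] at h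
  calc (N.choose b : ℝ) * (M.choose (q - b + 1) : ℝ) * (((q : ℝ) + 1 - b) * u b)
      = (((q : ℝ) - b + 1) * (M.choose (q - b + 1) : ℝ)) * ((N.choose b : ℝ) * u b) := by ring
    _ = _ := by rw [h]; ring

/-- add a uniformly random element -/
theorem hS_up (N M q : ℕ) (g : ℕ → ℝ) :
    ((q : ℝ) + 1) * hS N M (q + 1) g =
      hS N M q (fun a => ((N : ℝ) - a) * g (a + 1) + ((M : ℝ) - ((q : ℝ) - a)) * g a) := by
  unfold hS
  have e1 : ((q : ℝ) + 1) * ∑ a ∈ range (q + 1 + 1), (N.choose a : ℝ) * (M.choose (q + 1 - a) : ℝ) * g a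
      = ∑ a ∈ range (q + 1 + 1), (N.choose a : ℝ) * (M.choose (q + 1 - a) : ℝ) * ((a : ℝ) * g a) +
        ∑ a ∈ range (q + 1 + 1), (N.choose a : ℝ) * (M.choose (q + 1 - a) : ℝ) *
          (((q : ℝ) + 1 - a) * g a) := by
    rw [Finset.mul_sum, ← Finset.sum_add_distrib]
    refine Finset.sum_congr rfl fun a _ => ?_
    ring
  rw [e1, hyp1_T1, hyp1_T2, ← Finset.sum_add_distrib]
  refine Finset.sum_congr rfl fun a _ => ?_
  ring

/-- remove a uniformly random element -/
theorem hS_down (N M q : ℕ) (g : ℕ → ℝ) :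
    ((N : ℝ) + M - q) * hS N M q g =
      hS N M (q + 1) (fun a => (a : ℝ) * g (a - 1) + ((q : ℝ) + 1 - a) * g a) := by
  unfold hS
  have e1 : ∑ a ∈ range (q + 1 + 1), (N.choose a : ℝ) * (M.choose (q + 1 - a) : ℝ) *
        ((a : ℝ) * g (a - 1) + ((q : ℝ) + 1 - a) * g a)
      = ∑ a ∈ range (q + 1 + 1), (N.choose a : ℝ) * (M.choose (q + 1 - a) : ℝ) *
          ((a : ℝ) * g (a - 1)) +
        ∑ a ∈ range (q + 1 + 1), (N.choose a : ℝ) * (M.choose (q + 1 - a) : ℝ) *
          (((q : ℝ) + 1 - a) * g a) := by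
    rw [← Finset.sum_add_distrib]
    refine Finset.sum_congr rfl fun a _ => ?_
    ring
  rw [e1, hyp1_T1 N M q (fun a => g (a - 1)), hyp1_T2, ← Finset.sum_add_distrib, Finset.mul_sum]
  refine Finset.sum_congr rfl fun a _ => ?_
  simp only [Nat.add_sub_cancel]
  ring

end

end VP335
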