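import Vale.Agent.P335.Johnson

/-! P335: comparison of the heat bath in one pair of rows with the switches in these rows -/

namespace VP335

open Finset

noncomputable section

open Classical

variable {κ ι : Type*} [Fintype κ] [Fintype ι]

theorem PairSwitch_two {f g : κ → ℕ} {k l : κ} (hkl : k ≠ l)
    (h : ∀ k', k' ≠ k → k' ≠ l → f k' = g k') :
    ∑ x, f x = ∑ x, g x ↔ f k + f l = g k + g l := by
  have hl : l ∈ univ.erase k := mem_erase.2 ⟨hkl.symm, mem_univ _⟩
  have h1 : ∀ u : κ → ℕ, ∑ x, u x = u k + (u l + ∑ x ∈ (univ.erase k).erase l, u x) := by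
    intro u
    rw [← add_sum_erase univ u (mem_univ k), ← add_sum_erase (univ.erase k) u hl]
  have h2 : ∑ x ∈ (univ.erase k).erase l, f x = ∑ x ∈ (univ.erase k).erase l, g x := by
    refine sum_congr rfl fun x hx => ?_
    have h3 := mem_erase.1 hx
    exact h x (mem_erase.1 h3.2).1 h3.1
  rw [h1 f, h1 g, h2]
  omega

theorem PairSwitch_key {r : κ → ℕ} {c : ι → ℕ} (k l : κ) (X Y : Tab r c) :
    key {k, l} Y = key {k, l} X ↔ ∀ k', k' ≠ k → k' ≠ l → Y.1 k' = X.1 k' := by
  constructor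
  · intro h k' h1 h2
    have h3 := congrFun h k'
    have hk : k' ∉ ({k, l} : Finset κ) := by
      simp only [mem_insert, mem_singleton, not_or]
      exact ⟨h1, h2⟩
    unfold key at h3
    rw [if_neg hk, if_neg hk] at h3
    exact h3
  · intro h
    funext k'
    unfold key
    by_cases hk : k' ∈ ({k, l} : Finset κ)
    · rw [if_pos hk, if_pos hk]
    · rw [if_neg hk, if_neg hk]
      simp only [mem_insert, mem_singleton, not_or] at hk
      exact h k' hk.1 hk.2

/-- the rows of the table with `U` given to row `k` -/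
def PairSwitch_rows (k l : κ) (R : κ → Finset ι) (U : Finset ι) : κ → Finset ι := fun k' =>
  if k' = k then (R k ∩ R l) ∪ U
  else if k' = l then (R k ∩ R l) ∪ (((R k \ R l) ∪ (R l \ R k)) \ U) else R k'

theorem PairSwitch_valid {r : κ → ℕ} {c : ι → ℕ} {k l : κ} (hkl : k ≠ l) (X : Tab r c)
    {U : Finset ι}
    (hU : U ∈ powersetCard (X.1 k \ X.1 l).card ((X.1 k \ X.1 l) ∪ (X.1 l \ X.1 k))) :
    (∀ k', (PairSwitch_rows k l X.1 U k').card = r k') ∧
      ∀ j, (univ.filter (fun k' => j ∈ PairSwitch_rows k l X.1 U k')).card = c j := by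
  obtain ⟨hsub, hcard⟩ := mem_powersetCard.1 hU
  constructor
  · intro k'
    unfold PairSwitch_rows
    by_cases h1 : k' = k
    · rw [if_pos h1, h1]
      rw [card_union_of_disjoint, hcard, card_inter_add_card_sdiff, X.2.1 k]
      rw [disjoint_left]
      intro j hj hjU
      have h2 := hsub hjU
      simp only [mem_union, mem_sdiff, mem_inter] at h2 hj
      tauto
    · rw [if_neg h1]
      by_cases h2 : k' = l
      · rw [if_pos h2, h2]
        rw [card_union_of_disjoint, card_sdiff_of_subset hsub, hcard, card_union_of_disjoint]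
        · have h3 := card_inter_add_card_sdiff (X.1 l) (X.1 k)
          rw [inter_comm, X.2.1 l] at h3
          omega
        · rw [disjoint_left]
          intro j hj hj'
          simp only [mem_sdiff] at hj hj'
          tauto
        · rw [disjoint_left]
          intro j hj hj'
          simp only [mem_union, mem_sdiff, mem_inter] at hj hj'
          tauto
      · rw [if_neg h2]
        exact X.2.1 k'
  · intro j
    rw [← X.2.2 j, card_filter, card_filter, PairSwitch_two hkl]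
    · unfold PairSwitch_rows
      rw [if_pos rfl, if_neg hkl.symm, if_pos rfl]
      by_cases h1 : j ∈ X.1 k <;> by_cases h2 : j ∈ X.1 l <;> by_cases h3 : j ∈ U
      all_goals
        first
        | (have h4 := hsub h3
           simp only [mem_union, mem_sdiff, h1, h2, h3, mem_inter, not_true, not_false_iff,
             and_true, and_false, true_and, or_false, false_or, if_true, if_false, false_and,
             or_self, true_or, or_true] at h4 ⊢)
        | simp only [mem_union, mem_sdiff, h1, h2, h3, mem_inter, not_true, not_false_iff,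
             and_true, and_false, true_and, or_false, false_or, if_true, if_false, false_and,
             or_self, true_or, or_true]
    · intro k' h1 h2
      unfold PairSwitch_rows
      rw [if_neg h1, if_neg h2]

/-- the table with `U` given to row `k` -/
def PairSwitch_mk {r : κ → ℕ} {c : ι → ℕ} {k l : κ} (hkl : k ≠ l) (X : Tab r c)
    (U : Finset ι) : Tab r c :=
  if hU : U ∈ powersetCard (X.1 k \ X.1 l).card ((X.1 k \ X.1 l) ∪ (X.1 l \ X.1 k)) then
    ⟨PairSwitch_rows k l X.1 U, PairSwitch_valid hkl X hU⟩ else X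

theorem PairSwitch_mk_val {r : κ → ℕ} {c : ι → ℕ} {k l : κ} (hkl : k ≠ l) (X : Tab r c)
    {U : Finset ι}
    (hU : U ∈ powersetCard (X.1 k \ X.1 l).card ((X.1 k \ X.1 l) ∪ (X.1 l \ X.1 k))) :
    (PairSwitch_mk hkl X U).1 = PairSwitch_rows k l X.1 U := by
  have h : PairSwitch_mk hkl X U =
      (⟨PairSwitch_rows k l X.1 U, PairSwitch_valid hkl X hU⟩ : Tab r c) := dif_pos hU
  rw [h]

theorem PairSwitch_col {r : κ → ℕ} {c : ι → ℕ} {k l : κ} (hkl : k ≠ l) {X Y : Tab r c}
    (h : ∀ k', k' ≠ k → k' ≠ l → Y.1 k' = X.1 k') (j : ι) :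
    (if j ∈ Y.1 k then 1 else 0) + (if j ∈ Y.1 l then 1 else 0) =
      ((if j ∈ X.1 k then 1 else 0) + (if j ∈ X.1 l then 1 else 0) : ℕ) := by
  have h1 : (univ.filter (fun k' => j ∈ Y.1 k')).card = (univ.filter (fun k' => j ∈ X.1 k')).card :=
    (Y.2.2 j).trans (X.2.2 j).symm
  rw [card_filter, card_filter, PairSwitch_two hkl] at h1
  · exact h1
  · intro k' h2 h3
    rw [h k' h2 h3]

/-- the fibre is parametrised by the `p`-subsets of `O` -/
theorem PairSwitch_sum {r : κ → ℕ} {c : ι → ℕ} {k l : κ} (hkl : k ≠ l) (X : Tab r c)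
    (g : Tab r c → ℝ) :
    ∑ U ∈ powersetCard (X.1 k \ X.1 l).card ((X.1 k \ X.1 l) ∪ (X.1 l \ X.1 k)),
      g (PairSwitch_mk hkl X U) = ∑ Y ∈ fib (key {k, l}) X, g Y := by
  refine sum_bij' (fun U _ => PairSwitch_mk hkl X U)
    (fun Y _ => Y.1 k ∩ ((X.1 k \ X.1 l) ∪ (X.1 l \ X.1 k))) ?_ ?_ ?_ ?_ ?_
  · intro U hU
    rw [mem_fib, PairSwitch_key]
    intro k' h1 h2
    rw [PairSwitch_mk_val hkl X hU]
    unfold PairSwitch_rows
    rw [if_neg h1, if_neg h2]
  · intro Y hY
    rw [mem_fib, PairSwitch_key] at hY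
    have hc := PairSwitch_col hkl hY
    rw [mem_powersetCard]
    refine ⟨inter_subset_right, ?_⟩
    have e1 : Y.1 k = (X.1 k ∩ X.1 l) ∪ (Y.1 k ∩ ((X.1 k \ X.1 l) ∪ (X.1 l \ X.1 k))) := by
      ext j
      have h1 := hc j
      simp only [mem_union, mem_inter, mem_sdiff]
      by_cases a1 : j ∈ X.1 k <;> by_cases a2 : j ∈ X.1 l <;> by_cases a3 : j ∈ Y.1 k <;>
        by_cases a4 : j ∈ Y.1 l <;> simp [a1, a2, a3, a4] at h1 ⊢
    have e2 : Disjoint (X.1 k ∩ X.1 l) (Y.1 k ∩ ((X.1 k \ X.1 l) ∪ (X.1 l \ X.1 k))) := by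
      rw [disjoint_left]
      intro j hj hj'
      simp only [mem_union, mem_sdiff, mem_inter] at hj hj'
      tauto
    have e3 := congrArg card e1
    rw [card_union_of_disjoint e2, Y.2.1 k, ← X.2.1 k,
      ← card_inter_add_card_sdiff (X.1 k) (X.1 l)] at e3
    omega
  · intro U hU
    show (PairSwitch_mk hkl X U).1 k ∩ _ = U
    rw [PairSwitch_mk_val hkl X hU]
    have hsub := (mem_powersetCard.1 hU).1
    unfold PairSwitch_rows
    rw [if_pos rfl]
    ext j
    simp only [mem_union, mem_sdiff, mem_inter]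
    constructor
    · tauto
    · intro hj
      have h2 := hsub hj
      simp only [mem_union, mem_sdiff] at h2
      tauto
  · intro Y hY
    have hmem : Y.1 k ∩ ((X.1 k \ X.1 l) ∪ (X.1 l \ X.1 k)) ∈
        powersetCard (X.1 k \ X.1 l).card ((X.1 k \ X.1 l) ∪ (X.1 l \ X.1 k)) := by
      rw [mem_fib, PairSwitch_key] at hY
      have hc := PairSwitch_col hkl hY
      rw [mem_powersetCard]
      refine ⟨inter_subset_right, ?_⟩
      have e1 : Y.1 k = (X.1 k ∩ X.1 l) ∪ (Y.1 k ∩ ((X.1 k \ X.1 l) ∪ (X.1 l \ X.1 k))) := by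
        ext j
        have h1 := hc j
        simp only [mem_union, mem_inter, mem_sdiff]
        by_cases a1 : j ∈ X.1 k <;> by_cases a2 : j ∈ X.1 l <;> by_cases a3 : j ∈ Y.1 k <;>
          by_cases a4 : j ∈ Y.1 l <;> simp [a1, a2, a3, a4] at h1 ⊢
      have e2 : Disjoint (X.1 k ∩ X.1 l) (Y.1 k ∩ ((X.1 k \ X.1 l) ∪ (X.1 l \ X.1 k))) := by
        rw [disjoint_left]
        intro j hj hj'
        simp only [mem_union, mem_sdiff, mem_inter] at hj hj'
        tauto
      have e3 := congrArg card e1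
      rw [card_union_of_disjoint e2, Y.2.1 k, ← X.2.1 k,
        ← card_inter_add_card_sdiff (X.1 k) (X.1 l)] at e3
      omega
    rw [mem_fib, PairSwitch_key] at hY
    have hc := PairSwitch_col hkl hY
    apply Subtype.ext
    show (PairSwitch_mk hkl X _).1 = Y.1
    rw [PairSwitch_mk_val hkl X hmem]
    funext k'
    unfold PairSwitch_rows
    by_cases h1 : k' = k
    · rw [if_pos h1, h1]
      ext j
      have h2 := hc j
      simp only [mem_union, mem_inter, mem_sdiff]
      by_cases a1 : j ∈ X.1 k <;> by_cases a2 : j ∈ X.1 l <;> by_cases a3 : j ∈ Y.1 k <;>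
        by_cases a4 : j ∈ Y.1 l <;> simp [a1, a2, a3, a4] at h2 ⊢
    · rw [if_neg h1]
      by_cases h2 : k' = l
      · rw [if_pos h2, h2]
        ext j
        have h3 := hc j
        simp only [mem_union, mem_inter, mem_sdiff]
        by_cases a1 : j ∈ X.1 k <;> by_cases a2 : j ∈ X.1 l <;> by_cases a3 : j ∈ Y.1 k <;>
          by_cases a4 : j ∈ Y.1 l <;> simp [a1, a2, a3, a4] at h3 ⊢
      · rw [if_neg h2]
        exact (hY k' h1 h2).symm
  · intro U _
    rfl

theorem PairSwitch_swRel {r : κ → ℕ} {c : ι → ℕ} {k l : κ} (hkl : k ≠ l) (X : Tab r c)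
    {U V : Finset ι}
    (hU : U ∈ powersetCard (X.1 k \ X.1 l).card ((X.1 k \ X.1 l) ∪ (X.1 l \ X.1 k)))
    (hV : V ∈ powersetCard (X.1 k \ X.1 l).card ((X.1 k \ X.1 l) ∪ (X.1 l \ X.1 k))) :
    swRel k l (PairSwitch_mk hkl X U) (PairSwitch_mk hkl X V) ↔ (U \ V).card = 1 := by
  unfold swRel
  rw [PairSwitch_mk_val hkl X hU, PairSwitch_mk_val hkl X hV]
  have h1 : ∀ k', k' ≠ k → k' ≠ l →
      PairSwitch_rows k l X.1 U k' = PairSwitch_rows k l X.1 V k' := by
    intro k' h1 h2
    unfold PairSwitch_rows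
    rw [if_neg h1, if_neg h2, if_neg h1, if_neg h2]
  have h2 : PairSwitch_rows k l X.1 U k \ PairSwitch_rows k l X.1 V k = U \ V := by
    unfold PairSwitch_rows
    rw [if_pos rfl, if_pos rfl]
    have hsub := (mem_powersetCard.1 hU).1
    ext j
    simp only [mem_union, mem_sdiff, mem_inter]
    constructor
    · tauto
    · rintro ⟨h3, h4⟩
      have h5 := hsub h3
      simp only [mem_union, mem_sdiff] at h5
      tauto
  rw [h2]
  exact ⟨fun h => h.2, fun h => ⟨h1, h⟩⟩

/-- one fibre -/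
theorem PairSwitch_fib {r : κ → ℕ} {c : ι → ℕ} (k l : κ) (hkl : k ≠ l) (F : Tab r c → ℝ)
    (X0 : Tab r c) :
    ∑ X ∈ fib (key {k, l}) X0, (F X - E {k, l} F X) ^ 2 ≤
      (1 / 4) * ∑ X ∈ fib (key {k, l}) X0, ∑ Y,
        (if swRel k l X Y then (F X - F Y) ^ 2 else 0) := by
  have hJ := johnson ((X0.1 k \ X0.1 l) ∪ (X0.1 l \ X0.1 k)) (X0.1 k \ X0.1 l).card
    (fun U => F (PairSwitch_mk hkl X0 U))
  have hcard : ((powersetCard (X0.1 k \ X0.1 l).card
      ((X0.1 k \ X0.1 l) ∪ (X0.1 l \ X0.1 k))).card : ℝ) = ((fib (key {k, l}) X0).card : ℝ) := by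
    have h1 := PairSwitch_sum hkl X0 (fun _ => (1 : ℝ))
    simpa using h1
  have hmean : (∑ V ∈ powersetCard (X0.1 k \ X0.1 l).card
      ((X0.1 k \ X0.1 l) ∪ (X0.1 l \ X0.1 k)), F (PairSwitch_mk hkl X0 V)) /
      ((powersetCard (X0.1 k \ X0.1 l).card
      ((X0.1 k \ X0.1 l) ∪ (X0.1 l \ X0.1 k))).card : ℝ) = E {k, l} F X0 := by
    rw [hcard, PairSwitch_sum hkl X0 F]
    rfl
  rw [hmean] at hJ
  have hL : ∑ X ∈ fib (key {k, l}) X0, (F X - E {k, l} F X) ^ 2 =
      ∑ X ∈ fib (key {k, l}) X0, (F X - E {k, l} F X0) ^ 2 := by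
    refine sum_congr rfl fun X hX => ?_
    have h1 : E {k, l} F X = E {k, l} F X0 := avg_const F (mem_fib.1 hX)
    rw [h1]
  rw [hL, ← PairSwitch_sum hkl X0 (fun X => (F X - E {k, l} F X0) ^ 2)]
  refine hJ.trans (le_of_eq ?_)
  congr 1
  have hR : ∑ X ∈ fib (key {k, l}) X0, ∑ Y, (if swRel k l X Y then (F X - F Y) ^ 2 else 0) =
      ∑ X ∈ fib (key {k, l}) X0, ∑ Y ∈ fib (key {k, l}) X0,
        (if swRel k l X Y then (F X - F Y) ^ 2 else 0) := by
    refine sum_congr rfl fun X hX => ?_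
    symm
    refine sum_subset (subset_univ _) fun Y _ hY => ?_
    rw [if_neg]
    intro hsw
    apply hY
    rw [mem_fib]
    rw [← mem_fib.1 hX, PairSwitch_key]
    intro k' h1 h2
    exact (hsw.1 k' h1 h2).symm
  rw [hR, ← PairSwitch_sum hkl X0 (fun X => ∑ Y ∈ fib (key {k, l}) X0,
        (if swRel k l X Y then (F X - F Y) ^ 2 else 0))]
  refine sum_congr rfl fun U hU => ?_
  rw [← PairSwitch_sum hkl X0 (fun Y => (if swRel k l (PairSwitch_mk hkl X0 U) Y then
    (F (PairSwitch_mk hkl X0 U) - F Y) ^ 2 else 0))]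
  refine sum_congr rfl fun V hV => ?_
  have h1 := PairSwitch_swRel hkl X0 hU hV
  by_cases h2 : (U \ V).card = 1
  · rw [if_pos h2, if_pos (h1.2 h2)]
  · rw [if_neg h2, if_neg (fun h => h2 (h1.1 h))]

theorem pair_switch {r : κ → ℕ} {c : ι → ℕ} (k l : κ) (hkl : k ≠ l) (F : Tab r c → ℝ) :
    ∑ X, (F X - E {k, l} F X) ^ 2 ≤
      (1 / 4) * ∑ X, ∑ Y, (if swRel k l X Y then (F X - F Y) ^ 2 else 0) := by
  have hsplit : ∀ g : Tab r c → ℝ, ∑ X, g X =
      ∑ b ∈ univ.image (key (r := r) (c := c) {k, l}),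
        ∑ X ∈ univ.filter (fun X => key {k, l} X = b), g X := by
    intro g
    exact (sum_fiberwise_of_maps_to (fun X _ => mem_image_of_mem _ (mem_univ X)) g).symm
  rw [hsplit (fun X => (F X - E {k, l} F X) ^ 2),
    hsplit (fun X => ∑ Y, (if swRel k l X Y then (F X - F Y) ^ 2 else 0)), mul_sum]
  refine sum_le_sum fun b hb => ?_
  obtain ⟨X0, -, rfl⟩ := mem_image.1 hb
  have hf : univ.filter (fun X : Tab r c => key {k, l} X = key {k, l} X0) =
      fib (key {k, l}) X0 := by
    ext X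
    rw [mem_fib, mem_filter]
    exact ⟨fun h => h.2, fun h => ⟨mem_univ _, h⟩⟩
  rw [hf]
  exact PairSwitch_fib k l hkl F X0

end

end VP335
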