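import Vale.Agent.P335.Bochner
import Vale.Agent.P335.Conn
import Vale.Agent.P335.Spectral

/-! P335: the spectral gap of the row-pair heat bath is at least one -/

namespace VP335

open Finset

noncomputable section

open Classical

variable {κ ι : Type*} [Fintype κ] [Fintype ι]

private lemma Poincare_L_ip {r : κ → ℕ} {c : ι → ℕ} (F G : Tab r c → ℝ) :
    ip (L F) G = ∑ a ∈ powersetCard 2 (univ : Finset κ), ip (fun X => F X - E a F X) G := by
  unfold ip L
  simp only [sum_mul]
  rw [sum_comm]

private lemma Poincare_ip_L {r : κ → ℕ} {c : ι → ℕ} (F G : Tab r c → ℝ) :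
    ip F (L G) = ∑ a ∈ powersetCard 2 (univ : Finset κ), ip F (fun X => G X - E a G X) := by
  unfold ip L
  simp only [mul_sum]
  rw [sum_comm]

private lemma Poincare_symm {r : κ → ℕ} {c : ι → ℕ} (a : Finset κ) (F G : Tab r c → ℝ) :
    ip (fun X => F X - E a F X) G = ip F (fun X => G X - E a G X) := by
  have h1 : ip (fun X => F X - E a F X) G = ip F G - ip (E a F) G := by
    unfold ip
    simp only [sub_mul, sum_sub_distrib]
  have h2 : ip F (fun X => G X - E a G X) = ip F G - ip F (E a G) := by
    unfold ip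
    simp only [mul_sub, sum_sub_distrib]
  rw [h1, h2]
  unfold E
  rw [ip_avg]

private lemma Poincare_L_symm {r : κ → ℕ} {c : ι → ℕ} (F G : Tab r c → ℝ) :
    ip (L F) G = ip F (L G) := by
  rw [Poincare_L_ip, Poincare_ip_L]
  exact sum_congr rfl (fun a _ => Poincare_symm a F G)

private lemma Poincare_form {r : κ → ℕ} {c : ι → ℕ} (F : Tab r c → ℝ) :
    ip F (L F) = ∑ a ∈ powersetCard 2 (univ : Finset κ), ∑ X, (F X - E a F X) ^ 2 := by
  rw [Poincare_ip_L]
  refine sum_congr rfl (fun a _ => ?_)
  have h := ip_sub_avg (key a : Tab r c → κ → Finset ι) F F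
  have h2 : ip F (fun X => F X - E a F X) = ip F (fun x => F x - avg (key a) F x) := rfl
  rw [h2, ← h]
  unfold ip E
  exact sum_congr rfl (fun X _ => (sq _).symm)

/-- minus the generator, as a linear map -/
private def Poincare_T {r : κ → ℕ} {c : ι → ℕ} : (Tab r c → ℝ) →ₗ[ℝ] (Tab r c → ℝ) where
  toFun F := fun X => - L F X
  map_add' F G := by
    funext X
    have h1 : ∀ a : Finset κ, E a (F + G) X = E a F X + E a G X :=
      fun a => avg_add (key a) F G X
    simp only [L, Pi.add_apply, h1]
    rw [← neg_add, ← sum_add_distrib]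
    congr 1
    exact sum_congr rfl (fun a _ => by ring)
  map_smul' t F := by
    funext X
    have h1 : ∀ a : Finset κ, E a (t • F) X = t * E a F X :=
      fun a => avg_smul (key a) t F X
    simp only [L, Pi.smul_apply, smul_eq_mul, h1, RingHom.id_apply]
    rw [mul_neg, mul_sum]
    congr 1
    exact sum_congr rfl (fun a _ => by ring)

private lemma Poincare_T_apply {r : κ → ℕ} {c : ι → ℕ} (F : Tab r c → ℝ) (X : Tab r c) :
    Poincare_T F X = - L F X := rfl

private lemma Poincare_ip_neg_right {Ω : Type*} [Fintype Ω] (F G : Ω → ℝ) :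
    ip F (fun X => - G X) = - ip F G := by
  unfold ip
  simp only [mul_neg, sum_neg_distrib]

private lemma Poincare_ip_neg_left {Ω : Type*} [Fintype Ω] (F G : Ω → ℝ) :
    ip (fun X => - F X) G = - ip F G := by
  unfold ip
  simp only [neg_mul, sum_neg_distrib]

private lemma Poincare_eigen {r : κ → ℕ} {c : ι → ℕ} (θ : ℝ) (hθ : -1 < θ) (F : Tab r c → ℝ)
    (hF : ∑ X, F X = 0) (hT : Poincare_T F = θ • F) : F = 0 := by
  by_contra hne
  have hpos : 0 < ip F F := by
    rcases (ip_self_nonneg F).lt_or_eq with h | h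
    · exact h
    · exact absurd (ip_self_eq_zero h.symm) hne
  have hL : L F = fun X => (-θ) * F X := by
    funext X
    have := congrFun hT X
    rw [Poincare_T_apply] at this
    simp only [Pi.smul_apply, smul_eq_mul] at this
    linarith
  have h1 : ip F (L F) = (-θ) * ip F F := by
    rw [hL]
    unfold ip
    rw [mul_sum]
    exact sum_congr rfl (fun X _ => by ring)
  have h2 : ip (L F) (L F) = (-θ) ^ 2 * ip F F := by
    rw [hL]
    unfold ip
    rw [mul_sum]
    exact sum_congr rfl (fun X _ => by ring)
  have h3 := bochner F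
  rw [h1, h2] at h3
  have h4 : 0 ≤ ip F (L F) := by
    rw [Poincare_form]
    exact sum_nonneg (fun a _ => sum_nonneg (fun X _ => sq_nonneg _))
  have h5 : 0 ≤ -θ := by
    rw [h1] at h4
    by_contra h
    push Not at h
    nlinarith
  have h6 : -θ ≤ (-θ) ^ 2 := le_of_mul_le_mul_right h3 hpos
  have h7 : θ = 0 := by nlinarith
  have h8 : ∑ a ∈ powersetCard 2 (univ : Finset κ), ∑ X, (F X - E a F X) ^ 2 = 0 := by
    rw [← Poincare_form, h1, h7]
    simp
  have h9 : ∀ a ∈ powersetCard 2 (univ : Finset κ), ∀ X, F X = E a F X := by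
    intro a ha X
    have h10 := (sum_eq_zero_iff_of_nonneg
      (fun a _ => sum_nonneg (fun X _ => sq_nonneg (F X - E a F X)))).mp h8 a ha
    have h11 := (sum_eq_zero_iff_of_nonneg
      (fun X _ => sq_nonneg (F X - E a F X))).mp h10 X (mem_univ X)
    have h12 := pow_eq_zero_iff (two_ne_zero) |>.mp h11
    linarith
  have hconst := conn F (by
    intro k l hkl X Y hXY
    have ha : ({k, l} : Finset κ) ∈ powersetCard 2 (univ : Finset κ) := by
      rw [mem_powersetCard]
      exact ⟨subset_univ _, card_pair hkl⟩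
    have hk : key ({k, l} : Finset κ) X = key ({k, l} : Finset κ) Y := by
      funext k'
      unfold key
      by_cases hm : k' ∈ ({k, l} : Finset κ)
      · rw [if_pos hm, if_pos hm]
      · rw [if_neg hm, if_neg hm]
        simp only [mem_insert, mem_singleton, not_or] at hm
        exact hXY k' hm.1 hm.2
    rw [h9 _ ha X, h9 _ ha Y]
    exact avg_const F hk)
  apply hne
  funext X
  have h13 : ∑ Y, F Y = (Fintype.card (Tab r c) : ℝ) * F X := by
    rw [sum_congr rfl (fun Y _ => hconst Y X), sum_const, card_univ, nsmul_eq_mul]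
  rw [hF] at h13
  have h14 : (Fintype.card (Tab r c) : ℝ) ≠ 0 := by
    have : 0 < Fintype.card (Tab r c) := Fintype.card_pos_iff.mpr ⟨X⟩
    positivity
  have := mul_eq_zero.mp h13.symm
  rcases this with h | h
  · exact absurd h h14
  · exact h

theorem poincare {r : κ → ℕ} {c : ι → ℕ} (F : Tab r c → ℝ) :
    ∑ X, (F X - mean F) ^ 2 ≤
      ∑ a ∈ powersetCard 2 (univ : Finset κ), ∑ X, (F X - E a F X) ^ 2 := by
  have hsp := spectral_upper (Poincare_T : (Tab r c → ℝ) →ₗ[ℝ] (Tab r c → ℝ))
    (by
      intro F G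
      have h1 : ip (Poincare_T F) G = - ip (L F) G := Poincare_ip_neg_left (L F) G
      have h2 : ip F (Poincare_T G) = - ip F (L G) := Poincare_ip_neg_right F (L G)
      rw [h1, h2, Poincare_L_symm])
    (by
      intro F hF
      simp only [Poincare_T_apply, sum_neg_distrib]
      unfold L
      rw [sum_comm, neg_eq_zero]
      refine sum_eq_zero (fun a _ => ?_)
      rw [sum_sub_distrib]
      unfold E
      rw [sum_avg, sub_self])
    (-1) (fun θ hθ F hF hT => Poincare_eigen θ hθ F hF hT)
  have h0 := hsp (fun X => F X - mean F) (sum_sub_mean F)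
  have h1 : ip (fun X => F X - mean F) (Poincare_T (fun X => F X - mean F)) =
      - ip (fun X => F X - mean F) (L (fun X => F X - mean F)) :=
    Poincare_ip_neg_right _ _
  rw [h1, Poincare_form] at h0
  have h2 : ip (fun X => F X - mean F) (fun X => F X - mean F) =
      ∑ X, (F X - mean F) ^ 2 := by
    unfold ip
    exact sum_congr rfl (fun X _ => (sq _).symm)
  rw [h2] at h0
  have h3 : ∀ (a : Finset κ) (X : Tab r c),
      (F X - mean F) - E a (fun X => F X - mean F) X = F X - E a F X := by
    intro a X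
    unfold E
    rw [avg_sub (key a) F (fun _ => mean F) X]
    rw [avg_of_const (F := fun _ => mean F) (fun _ _ => rfl)]
    ring
  simp only [h3] at h0
  linarith

end

end VP335
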