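import Vale.Agent.P335.Avg

/-! P335: three rows, swap invariant functions of one row depend only on the size -/

namespace VP335

open Finset

noncomputable section

open Classical

variable {ι : Type*} [Fintype ι]

theorem sizeDep_swap_c {c : ι → ℕ} {i j : ι} (hc : c i = c j) (a : ι) :
    c (Equiv.swap i j a) = c a := by
  by_cases h1 : a = i
  · subst h1; simp [hc]
  · by_cases h2 : a = j
    · subst h2; simp [hc]
    · rw [Equiv.swap_apply_of_ne_of_ne h1 h2]

theorem sizeDep_mem_swap {r : Fin 3 → ℕ} {c : ι → ℕ} {i j : ι} (hc : c i = c j)
    (X : Tab r c) (k : Fin 3) (a : ι) :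
    a ∈ (swapCol i j hc X).1 k ↔ Equiv.swap i j a ∈ X.1 k := by
  change a ∈ (X.1 k).map (Equiv.swap i j).toEmbedding ↔ _
  rw [mem_map]
  constructor
  · rintro ⟨b, hb, rfl⟩
    simpa using hb
  · intro h
    exact ⟨_, h, by simp⟩

theorem sizeDep_sz_swap {r : Fin 3 → ℕ} {c : ι → ℕ} {i j : ι} (hc : c i = c j)
    (X : Tab r c) (k : Fin 3) : sz k (swapCol i j hc X) = sz k X := by
  unfold sz
  change (((X.1 k).map (Equiv.swap i j).toEmbedding).filter (fun j => c j = 1)).card = _
  rw [filter_map, card_map]
  congr 1
  refine filter_congr fun a _ => ?_
  simp only [Function.comp_apply, Equiv.coe_toEmbedding, sizeDep_swap_c hc a]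

/-- a function of the row `k` alone which is invariant under swaps of columns of equal sums
depends only on the number of columns of sum one in the row `k` -/
theorem size_dep {r : Fin 3 → ℕ} {c : ι → ℕ} (k : Fin 3) (H : Tab r c → ℝ)
    (hk : ∀ X Y : Tab r c, X.1 k = Y.1 k → H X = H Y)
    (hs : ∀ (i j : ι) (hc : c i = c j) (X : Tab r c), H (swapCol i j hc X) = H X) :
    ∀ X Y : Tab r c, sz k X = sz k Y → H X = H Y := by
  have key : ∀ n : ℕ, ∀ X Y : Tab r c, (X.1 k \ Y.1 k).card = n → sz k X = sz k Y →
      H X = H Y := by
    intro n
    induction n using Nat.strong_induction_on with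
    | _ n ih =>
      intro X Y hn hsz
      by_cases hne : X.1 k \ Y.1 k = ∅
      · apply hk
        have h1 : X.1 k ⊆ Y.1 k := sdiff_eq_empty_iff_subset.1 hne
        exact eq_of_subset_of_card_le h1 (by rw [X.2.1, Y.2.1])
      · obtain ⟨j, hj⟩ := nonempty_iff_ne_empty.2 hne
        rw [mem_sdiff] at hj
        obtain ⟨hjX, hjY⟩ := hj
        -- membership bounds
        have hge : ∀ (Z : Tab r c) (a : ι), a ∈ Z.1 k → 1 ≤ c a := by
          intro Z a ha
          rw [← Z.2.2 a]
          exact card_pos.2 ⟨k, mem_filter.2 ⟨mem_univ _, ha⟩⟩
        have hle : ∀ (Z : Tab r c) (a : ι), a ∉ Z.1 k → c a ≤ 2 := by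
          intro Z a ha
          rw [← Z.2.2 a]
          have h1 : (univ.filter (fun k => a ∈ Z.1 k)) ⊆ (univ : Finset (Fin 3)).erase k := by
            intro k' hk'
            rw [mem_erase]
            refine ⟨?_, mem_univ _⟩
            rintro rfl
            exact ha (mem_filter.1 hk').2
          have h2 := card_le_card h1
          rw [card_erase_of_mem (mem_univ _), card_univ, Fintype.card_fin] at h2
          exact h2
        have hex : ∃ i, i ∈ Y.1 k ∧ i ∉ X.1 k ∧ c j = c i := by
          by_cases hc1 : c j = 1
          · by_contra hcon
            push Not at hcon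
            have h1 : (Y.1 k).filter (fun j => c j = 1) ⊆ (X.1 k).filter (fun j => c j = 1) := by
              intro a ha
              rw [mem_filter] at ha ⊢
              refine ⟨?_, ha.2⟩
              by_contra h2
              exact hcon a ha.1 h2 (by rw [hc1, ha.2])
            have h2 := eq_of_subset_of_card_le h1 (le_of_eq hsz)
            have h3 : j ∈ (X.1 k).filter (fun j => c j = 1) := mem_filter.2 ⟨hjX, hc1⟩
            rw [← h2] at h3
            exact hjY (mem_filter.1 h3).1
          · have hcj : c j = 2 := by
              have h1 := hge X j hjX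
              have h2 := hle Y j hjY
              omega
            by_contra hcon
            push Not at hcon
            have h1 : (Y.1 k).filter (fun j => ¬ c j = 1) ⊆
                (X.1 k).filter (fun j => ¬ c j = 1) := by
              intro a ha
              rw [mem_filter] at ha ⊢
              refine ⟨?_, ha.2⟩
              by_contra h2
              have h3 := hge Y a ha.1
              have h4 := hle X a h2
              have h5 := ha.2
              exact hcon a ha.1 h2 (by omega)
            have hX := card_filter_add_card_filter_not (s := X.1 k) (fun j => c j = 1)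
            have hY := card_filter_add_card_filter_not (s := Y.1 k) (fun j => c j = 1)
            have hsz' : ((X.1 k).filter (fun j => c j = 1)).card =
                ((Y.1 k).filter (fun j => c j = 1)).card := hsz
            have hcX := X.2.1 k
            have hcY := Y.2.1 k
            have h2 := eq_of_subset_of_card_le h1 (by omega)
            have h3 : j ∈ (X.1 k).filter (fun j => ¬ c j = 1) := mem_filter.2 ⟨hjX, hc1⟩
            rw [← h2] at h3
            exact hjY (mem_filter.1 h3).1
        obtain ⟨i, hiY, hiX, hc⟩ := hex
        have hij : i ≠ j := by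
          rintro rfl
          exact hiX hjX
        have hsub : (swapCol j i hc X).1 k \ Y.1 k ⊂ X.1 k \ Y.1 k := by
          rw [ssubset_iff_of_subset]
          · refine ⟨j, mem_sdiff.2 ⟨hjX, hjY⟩, ?_⟩
            rw [mem_sdiff, sizeDep_mem_swap]
            rintro ⟨h, -⟩
            rw [Equiv.swap_apply_left] at h
            exact hiX h
          · intro a ha
            rw [mem_sdiff, sizeDep_mem_swap] at ha
            obtain ⟨h1, h2⟩ := ha
            rw [mem_sdiff]
            refine ⟨?_, h2⟩
            have hai : a ≠ i := by
              rintro rfl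
              exact h2 hiY
            have haj : a ≠ j := by
              rintro rfl
              rw [Equiv.swap_apply_left] at h1
              exact hiX h1
            rwa [Equiv.swap_apply_of_ne_of_ne haj hai] at h1
        have hlt := card_lt_card hsub
        rw [hn] at hlt
        rw [← hs j i hc X]
        exact ih _ hlt _ Y rfl (by rw [sizeDep_sz_swap, hsz])
  intro X Y h
  exact key _ X Y rfl h

end

end VP335
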