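import Vale.Agent.P335.SizeDep

/-! P335: three rows, eigenfunctions with large eigenvalue are invariant under swapping columns
of equal sums -/

namespace VP335

open Finset

noncomputable section

open Classical

variable {ι : Type*} [Fintype ι]

theorem swapInv_invol {r : Fin 3 → ℕ} {c : ι → ℕ} {i j : ι} (hc : c i = c j)
    (X : Tab r c) : swapCol i j hc (swapCol i j hc X) = X := by
  apply Subtype.ext
  funext k
  ext a
  rw [sizeDep_mem_swap, sizeDep_mem_swap]
  simp

/-- the column swap as a permutation of tables -/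
def swapInv_equiv {r : Fin 3 → ℕ} {c : ι → ℕ} (i j : ι) (hc : c i = c j) :
    Tab r c ≃ Tab r c where
  toFun := swapCol i j hc
  invFun := swapCol i j hc
  left_inv := swapInv_invol hc
  right_inv := swapInv_invol hc

/-- some row contains both or neither of the columns `i`, `j` -/
theorem swapInv_row {r : Fin 3 → ℕ} {c : ι → ℕ} {i j : ι} (hc : c i = c j) (X : Tab r c) :
    ∃ k : Fin 3, (i ∈ X.1 k ↔ j ∈ X.1 k) := by
  by_contra hcon
  push Not at hcon
  have h1 : (univ.filter (fun k => j ∈ X.1 k)) = univ.filter (fun k => ¬ i ∈ X.1 k) := by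
    refine filter_congr fun k _ => ?_
    have := hcon k
    tauto
  have h2 := card_filter_add_card_filter_not (s := (univ : Finset (Fin 3)))
    (fun k => i ∈ X.1 k)
  rw [← h1, X.2.2, X.2.2, card_univ, Fintype.card_fin] at h2
  omega

theorem swapInv_row_eq {r : Fin 3 → ℕ} {c : ι → ℕ} {i j : ι} (hc : c i = c j) (X : Tab r c)
    (k : Fin 3) (h : i ∈ X.1 k ↔ j ∈ X.1 k) : (swapCol i j hc X).1 k = X.1 k := by
  ext a
  rw [sizeDep_mem_swap]
  by_cases h1 : a = i
  · subst h1; rw [Equiv.swap_apply_left]; exact h.symm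
  · by_cases h2 : a = j
    · subst h2; rw [Equiv.swap_apply_right]; exact h
    · rw [Equiv.swap_apply_of_ne_of_ne h1 h2]

theorem swap_inv {r : Fin 3 → ℕ} {c : ι → ℕ} (θ : ℝ) (hθ : 2 < θ) (F : Tab r c → ℝ)
    (hF : ∀ X, ∑ k : Fin 3, avg (fun Y : Tab r c => Y.1 k) F X = θ * F X) (i j : ι)
    (hc : c i = c j) : ∀ X, F (swapCol i j hc X) = F X := by
  intro X0
  -- `P w G` averages over the tables with the same row `w`
  set P : Fin 3 → (Tab r c → ℝ) → Tab r c → ℝ := fun w G => avg (fun Y : Tab r c => Y.1 w) G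
    with hP
  set g : Fin 3 → Tab r c → ℝ := fun k X => P k F (swapCol i j hc X) - P k F X with hg
  have hθ0 : θ ≠ 0 := by linarith
  have hsw : ∀ (w : Fin 3) (x y : Tab r c), x.1 w = y.1 w ↔
      (swapInv_equiv i j hc x).1 w = (swapInv_equiv i j hc y).1 w := by
    intro w x y
    constructor
    · intro h
      ext a
      change a ∈ (swapCol i j hc x).1 w ↔ a ∈ (swapCol i j hc y).1 w
      rw [sizeDep_mem_swap, sizeDep_mem_swap, h]
    · intro h
      have h' : (swapCol i j hc x).1 w = (swapCol i j hc y).1 w := h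
      ext a
      have h1 : Equiv.swap i j a ∈ (swapCol i j hc x).1 w ↔
          Equiv.swap i j a ∈ (swapCol i j hc y).1 w := by rw [h']
      rw [sizeDep_mem_swap, sizeDep_mem_swap] at h1
      simpa using h1
  -- the sum of the `g k` at `Y`
  have hsum : ∀ Y, ∑ k, g k Y = θ * (F (swapCol i j hc Y) - F Y) := by
    intro Y
    simp only [hg, sum_sub_distrib]
    rw [hF, hF, mul_sub]
  -- `θ g w = P_w (∑ g k)`
  have hkey : ∀ w X, θ * g w X = avg (fun Y : Tab r c => Y.1 w) (fun Y => ∑ k, g k Y) X := by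
    intro w X
    have h1 : avg (fun Y : Tab r c => Y.1 w) (fun Y => ∑ k, g k Y) X =
        avg (fun Y : Tab r c => Y.1 w) (fun Y => θ * (F (swapCol i j hc Y) - F Y)) X :=
      avg_congr fun Y _ => hsum Y
    rw [h1, avg_smul, avg_sub]
    have h2 : avg (fun Y : Tab r c => Y.1 w) (fun Y => F (swapCol i j hc Y)) X =
        avg (fun Y : Tab r c => Y.1 w) F (swapCol i j hc X) :=
      avg_equiv (k := fun Y : Tab r c => Y.1 w) (swapInv_equiv i j hc) (hsw w) F X
    rw [h2]
  -- the maximum
  have hne : (univ : Finset (Fin 3 × Tab r c)).Nonempty := ⟨(0, X0), mem_univ _⟩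
  obtain ⟨m, -, hm⟩ := exists_max_image univ (fun p : Fin 3 × Tab r c => |g p.1 p.2|) hne
  set K := |g m.1 m.2| with hK
  have hK' : ∀ k X, |g k X| ≤ K := fun k X => hm (k, X) (mem_univ _)
  have hK0 : 0 ≤ K := abs_nonneg _
  have hbound : ∀ Y, |∑ k, g k Y| ≤ 2 * K := by
    intro Y
    obtain ⟨k0, hk0⟩ := swapInv_row hc Y
    have hz : g k0 Y = 0 := by
      simp only [hg, hP]
      rw [sub_eq_zero]
      exact avg_const (k := fun Y : Tab r c => Y.1 k0) F (swapInv_row_eq hc Y k0 hk0)
    have h1 : ∑ k, g k Y = ∑ k ∈ univ.erase k0, g k Y := by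
      rw [← add_sum_erase univ (fun k => g k Y) (mem_univ k0), hz, zero_add]
    rw [h1]
    calc |∑ k ∈ univ.erase k0, g k Y| ≤ ∑ k ∈ univ.erase k0, |g k Y| :=
          abs_sum_le_sum_abs _ _
      _ ≤ ∑ _k ∈ univ.erase k0, K := sum_le_sum fun k _ => hK' k Y
      _ = 2 * K := by
          rw [sum_const, card_erase_of_mem (mem_univ _), card_univ, Fintype.card_fin,
            nsmul_eq_mul]
          norm_num
  have h3 : θ * K ≤ 2 * K := by
    have h4 : θ * K = |θ * g m.1 m.2| := by
      rw [abs_mul, abs_of_pos (by linarith : (0 : ℝ) < θ)]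
    rw [h4, hkey]
    exact abs_avg_le fun Y _ => hbound Y
  have hKz : K = 0 := by
    by_contra h
    have h5 : 0 < K := lt_of_le_of_ne hK0 (Ne.symm h)
    nlinarith
  have h6 : ∑ k, g k X0 = 0 := by
    have h7 := hbound X0
    rw [hKz, mul_zero] at h7
    exact abs_nonpos_iff.1 h7
  rw [hsum] at h6
  rcases mul_eq_zero.1 h6 with h8 | h8
  · exact absurd h8 hθ0
  · linarith

end

end VP335
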