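import Vale.Agent.P335.Spectral
import Vale.Agent.P335.Hyp
import Vale.Agent.P335.SwapInv
import Vale.Agent.P335.ClassAvg

/-! P335: the three-row inequality -/

namespace VP335

open Finset

noncomputable section

open Classical

variable {ι : Type*} [Fintype ι]

theorem threeRow_swap_swap {r : Fin 3 → ℕ} {c : ι → ℕ} (i j : ι) (hc : c i = c j) (X : Tab r c) :
    swapCol i j hc (swapCol i j hc X) = X := by
  apply Subtype.ext
  funext k
  show ((X.1 k).map (Equiv.swap i j).toEmbedding).map (Equiv.swap i j).toEmbedding = X.1 k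
  ext a
  simp only [mem_map, Equiv.coe_toEmbedding, exists_exists_and_eq_and, Equiv.swap_apply_self]
  simp

/-- the column swap as an equivalence -/
def threeRow_swapEquiv {r : Fin 3 → ℕ} {c : ι → ℕ} (i j : ι) (hc : c i = c j) :
    Tab r c ≃ Tab r c where
  toFun := swapCol i j hc
  invFun := swapCol i j hc
  left_inv := threeRow_swap_swap i j hc
  right_inv := threeRow_swap_swap i j hc

theorem threeRow_others (w : Fin 3) : ∃ u v : Fin 3, w ≠ u ∧ w ≠ v ∧ u ≠ v ∧
    ∀ f : Fin 3 → ℝ, ∑ k, f k = f w + (f u + f v) := by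
  fin_cases w
  · exact ⟨1, 2, by decide, by decide, by decide, fun f => by
      rw [Fin.sum_univ_three]; simp only [Fin.zero_eta]; ring⟩
  · exact ⟨0, 2, by decide, by decide, by decide, fun f => by
      rw [Fin.sum_univ_three]; simp only [Fin.mk_one]; ring⟩
  · exact ⟨0, 1, by decide, by decide, by decide, fun f => by
      rw [Fin.sum_univ_three]; simp only [Fin.reduceFinMk]; ring⟩

/-- extension of a function of the size to a Lipschitz function on `ℕ` -/
theorem threeRow_extend {r : Fin 3 → ℕ} {c : ι → ℕ} (k : Fin 3) (H : Tab r c → ℝ) (Λ : ℝ)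
    (hΛ : 0 ≤ Λ)
    (hH : ∀ X Y : Tab r c, |H X - H Y| ≤ Λ * |(sz k X : ℝ) - sz k Y|) :
    ∃ φ : ℕ → ℝ, (∀ x, |φ (x + 1) - φ x| ≤ Λ) ∧ ∀ X : Tab r c, φ (sz k X) = H X := by
  let f : ℕ → ℝ := fun x => if h : ∃ X : Tab r c, sz k X = x then H h.choose else 0
  have hf : ∀ X : Tab r c, f (sz k X) = H X := by
    intro X
    have hex : ∃ Y : Tab r c, sz k Y = sz k X := ⟨X, rfl⟩
    have h1 : f (sz k X) = H hex.choose := dif_pos hex
    have h2 := hH hex.choose X
    rw [hex.choose_spec, sub_self, abs_zero, mul_zero] at h2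
    rw [h1]
    linarith [abs_nonpos_iff.1 h2]
  have hL : LipschitzOnWith ⟨Λ, hΛ⟩ f (Set.range (sz k : Tab r c → ℕ)) := by
    refine LipschitzOnWith.of_dist_le_mul ?_
    rintro _ ⟨X, rfl⟩ _ ⟨Y, rfl⟩
    rw [hf, hf, Real.dist_eq, Nat.dist_eq]
    exact hH X Y
  obtain ⟨g, hg, hfg⟩ := hL.extend_real
  refine ⟨g, fun x => ?_, fun X => ?_⟩
  · have := hg.dist_le_mul (x + 1) x
    rw [Real.dist_eq, Nat.dist_eq] at this
    refine this.trans (le_of_eq ?_)
    show Λ * |((x + 1 : ℕ) : ℝ) - x| = Λ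
    push_cast
    rw [add_sub_cancel_left, abs_one, mul_one]
  · rw [← hfg ⟨X, rfl⟩, hf]

theorem eig_zero {r : Fin 3 → ℕ} {c : ι → ℕ} (θ : ℝ) (hθ : 2 < θ) (F : Tab r c → ℝ)
    (h0 : ∑ X, F X = 0)
    (hF : ∀ X, ∑ k : Fin 3, avg (fun Y : Tab r c => Y.1 k) F X = θ * F X) : F = 0 := by
  rcases isEmpty_or_nonempty (Tab r c) with hem | hne
  · funext X
    exact (hem.false X).elim
  have hθ0 : θ ≠ 0 := by linarith
  set h : Fin 3 → Tab r c → ℝ := fun k X => θ⁻¹ * avg (fun Y : Tab r c => Y.1 k) F X with hh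
  have hsum : ∀ X, F X = ∑ k, h k X := by
    intro X
    simp only [hh]
    rw [← Finset.mul_sum, hF X, inv_mul_cancel_left₀ hθ0]
  have hrow : ∀ k, ∀ X Y : Tab r c, X.1 k = Y.1 k → h k X = h k Y := by
    intro k X Y hXY
    simp only [hh]
    rw [avg_const F (k := fun Y : Tab r c => Y.1 k) hXY]
  have hself : ∀ k X, avg (fun Y : Tab r c => Y.1 k) (h k) X = h k X := fun k X =>
    avg_of_const fun Y hY => hrow k Y X hY
  have hswap : ∀ k, ∀ (i j : ι) (hc : c i = c j) (X : Tab r c), h k (swapCol i j hc X) = h k X := by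
    intro k i j hc X
    simp only [hh]
    have h1 := avg_equiv (k := fun Y : Tab r c => Y.1 k) (threeRow_swapEquiv i j hc) (fun x y => by
      show x.1 k = y.1 k ↔ (x.1 k).map (Equiv.swap i j).toEmbedding =
        (y.1 k).map (Equiv.swap i j).toEmbedding
      exact (Finset.map_inj).symm) F X
    have h2 : (fun y => F (threeRow_swapEquiv i j hc y)) = F := by
      funext y
      exact swap_inv θ hθ F hF i j hc y
    rw [h2] at h1
    rw [h1]
    rfl
  have hsize : ∀ k, ∀ X Y : Tab r c, sz k X = sz k Y → h k X = h k Y := fun k =>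
    size_dep k (h k) (hrow k) (hswap k)
  -- the Lipschitz constant
  set q : Fin 3 × Tab r c × Tab r c → ℝ := fun p =>
    |h p.1 p.2.1 - h p.1 p.2.2| / |(sz p.1 p.2.1 : ℝ) - sz p.1 p.2.2| with hq
  obtain ⟨p0, hp0⟩ := Finite.exists_max q
  set Λ := q p0 with hΛdef
  have hΛ : 0 ≤ Λ := by
    rw [hΛdef, hq]
    positivity
  have hLip : ∀ k, ∀ X Y : Tab r c, |h k X - h k Y| ≤ Λ * |(sz k X : ℝ) - sz k Y| := by
    intro k X Y
    by_cases hs : sz k X = sz k Y
    · rw [hsize k X Y hs, sub_self, abs_zero]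
      positivity
    · have h1 : 0 < |(sz k X : ℝ) - sz k Y| := by
        rw [abs_pos, sub_ne_zero]
        exact_mod_cast hs
      have h2 := hp0 (k, X, Y)
      rw [← div_le_iff₀ h1]
      exact h2
  choose φ hφ1 hφ2 using fun k => threeRow_extend k (h k) Λ hΛ (hLip k)
  have hstep : ∀ w, ∀ X Y : Tab r c, sz w X ≤ sz w Y →
      (θ - 1) * |h w X - h w Y| ≤ |(sz w X : ℝ) - sz w Y| * Λ := by
    intro w X Y hle
    obtain ⟨u, v, hwu, hwv, huv, hsum3⟩ := threeRow_others w
    have heq : ∀ X, (θ - 1) * h w X = hyp (nN w X) (nM w X) (nP w u X)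
        (fun a => φ u a + φ v (nN w X - a)) := by
      intro X
      rw [← class_avg w u v hwu hwv huv (φ u) (φ v) X]
      have h1 : (fun Y : Tab r c => φ u (sz u Y) + φ v (sz v Y)) = fun Y => h u Y + h v Y := by
        funext Y
        rw [hφ2, hφ2]
      rw [h1]
      have h2 : avg (fun Y : Tab r c => Y.1 w) F X =
          h w X + avg (fun Y : Tab r c => Y.1 w) (fun Y => h u Y + h v Y) X := by
        have h3 : F = fun Y => h w Y + (h u Y + h v Y) := by
          funext Y
          rw [hsum Y, hsum3 (fun k => h k Y)]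
        calc avg (fun Y : Tab r c => Y.1 w) F X
            = avg (fun Y : Tab r c => Y.1 w) (fun Y => h w Y + (h u Y + h v Y)) X := by
              rw [← h3]
          _ = avg (fun Y : Tab r c => Y.1 w) (fun Y => h w Y) X +
              avg (fun Y : Tab r c => Y.1 w) (fun Y => h u Y + h v Y) X := avg_add _ _ _ _
          _ = _ := by
              have h5 : avg (fun Y : Tab r c => Y.1 w) (fun Y => h w Y) X = h w X := hself w X
              rw [h5]
      have h4 : avg (fun Y : Tab r c => Y.1 w) F X = θ * h w X := by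
        simp only [hh]
        rw [mul_inv_cancel_left₀ hθ0]
      rw [h4] at h2
      linarith
    obtain ⟨s, hs⟩ : ∃ s, sz w Y = sz w X + s := ⟨sz w Y - sz w X, by omega⟩
    obtain ⟨c1, c2, c3, c4⟩ := class_shift w u v hwu hwv huv X Y s hs
    have ht := hyp_tele (nN w X) (nM w X) (nP w u X) s (by omega) (by omega) (by omega) c4 Λ
      (φ u) (φ v) (hφ1 u) (hφ1 v)
    have e1 : nN w X - s = nN w Y := by omega
    have e2 : nM w X - s = nM w Y := by omega
    have e3 : nP w u X - s = nP w u Y := by omega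
    rw [e1, e2, e3, ← heq X, ← heq Y, ← mul_sub, abs_mul, abs_of_pos (by linarith : 0 < θ - 1)] at ht
    refine ht.trans (le_of_eq ?_)
    have h6 : (sz w X : ℝ) - sz w Y = -(s : ℝ) := by
      rw [hs]
      push_cast
      ring
    rw [h6, abs_neg, abs_of_nonneg (Nat.cast_nonneg s)]
  have hstep' : ∀ w, ∀ X Y : Tab r c,
      (θ - 1) * |h w X - h w Y| ≤ |(sz w X : ℝ) - sz w Y| * Λ := by
    intro w X Y
    rcases le_total (sz w X) (sz w Y) with hle | hle
    · exact hstep w X Y hle
    · have := hstep w Y X hle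
      rwa [abs_sub_comm, abs_sub_comm (sz w Y : ℝ)] at this
  have hΛ0 : Λ = 0 := by
    by_contra hne0
    have hpos : 0 < Λ := lt_of_le_of_ne hΛ (Ne.symm hne0)
    have h1 := hstep' p0.1 p0.2.1 p0.2.2
    have h2 : Λ = |h p0.1 p0.2.1 - h p0.1 p0.2.2| / |(sz p0.1 p0.2.1 : ℝ) - sz p0.1 p0.2.2| := rfl
    have h3 : 0 < |(sz p0.1 p0.2.1 : ℝ) - sz p0.1 p0.2.2| := by
      rcases (abs_nonneg ((sz p0.1 p0.2.1 : ℝ) - sz p0.1 p0.2.2)).eq_or_lt with h4 | h4
      · rw [← h4, div_zero] at h2
        exact absurd h2 hne0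
      · exact h4
    have h5 : |h p0.1 p0.2.1 - h p0.1 p0.2.2| = Λ * |(sz p0.1 p0.2.1 : ℝ) - sz p0.1 p0.2.2| := by
      rw [h2, div_mul_cancel₀ _ h3.ne']
    rw [h5] at h1
    have h6 := mul_pos (sub_pos.2 hθ) (mul_pos hpos h3)
    nlinarith [h6]
  have hconst : ∀ k, ∀ X Y : Tab r c, h k X = h k Y := by
    intro k X Y
    have := hLip k X Y
    rw [hΛ0, zero_mul] at this
    linarith [abs_nonpos_iff.1 this]
  have hFc : ∀ X Y : Tab r c, F X = F Y := by
    intro X Y
    rw [hsum X, hsum Y]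
    exact Finset.sum_congr rfl fun k _ => hconst k X Y
  funext X
  have h7 : ∑ Y, F Y = (Fintype.card (Tab r c) : ℝ) * F X := by
    rw [Finset.sum_congr rfl (fun Y _ => hFc Y X), Finset.sum_const, Finset.card_univ, nsmul_eq_mul]
  rw [h0] at h7
  have h8 : (Fintype.card (Tab r c) : ℝ) ≠ 0 := by
    have : 0 < Fintype.card (Tab r c) := Fintype.card_pos
    positivity
  rcases mul_eq_zero.1 h7.symm with h9 | h9
  · exact absurd h9 h8
  · exact h9

/-- the sum of the three row averages as a linear map -/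
def threeRow_T {r : Fin 3 → ℕ} {c : ι → ℕ} : (Tab r c → ℝ) →ₗ[ℝ] (Tab r c → ℝ) where
  toFun F := fun X => ∑ k : Fin 3, avg (fun Y : Tab r c => Y.1 k) F X
  map_add' F G := by
    funext X
    show ∑ k : Fin 3, avg (fun Y : Tab r c => Y.1 k) (fun Y => F Y + G Y) X =
      ∑ k : Fin 3, avg (fun Y : Tab r c => Y.1 k) F X + ∑ k : Fin 3, avg (fun Y : Tab r c => Y.1 k) G X
    simp only [avg_add, Finset.sum_add_distrib]
  map_smul' a F := by
    funext X
    show ∑ k : Fin 3, avg (fun Y : Tab r c => Y.1 k) (fun Y => a * F Y) X =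
      a * ∑ k : Fin 3, avg (fun Y : Tab r c => Y.1 k) F X
    simp only [avg_smul, Finset.mul_sum]

theorem three_row {r : Fin 3 → ℕ} {c : ι → ℕ} (F : Tab r c → ℝ) :
    ∑ X, (F X - mean F) ^ 2 ≤
      ∑ k : Fin 3, ∑ X, (F X - avg (fun Y : Tab r c => Y.1 k) F X) ^ 2 := by
  have hT : ∀ (G : Tab r c → ℝ) (X : Tab r c),
      threeRow_T G X = ∑ k : Fin 3, avg (fun Y : Tab r c => Y.1 k) G X := fun _ _ => rfl
  have hipT : ∀ G H : Tab r c → ℝ,
      ip G (threeRow_T H) = ∑ k : Fin 3, ip G (avg (fun Y : Tab r c => Y.1 k) H) := by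
    intro G H
    unfold ip
    simp only [hT, Finset.mul_sum]
    rw [Finset.sum_comm]
  have hsp := spectral_upper (threeRow_T (r := r) (c := c))
    (by
      intro G H
      rw [ip_comm, hipT, hipT]
      refine Finset.sum_congr rfl fun k _ => ?_
      rw [ip_comm, ip_avg])
    (by
      intro G hG
      simp only [hT]
      rw [Finset.sum_comm]
      refine Finset.sum_eq_zero fun k _ => ?_
      rw [sum_avg, hG]) 2
    (by
      intro θ hθ G hG hGe
      refine eig_zero θ hθ G hG fun X => ?_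
      have := congrFun hGe X
      rw [hT] at this
      rw [this]
      rfl)
  set F0 : Tab r c → ℝ := fun X => F X - mean F with hF0
  have hs0 : ∑ X, F0 X = 0 := sum_sub_mean F
  have h1 := hsp F0 hs0
  rw [hipT] at h1
  have h2 : ∀ k : Fin 3, ∑ X, (F X - avg (fun Y : Tab r c => Y.1 k) F X) ^ 2 =
      ip F0 F0 - ip F0 (avg (fun Y : Tab r c => Y.1 k) F0) := by
    intro k
    have h3 : ∀ X, F X - avg (fun Y : Tab r c => Y.1 k) F X =
        F0 X - avg (fun Y : Tab r c => Y.1 k) F0 X := by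
      intro X
      have h4 : avg (fun Y : Tab r c => Y.1 k) F0 X =
          avg (fun Y : Tab r c => Y.1 k) F X - mean F := by
        rw [hF0, avg_sub]
        congr 1
        exact avg_of_const (fun _ _ => rfl)
      rw [h4, hF0]
      ring
    have h5 := ip_sub_avg (fun Y : Tab r c => Y.1 k) F0 F0
    have h6 : ip F0 (fun x => F0 x - avg (fun Y : Tab r c => Y.1 k) F0 x) =
        ip F0 F0 - ip F0 (avg (fun Y : Tab r c => Y.1 k) F0) := by
      simp only [ip, mul_sub, Finset.sum_sub_distrib]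
    rw [← h6, ← h5]
    unfold ip
    refine Finset.sum_congr rfl fun X _ => ?_
    rw [h3 X]
    ring
  rw [Finset.sum_congr rfl (fun k _ => h2 k), Finset.sum_sub_distrib, Finset.sum_const,
    Finset.card_univ, Fintype.card_fin]
  have h7 : ∑ X, (F X - mean F) ^ 2 = ip F0 F0 := by
    unfold ip
    refine Finset.sum_congr rfl fun X _ => ?_
    simp only [hF0]
    ring
  rw [h7]
  simp only [nsmul_eq_mul]
  push_cast
  linarith

end

end VP335
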